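import Mathlib

/-!
The graph of `t` petals sharing a core, its copies, its automorphisms and its edge count.
-/

open Finset

namespace Vale.Agent.Lib.P064

open scoped Classical

variable {V α : Type}

/-- `t` disjoint copies of the block `C`, all attached to the same core `A`. -/
def sunGraph (F : SimpleGraph α) (A C : Finset α) (I : Type) : SimpleGraph (↥A ⊕ (I × ↥C)) where
  Adj x y := match x, y with
    | Sum.inl a, Sum.inr (_, c) => F.Adj a.1 c.1
    | Sum.inr (_, c), Sum.inl a => F.Adj c.1 a.1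
    | Sum.inr (i, c), Sum.inr (j, d) => i = j ∧ F.Adj c.1 d.1
    | Sum.inl _, Sum.inl _ => False
  symm := ⟨by
    rintro (a | ⟨i, c⟩) (b | ⟨j, d⟩) h
    · exact h
    · exact SimpleGraph.Adj.symm h
    · exact SimpleGraph.Adj.symm h
    · exact ⟨h.1.symm, SimpleGraph.Adj.symm h.2⟩⟩
  loopless := ⟨by
    rintro (a | ⟨i, c⟩) h
    · exact h
    · exact F.loopless.1 _ h.2⟩

/-- The petal permutation action. -/
def sunIso (F : SimpleGraph α) (A C : Finset α) (I : Type) (σ : Equiv.Perm I) :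
    sunGraph F A C I ≃g sunGraph F A C I where
  toEquiv := Equiv.sumCongr (Equiv.refl _) (Equiv.prodCongr σ (Equiv.refl _))
  map_rel_iff' := by
    rintro (a | ⟨i, c⟩) (b | ⟨j, d⟩)
    · simp [sunGraph]
    · simp [sunGraph]
    · simp [sunGraph]
    · simp [sunGraph]

/-- Counting copies against a group of automorphisms. -/
lemma copyCount_mul_card_le {β Γ : Type} [Fintype β] [Fintype Γ] (n : ℕ) (U : SimpleGraph β)
    (act : Γ → (U ≃g U)) (hact : ∀ γ γ', (∀ x, act γ x = act γ' x) → γ = γ') :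
    (⊤ : SimpleGraph (Fin n)).copyCount U * Fintype.card Γ ≤ n ^ Fintype.card β := by
  rw [SimpleGraph.copyCount_eq_card_image_copyToSubgraph]
  have h1 : Fintype.card (U.Copy (⊤ : SimpleGraph (Fin n))) ≤ n ^ Fintype.card β := by
    have : Fintype.card (U.Copy (⊤ : SimpleGraph (Fin n))) ≤ Fintype.card (β → Fin n) :=
      Fintype.card_le_of_injective (fun f => (f : β → Fin n)) DFunLike.coe_injective
    simpa using this
  refine le_trans ?_ h1
  rw [← Finset.card_univ (α := U.Copy (⊤ : SimpleGraph (Fin n))), mul_comm]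
  refine Finset.mul_card_image_le_card _ _ ?_
  intro S hS
  obtain ⟨f, _, rfl⟩ := Finset.mem_image.1 hS
  rw [← Finset.card_univ (α := Γ)]
  refine Finset.card_le_card_of_injOn (fun γ => f.comp (act γ).toCopy) ?_ ?_
  · intro γ _
    have : (f.comp (act γ).toCopy).toSubgraph = f.toSubgraph := by
      have h2 : (f.comp (act γ).toCopy).toHom = f.toHom.comp (act γ).toEmbedding.toHom := rfl
      rw [SimpleGraph.Copy.toSubgraph, SimpleGraph.Copy.toSubgraph, h2, SimpleGraph.Subgraph.map_comp]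
      congr 1
      exact SimpleGraph.Subgraph.map_iso_top (act γ)
    simpa using this
  · intro γ _ γ' _ h
    apply hact
    intro x
    apply f.injective
    have := congrArg (fun g : U.Copy (⊤ : SimpleGraph (Fin n)) => g x) h
    simpa using this

lemma sun_count (n : ℕ) (F : SimpleGraph α) (A C : Finset α) (I : Type) [Fintype I]
    (hC : C.Nonempty) :
    (⊤ : SimpleGraph (Fin n)).copyCount (sunGraph F A C I) * (Fintype.card I).factorial
      ≤ n ^ (A.card + Fintype.card I * C.card) := by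
  have h := copyCount_mul_card_le (Γ := Equiv.Perm I) n (sunGraph F A C I) (sunIso F A C I) ?_
  · rw [Fintype.card_perm] at h
    simpa [Fintype.card_sum, Fintype.card_prod] using h
  · intro σ τ hh
    ext i
    obtain ⟨c, hc⟩ := hC
    have := hh (Sum.inr (i, ⟨c, hc⟩))
    simp only [sunIso] at this
    have h2 : σ i = τ i := by
      simpa using this
    rw [h2]

/-- The map sending a vertex of `F` into petal `i`. -/
noncomputable def petalMap (A C : Finset α) {I : Type} (x₀ : ↥C) (i : I) (x : α) : ↥A ⊕ (I × ↥C) :=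
  if hC : x ∈ C then Sum.inr (i, ⟨x, hC⟩) else if hA : x ∈ A then Sum.inl ⟨x, hA⟩ else Sum.inr (i, x₀)

/-- Forget the petal index. -/
def petalBack {A C : Finset α} {I : Type} : ↥A ⊕ (I × ↥C) → α :=
  Sum.elim (fun a => a.1) (fun p => p.2.1)

lemma petalBack_map {A C : Finset α} {I : Type} (x₀ : ↥C) (i : I) {x : α} (hx : x ∈ C ∨ x ∈ A) :
    petalBack (petalMap A C x₀ i x) = x := by
  unfold petalMap
  by_cases hC : x ∈ C
  · simp [hC, petalBack]
  · have hA : x ∈ A := hx.resolve_left hC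
    simp [hC, hA, petalBack]

lemma petalMap_of_mem {A C : Finset α} {I : Type} (x₀ : ↥C) (i : I) {x : α} (hx : x ∈ C) :
    petalMap A C x₀ i x = Sum.inr (i, ⟨x, hx⟩) := by
  simp [petalMap, hx]

lemma petalMap_of_mem_A {A C : Finset α} {I : Type} (x₀ : ↥C) (i : I) {x : α} (hx : x ∉ C)
    (hA : x ∈ A) : petalMap A C x₀ i x = Sum.inl ⟨x, hA⟩ := by
  simp [petalMap, hx, hA]

lemma sun_edges [Fintype α] (F : SimpleGraph α) (A C : Finset α) (I : Type) [Fintype I]
    (New : Finset (Sym2 α))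
    (hNew : ∀ u v, s(u, v) ∈ New → F.Adj u v ∧ (u ∈ C ∨ u ∈ A) ∧ (v ∈ C ∨ v ∈ A) ∧ (u ∈ C ∨ v ∈ C))
    (hC : C.Nonempty) :
    Fintype.card I * New.card ≤ (sunGraph F A C I).edgeSet.ncard := by
  obtain ⟨x₁, hx₁⟩ := hC
  let x₀ : ↥C := ⟨x₁, hx₁⟩
  let g : I × Sym2 α → Sym2 (↥A ⊕ (I × ↥C)) := fun p => Sym2.map (petalMap A C x₀ p.1) p.2
  have hmem : ∀ e ∈ New, ∀ x ∈ e, x ∈ C ∨ x ∈ A := by
    intro e
    induction e using Sym2.ind with
    | _ u v =>
      intro he x hx
      obtain ⟨_, h2, h3, _⟩ := hNew u v he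
      rcases Sym2.mem_iff.1 hx with rfl | rfl
      · exact h2
      · exact h3
  have hback : ∀ e ∈ New, ∀ i : I, Sym2.map petalBack (Sym2.map (petalMap A C x₀ i) e) = e := by
    intro e he i
    rw [Sym2.map_map]
    have : Sym2.map (petalBack ∘ petalMap A C x₀ i) e = Sym2.map id e :=
      Sym2.map_congr (fun x hx => petalBack_map x₀ i (hmem e he x hx))
    rw [this, Sym2.map_id]
    rfl
  have hidx : ∀ e ∈ New, ∃ x ∈ e, x ∈ C := by
    intro e
    induction e using Sym2.ind with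
    | _ u v =>
      intro he
      obtain ⟨_, _, _, h4⟩ := hNew u v he
      rcases h4 with h | h
      · exact ⟨u, Sym2.mem_mk_left _ _, h⟩
      · exact ⟨v, Sym2.mem_mk_right _ _, h⟩
  have hinj : Set.InjOn g ((univ : Finset I) ×ˢ New : Finset (I × Sym2 α)) := by
    rintro ⟨i, e⟩ h1 ⟨j, e'⟩ h2 hg
    have h1' := (Finset.mem_product.1 (Finset.mem_coe.1 h1)).2
    have h2' := (Finset.mem_product.1 (Finset.mem_coe.1 h2)).2
    simp only at h1' h2'
    have hg' : Sym2.map (petalMap A C x₀ i) e = Sym2.map (petalMap A C x₀ j) e' := hg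
    have hee : e = e' := by
      rw [← hback e h1' i, hg', hback e' h2' j]
    subst hee
    obtain ⟨x, hxe, hxC⟩ := hidx e h1'
    have h3 : petalMap A C x₀ i x ∈ Sym2.map (petalMap A C x₀ j) e := by
      rw [← hg']
      exact Sym2.mem_map.2 ⟨x, hxe, rfl⟩
    obtain ⟨y, hye, hy⟩ := Sym2.mem_map.1 h3
    rw [petalMap_of_mem x₀ i hxC] at hy
    by_cases hyC : y ∈ C
    · rw [petalMap_of_mem x₀ j hyC] at hy
      have := Sum.inr.inj hy
      have hij : j = i := congrArg Prod.fst this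
      rw [hij]
    · have hyA : y ∈ A := (hmem e h1' y hye).resolve_left hyC
      rw [petalMap_of_mem_A x₀ j hyC hyA] at hy
      exact absurd hy (by simp)
  have hsub : (((univ : Finset I) ×ˢ New).image g : Set _) ⊆ (sunGraph F A C I).edgeSet := by
    intro z hz
    obtain ⟨⟨i, e⟩, hp, rfl⟩ := Finset.mem_image.1 (Finset.mem_coe.1 hz)
    have he := (Finset.mem_product.1 hp).2
    simp only at he
    induction e using Sym2.ind with
    | _ u v =>
      obtain ⟨hadj, h2, h3, h4⟩ := hNew u v he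
      simp only [g, Sym2.map_mk]
      rw [SimpleGraph.mem_edgeSet]
      by_cases huC : u ∈ C
      · rw [petalMap_of_mem x₀ i huC]
        by_cases hvC : v ∈ C
        · rw [petalMap_of_mem x₀ i hvC]
          exact ⟨rfl, hadj⟩
        · rw [petalMap_of_mem_A x₀ i hvC (h3.resolve_left hvC)]
          exact hadj
      · have hvC : v ∈ C := h4.resolve_left huC
        rw [petalMap_of_mem x₀ i hvC, petalMap_of_mem_A x₀ i huC (h2.resolve_left huC)]
        exact hadj
  have hcard : (((univ : Finset I) ×ˢ New).image g).card = Fintype.card I * New.card := by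
    rw [Finset.card_image_of_injOn hinj, Finset.card_product, Finset.card_univ]
  rw [← hcard, ← Set.ncard_coe_finset]
  exact Set.ncard_le_ncard hsub (Set.toFinite _)

lemma sun_copy {H : SimpleGraph V} (F : SimpleGraph α) (A C E : Finset α) (𝓜 : Finset (α → V))
    {φ₀ : α → V} (hφ₀ : φ₀ ∈ 𝓜) (hA : A ⊆ E) (hdis : Disjoint C E)
    (hinj : ∀ φ ∈ 𝓜, Function.Injective φ)
    (hhom : ∀ φ ∈ 𝓜, ∀ u v, F.Adj u v → H.Adj (φ u) (φ v))
    (hagree : ∀ φ ∈ 𝓜, ∀ x ∈ E, φ x = φ₀ x)
    (hdisj : ∀ φ ∈ 𝓜, ∀ φ' ∈ 𝓜, φ ≠ φ' → ∀ x ∈ C, ∀ y ∈ C, φ x ≠ φ' y) :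
    Nonempty ((sunGraph F A C ↥𝓜).Copy H) := by
  let f : ↥A ⊕ (↥𝓜 × ↥C) → V := Sum.elim (fun a => φ₀ a.1) (fun p => p.1.1 p.2.1)
  have hne : ∀ x ∈ C, ∀ y ∈ E, x ≠ y := by
    intro x hx y hy hxy
    exact Finset.disjoint_left.1 hdis hx (hxy ▸ hy)
  have hfinj : Function.Injective f := by
    rintro (a | ⟨i, c⟩) (b | ⟨j, d⟩) h
    · have := hinj φ₀ hφ₀ h
      exact congrArg Sum.inl (Subtype.ext this)
    · have h' : φ₀ a.1 = j.1 d.1 := h
      rw [← hagree j.1 j.2 a.1 (hA a.2)] at h'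
      exact absurd (hinj j.1 j.2 h').symm (hne d.1 d.2 a.1 (hA a.2))
    · have h' : i.1 c.1 = φ₀ b.1 := h
      rw [← hagree i.1 i.2 b.1 (hA b.2)] at h'
      exact absurd (hinj i.1 i.2 h') (hne c.1 c.2 b.1 (hA b.2))
    · have h' : i.1 c.1 = j.1 d.1 := h
      by_cases hij : i.1 = j.1
      · have hij' : i = j := Subtype.ext hij
        subst hij'
        have := hinj i.1 i.2 h'
        have hcd : c = d := Subtype.ext this
        rw [hcd]
      · exact absurd h' (hdisj i.1 i.2 j.1 j.2 hij c.1 c.2 d.1 d.2)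
  have hfhom : ∀ x y, (sunGraph F A C ↥𝓜).Adj x y → H.Adj (f x) (f y) := by
    rintro (a | ⟨i, c⟩) (b | ⟨j, d⟩) h
    · exact h.elim
    · have h' : F.Adj a.1 d.1 := h
      have := hhom j.1 j.2 _ _ h'
      rwa [hagree j.1 j.2 a.1 (hA a.2)] at this
    · have h' : F.Adj c.1 b.1 := h
      have := hhom i.1 i.2 _ _ h'
      rwa [hagree i.1 i.2 b.1 (hA b.2)] at this
    · have h' : i = j ∧ F.Adj c.1 d.1 := h
      obtain ⟨rfl, h2⟩ := h'
      exact hhom i.1 i.2 _ _ h2
  exact ⟨⟨⟨f, fun {a b} h => hfhom a b h⟩, hfinj⟩⟩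

end Vale.Agent.Lib.P064
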