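import Vale.Agent.Lib.P064.Proj
import Vale.Agent.Lib.P064.Sun

/-!
Blocks of a relation, their edges, capacity and the count of extensions over a block.
-/

open Finset

namespace Vale.Agent.Lib.P064

open scoped Classical

variable {V α : Type}

/-- `E` is closed under the relation `R`. -/
def Closed (R : Finset (α × α)) (E : Finset α) : Prop := ∀ u v, (u, v) ∈ R → u ∈ E → v ∈ E

/-- `C` is a minimal closed extension of `E`. -/
structure IsBlock (R : Finset (α × α)) (E C : Finset α) : Prop where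
  ne : C.Nonempty
  disj : Disjoint C E
  closed : Closed R (E ∪ C)
  conn : ∀ x ∈ C, ∀ D : Finset α, x ∈ D → D ⊆ C → D ≠ C → ∃ u ∈ D, ∃ v ∈ C \ D, (u, v) ∈ R

lemma exists_block [Fintype α] (R : Finset (α × α)) {E : Finset α} (hE : Closed R E) (hne : E ≠ univ) :
    ∃ C, IsBlock R E C := by
  let 𝒞 := (univ : Finset (Finset α)).filter
    (fun C => C.Nonempty ∧ Disjoint C E ∧ Closed R (E ∪ C))
  have h𝒞 : 𝒞.Nonempty := by
    refine ⟨univ \ E, Finset.mem_filter.2 ⟨mem_univ _, ?_, Finset.sdiff_disjoint, ?_⟩⟩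
    · obtain ⟨x, hx⟩ : ∃ x, x ∉ E := by
        by_contra h
        push Not at h
        exact hne (Finset.eq_univ_iff_forall.2 h)
      exact ⟨x, Finset.mem_sdiff.2 ⟨mem_univ _, hx⟩⟩
    · intro u v _ _
      by_cases hv : v ∈ E
      · exact Finset.mem_union_left _ hv
      · exact Finset.mem_union_right _ (Finset.mem_sdiff.2 ⟨mem_univ _, hv⟩)
  obtain ⟨C, hC, hmin⟩ := Finset.exists_min_image 𝒞 Finset.card h𝒞
  obtain ⟨h1, h2, h3, h4⟩ : C ∈ 𝒞 ∧ True ∧ True ∧ True := ⟨hC, trivial, trivial, trivial⟩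
  obtain ⟨_, hne', hdis, hcl⟩ := Finset.mem_filter.1 h1
  refine ⟨C, hne', hdis, hcl, ?_⟩
  intro x hx D hxD hDC hDne
  by_contra hcon
  push Not at hcon
  have hD𝒞 : D ∈ 𝒞 := by
    refine Finset.mem_filter.2 ⟨mem_univ _, ⟨x, hxD⟩, ?_, ?_⟩
    · exact Finset.disjoint_of_subset_left hDC hdis
    · intro u v huv hu
      have hv : v ∈ E ∪ C := by
        refine hcl u v huv ?_
        rcases Finset.mem_union.1 hu with h | h
        · exact Finset.mem_union_left _ h
        · exact Finset.mem_union_right _ (hDC h)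
      rcases Finset.mem_union.1 hv with h | h
      · exact Finset.mem_union_left _ h
      · by_cases hvD : v ∈ D
        · exact Finset.mem_union_right _ hvD
        · rcases Finset.mem_union.1 hu with h' | h'
          · exact Finset.mem_union_left _ (hE u v huv h')
          · exact absurd huv (hcon u h' v (Finset.mem_sdiff.2 ⟨h, hvD⟩))
  have h5 := hmin D hD𝒞
  have h6 : D.card < C.card := Finset.card_lt_card (hDC.ssubset_of_ne hDne)
  omega

/-- The edges of `F` with all endpoints in `S`. -/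
noncomputable def eIn [Fintype α] (F : SimpleGraph α) (S : Finset α) : Finset (Sym2 α) :=
  (univ : Finset (Sym2 α)).filter (fun e => e ∈ F.edgeSet ∧ ∀ x ∈ e, x ∈ S)

/-- The new edges of a block. -/
noncomputable def newE [Fintype α] (F : SimpleGraph α) (E C : Finset α) : Finset (Sym2 α) :=
  eIn F (E ∪ C) \ eIn F E

/-- The vertices of `E` adjacent to `C`. -/
noncomputable def core (F : SimpleGraph α) (E C : Finset α) : Finset α :=
  E.filter (fun w => ∃ c ∈ C, F.Adj c w)

section Edges

variable [Fintype α] {F : SimpleGraph α} {E C : Finset α}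

lemma mem_eIn_pair {S : Finset α} {u v : α} :
    s(u, v) ∈ eIn F S ↔ F.Adj u v ∧ u ∈ S ∧ v ∈ S := by
  simp [eIn]

lemma mem_newE_pair {u v : α} :
    s(u, v) ∈ newE F E C ↔ F.Adj u v ∧ (u ∈ E ∨ u ∈ C) ∧ (v ∈ E ∨ v ∈ C) ∧ ¬ (u ∈ E ∧ v ∈ E) := by
  unfold newE
  rw [Finset.mem_sdiff, mem_eIn_pair, mem_eIn_pair]
  simp only [Finset.mem_union]
  tauto

lemma newE_spec {u v : α} (h : s(u, v) ∈ newE F E C) :
    F.Adj u v ∧ (u ∈ C ∨ u ∈ core F E C) ∧ (v ∈ C ∨ v ∈ core F E C) ∧ (u ∈ C ∨ v ∈ C) := by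
  obtain ⟨h1, h2, h3, h4⟩ := mem_newE_pair.1 h
  have key : u ∈ C ∨ v ∈ C := by tauto
  refine ⟨h1, ?_, ?_, key⟩
  · by_cases hu : u ∈ C
    · exact Or.inl hu
    · have hv : v ∈ C := key.resolve_left hu
      have huE : u ∈ E := h2.resolve_right hu
      exact Or.inr (Finset.mem_filter.2 ⟨huE, v, hv, h1.symm⟩)
  · by_cases hv : v ∈ C
    · exact Or.inl hv
    · have hu : u ∈ C := key.resolve_right hv
      have hvE : v ∈ E := h3.resolve_right hv
      exact Or.inr (Finset.mem_filter.2 ⟨hvE, u, hu, h1⟩)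

/-- A block with its core is connected through new edges. -/
lemma newE_card (R : Finset (α × α)) (hRF : ∀ u v, (u, v) ∈ R → F.Adj u v) (hb : IsBlock R E C) :
    C.card + (core F E C).card ≤ (newE F E C).card + 1 := by
  set W := C ∪ core F E C with hW
  have hdisj : Disjoint C (core F E C) :=
    Finset.disjoint_of_subset_right (Finset.filter_subset _ _) hb.disj
  have hcardW : W.card = C.card + (core F E C).card := Finset.card_union_of_disjoint hdisj
  obtain ⟨x, hx⟩ := hb.ne
  -- the growth statement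
  have key : ∀ D : Finset α, x ∈ D → D ⊆ W →
      (W \ D).card ≤ ((newE F E C).filter (fun e => ¬ ∀ y ∈ e, y ∈ D)).card := by
    intro D hxD hDW
    induction h : (W \ D).card generalizing D with
    | zero => exact Nat.zero_le _
    | succ k ih =>
      have hne : D ≠ W := by
        rintro rfl
        simp at h
      have hex : ∃ u ∈ D, ∃ v ∈ W \ D, s(u, v) ∈ newE F E C := by
        by_cases hCD : C ⊆ D
        · obtain ⟨w, hw⟩ : ∃ w, w ∈ W \ D := by
            by_contra hcon
            push Not at hcon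
            apply hne
            apply Finset.Subset.antisymm hDW
            intro y hy
            by_contra hyD
            exact hcon y (Finset.mem_sdiff.2 ⟨hy, hyD⟩)
          obtain ⟨hwW, hwD⟩ := Finset.mem_sdiff.1 hw
          rcases Finset.mem_union.1 hwW with h1 | h1
          · exact absurd (hCD h1) hwD
          · obtain ⟨hwE, c, hc, hadj⟩ := Finset.mem_filter.1 h1
            refine ⟨c, hCD hc, w, hw, ?_⟩
            refine mem_newE_pair.2 ⟨hadj, Or.inr hc, Or.inl hwE, ?_⟩
            rintro ⟨h5, _⟩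
            exact Finset.disjoint_left.1 hb.disj hc h5
        · have hsub : D ∩ C ⊆ C := Finset.inter_subset_right
          have hnei : D ∩ C ≠ C := by
            intro h5
            apply hCD
            rw [← h5]
            exact Finset.inter_subset_left
          obtain ⟨u, hu, v, hv, huv⟩ :=
            hb.conn x hx (D ∩ C) (Finset.mem_inter.2 ⟨hxD, hx⟩) hsub hnei
          obtain ⟨hvC, hvn⟩ := Finset.mem_sdiff.1 hv
          obtain ⟨huD, huC⟩ := Finset.mem_inter.1 hu
          have hvD : v ∉ D := fun h5 => hvn (Finset.mem_inter.2 ⟨h5, hvC⟩)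
          refine ⟨u, huD, v, Finset.mem_sdiff.2 ⟨Finset.mem_union_left _ hvC, hvD⟩, ?_⟩
          refine mem_newE_pair.2 ⟨hRF u v huv, Or.inr huC, Or.inr hvC, ?_⟩
          rintro ⟨h5, _⟩
          exact Finset.disjoint_left.1 hb.disj huC h5
      obtain ⟨u, huD, v, hv, huv⟩ := hex
      obtain ⟨hvW, hvD⟩ := Finset.mem_sdiff.1 hv
      have h2 : (W \ insert v D).card = k := by
        have : W \ insert v D = (W \ D).erase v := by
          ext y
          simp only [Finset.mem_sdiff, Finset.mem_insert, Finset.mem_erase]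
          tauto
        rw [this, Finset.card_erase_of_mem hv, h]
        simp
      have h3 := ih (insert v D) (Finset.mem_insert_of_mem hxD) (Finset.insert_subset hvW hDW) h2
      have h4 : ((newE F E C).filter (fun e => ¬ ∀ y ∈ e, y ∈ insert v D)).card + 1
          ≤ ((newE F E C).filter (fun e => ¬ ∀ y ∈ e, y ∈ D)).card := by
        have hnot : s(u, v) ∉ (newE F E C).filter (fun e => ¬ ∀ y ∈ e, y ∈ insert v D) := by
          intro h5
          apply (Finset.mem_filter.1 h5).2
          intro y hy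
          rcases Sym2.mem_iff.1 hy with rfl | rfl
          · exact Finset.mem_insert_of_mem huD
          · exact Finset.mem_insert_self _ _
        rw [← Finset.card_insert_of_notMem hnot]
        refine Finset.card_le_card ?_
        intro e he
        rcases Finset.mem_insert.1 he with rfl | he'
        · refine Finset.mem_filter.2 ⟨huv, ?_⟩
          intro h5
          exact hvD (h5 v (Sym2.mem_mk_right _ _))
        · obtain ⟨h6, h7⟩ := Finset.mem_filter.1 he'
          refine Finset.mem_filter.2 ⟨h6, fun h8 => h7 fun y hy => Finset.mem_insert_of_mem (h8 y hy)⟩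
      omega
  have h5 := key {x} (Finset.mem_singleton_self _)
    (Finset.singleton_subset_iff.2 (Finset.mem_union_left _ hx))
  have h6 : (W \ {x}).card = W.card - 1 := by
    rw [Finset.card_sdiff_of_subset (Finset.singleton_subset_iff.2 (Finset.mem_union_left _ hx)),
      Finset.card_singleton]
  have h7 : ((newE F E C).filter (fun e => ¬ ∀ y ∈ e, y ∈ ({x} : Finset α))).card
      ≤ (newE F E C).card := Finset.card_filter_le _ _
  have h8 : 1 ≤ W.card := Finset.card_pos.2 ⟨x, Finset.mem_union_left _ hx⟩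
  omega

end Edges

section Extensions

variable [Fintype α] [Fintype V] {F : SimpleGraph α} {H : SimpleGraph V} {E C : Finset α}

/-- All tokens of the new edges sit at the image of the block. -/
lemma capacity (Arc : V → V → Prop) (M c : ℕ)
    (hcap : ∀ (T : Finset (Sym2 V)) (D : Finset V), (∀ e ∈ T, e ∈ H.edgeSet) →
      (∀ a b, s(a, b) ∈ T → Arc a b → a ∈ D) → M * T.card ≤ c * D.card)
    {R : Finset (α × α)} (hE : Closed R E) {φ : α → V}
    (hinj : Function.Injective φ) (hhom : ∀ u v, F.Adj u v → H.Adj (φ u) (φ v))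
    (hR : ∀ u v, F.Adj u v → Arc (φ u) (φ v) → (u, v) ∈ R) :
    M * (newE F E C).card ≤ c * C.card := by
  let T : Finset (Sym2 V) := (newE F E C).image (Sym2.map φ)
  let D : Finset V := C.image φ
  have hT : T.card = (newE F E C).card :=
    Finset.card_image_of_injective _ (Sym2.map.injective hinj)
  have hD : D.card ≤ C.card := Finset.card_image_le
  have h1 : M * T.card ≤ c * D.card := by
    apply hcap
    · intro e he
      obtain ⟨e', he', rfl⟩ := Finset.mem_image.1 he
      induction e' using Sym2.ind with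
      | _ u v =>
        obtain ⟨h2, _⟩ := mem_newE_pair.1 he'
        exact hhom u v h2
    · intro a b hab harc
      obtain ⟨e', he', hmap⟩ := Finset.mem_image.1 hab
      induction e' using Sym2.ind with
      | _ u v =>
        obtain ⟨h2, h3, h4, h5⟩ := mem_newE_pair.1 he'
        rw [Sym2.map_mk, Sym2.eq_iff] at hmap
        rcases hmap with ⟨rfl, rfl⟩ | ⟨rfl, rfl⟩
        · have h6 := hR u v h2 harc
          have huC : u ∈ C := by
            rcases h3 with h7 | h7
            · exact absurd ⟨h7, hE u v h6 h7⟩ h5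
            · exact h7
          exact Finset.mem_image_of_mem _ huC
        · have h6 := hR v u h2.symm harc
          have hvC : v ∈ C := by
            rcases h4 with h7 | h7
            · exact absurd ⟨hE v u h6 h7, h7⟩ h5
            · exact h7
          exact Finset.mem_image_of_mem _ hvC
  rw [hT] at h1
  exact h1.trans (Nat.mul_le_mul_left _ hD)

/-- A maximal family with pairwise disjoint images of `C`. -/
lemma exists_max_family (S : Finset (α → V)) (hS : S.Nonempty) (hC : C.Nonempty) :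
    ∃ 𝓜 ⊆ S, 𝓜.Nonempty ∧
      (∀ φ ∈ 𝓜, ∀ φ' ∈ 𝓜, φ ≠ φ' → ∀ x ∈ C, ∀ y ∈ C, φ x ≠ φ' y) ∧
      (∀ φ ∈ S, ∃ x ∈ C, ∃ φ' ∈ 𝓜, ∃ y ∈ C, φ x = φ' y) := by
  let fams := S.powerset.filter
    (fun 𝓜 => ∀ φ ∈ 𝓜, ∀ φ' ∈ 𝓜, φ ≠ φ' → ∀ x ∈ C, ∀ y ∈ C, φ x ≠ φ' y)
  obtain ⟨φ₁, hφ₁⟩ := hS
  have hne : fams.Nonempty := by
    refine ⟨{φ₁}, Finset.mem_filter.2 ⟨Finset.mem_powerset.2 (Finset.singleton_subset_iff.2 hφ₁), ?_⟩⟩
    intro φ hφ φ' hφ' hne
    rw [Finset.mem_singleton] at hφ hφ'
    exact absurd (hφ.trans hφ'.symm) hne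
  obtain ⟨𝓜, h𝓜, hmax⟩ := Finset.exists_max_image fams Finset.card hne
  obtain ⟨h1, h2⟩ := Finset.mem_filter.1 h𝓜
  have h1' := Finset.mem_powerset.1 h1
  have hcov : ∀ φ ∈ S, ∃ x ∈ C, ∃ φ' ∈ 𝓜, ∃ y ∈ C, φ x = φ' y := by
    intro φ hφ
    by_contra hcon
    push Not at hcon
    have hnot : φ ∉ 𝓜 := by
      intro hmem
      obtain ⟨x, hx⟩ := hC
      exact hcon x hx φ hmem x hx rfl
    have hins : insert φ 𝓜 ∈ fams := by
      refine Finset.mem_filter.2 ⟨Finset.mem_powerset.2 (Finset.insert_subset hφ h1'), ?_⟩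
      intro ψ hψ ψ' hψ' hne x hx y hy
      rcases Finset.mem_insert.1 hψ with rfl | hψ2
      · rcases Finset.mem_insert.1 hψ' with rfl | hψ2'
        · exact absurd rfl hne
        · exact hcon x hx ψ' hψ2' y hy
      · rcases Finset.mem_insert.1 hψ' with rfl | hψ2'
        · exact fun h => hcon y hy ψ hψ2 x hx h.symm
        · exact h2 ψ hψ2 ψ' hψ2' hne x hx y hy
    have := hmax _ hins
    rw [Finset.card_insert_of_notMem hnot] at this
    omega
  refine ⟨𝓜, h1', ?_, h2, hcov⟩
  by_contra hemp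
  rw [Finset.not_nonempty_iff_eq_empty] at hemp
  obtain ⟨_, _, φ', hφ', _⟩ := hcov φ₁ hφ₁
  rw [hemp] at hφ'
  simp at hφ'

/-- Covering count: every member meets the petals of `𝓜`, and arcs determine the rest. -/
lemma cover_count (Arc : V → V → Prop) (c : ℕ)
    (hc : ∀ a, (univ.filter fun b => Arc a b).card ≤ c)
    {R : Finset (α × α)} (hb : IsBlock R E C) (S : Finset (α → V))
    (hSR : ∀ φ ∈ S, ∀ d ∈ R, Arc (φ d.1) (φ d.2))
    {φ₀ : α → V} (hagree : ∀ φ ∈ S, ∀ x ∈ E, φ x = φ₀ x)
    (𝓜 : Finset (α → V))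
    (hcov : ∀ φ ∈ S, ∃ x ∈ C, ∃ φ' ∈ 𝓜, ∃ y ∈ C, φ x = φ' y) :
    (S.image (proj (E ∪ C))).card ≤ C.card * (𝓜.card * C.card) * c ^ (C.card - 1) := by
  let Z : Finset V := 𝓜.biUnion (fun φ' => C.image φ')
  have hZ : Z.card ≤ 𝓜.card * C.card := by
    refine Finset.card_biUnion_le.trans ?_
    calc ∑ φ' ∈ 𝓜, (C.image φ').card ≤ ∑ _φ' ∈ 𝓜, C.card :=
          Finset.sum_le_sum fun _ _ => Finset.card_image_le
      _ = 𝓜.card * C.card := by simp
  let Sx : α × V → Finset (α → V) := fun p => S.filter (fun φ => φ p.1 = p.2)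
  have hsub : S.image (proj (E ∪ C)) ⊆
      (C ×ˢ Z).biUnion (fun p => (Sx p).image (proj (E ∪ C))) := by
    intro ψ hψ
    obtain ⟨φ, hφ, rfl⟩ := Finset.mem_image.1 hψ
    obtain ⟨x, hx, φ', hφ', y, hy, hxy⟩ := hcov φ hφ
    refine Finset.mem_biUnion.2 ⟨(x, φ x), Finset.mem_product.2 ⟨hx, ?_⟩, ?_⟩
    · refine Finset.mem_biUnion.2 ⟨φ', hφ', ?_⟩
      rw [hxy]
      exact Finset.mem_image_of_mem _ hy
    · exact Finset.mem_image_of_mem _ (Finset.mem_filter.2 ⟨hφ, rfl⟩)
  have hbound : ∀ p ∈ C ×ˢ Z, ((Sx p).image (proj (E ∪ C))).card ≤ c ^ (C.card - 1) := by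
    rintro ⟨x, z⟩ hp
    have hx : x ∈ C := (Finset.mem_product.1 hp).1
    have hG : insert x E ⊆ E ∪ C := by
      intro y hy
      rcases Finset.mem_insert.1 hy with rfl | hy
      · exact Finset.mem_union_right _ hx
      · exact Finset.mem_union_left _ hy
    have hdisj := hb.disj
    have h1 := grow_card Arc c hc (Sx (x, z)) R
      (fun φ hφ d hd => hSR φ (Finset.mem_filter.1 hφ).1 d hd) (W := E ∪ C) (G₀ := insert x E)
      (by
        intro D hGD hDW hDne
        have hxD : x ∈ D := hGD (Finset.mem_insert_self _ _)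
        have hsubC : D ∩ C ⊆ C := Finset.inter_subset_right
        have hne : D ∩ C ≠ C := by
          intro h5
          apply hDne
          apply Finset.Subset.antisymm hDW
          intro y hy
          rcases Finset.mem_union.1 hy with h6 | h6
          · exact hGD (Finset.mem_insert_of_mem h6)
          · rw [← h5] at h6
            exact (Finset.mem_inter.1 h6).1
        obtain ⟨u, hu, v, hv, huv⟩ :=
          hb.conn x hx (D ∩ C) (Finset.mem_inter.2 ⟨hxD, hx⟩) hsubC hne
        obtain ⟨hvC, hvn⟩ := Finset.mem_sdiff.1 hv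
        refine ⟨u, (Finset.mem_inter.1 hu).1, v, Finset.mem_sdiff.2
          ⟨Finset.mem_union_right _ hvC, fun h5 => hvn (Finset.mem_inter.2 ⟨h5, hvC⟩)⟩, huv⟩)
      (insert x E) (Finset.Subset.refl _) hG
    have h2 : ((E ∪ C) \ insert x E).card = C.card - 1 := by
      have : (E ∪ C) \ insert x E = C.erase x := by
        ext y
        simp only [Finset.mem_sdiff, Finset.mem_union, Finset.mem_insert, Finset.mem_erase]
        constructor
        · rintro ⟨h3 | h3, h4⟩
          · exact absurd (Or.inr h3) h4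
          · exact ⟨fun h5 => h4 (Or.inl h5), h3⟩
        · rintro ⟨h3, h4⟩
          refine ⟨Or.inr h4, ?_⟩
          rintro (h5 | h5)
          · exact h3 h5
          · exact Finset.disjoint_left.1 hdisj h4 h5
      rw [this, Finset.card_erase_of_mem hx]
    have h3 : ((Sx (x, z)).image (proj (insert x E))).card ≤ 1 := by
      refine Finset.card_le_one.2 ?_
      intro a ha b hb'
      obtain ⟨φ, hφ, rfl⟩ := Finset.mem_image.1 ha
      obtain ⟨φ', hφ', rfl⟩ := Finset.mem_image.1 hb'
      obtain ⟨h4, h5⟩ := Finset.mem_filter.1 hφ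
      obtain ⟨h4', h5'⟩ := Finset.mem_filter.1 hφ'
      funext y
      simp only [proj, Finset.mem_insert]
      by_cases hy : y = x ∨ y ∈ E
      · simp only [hy, if_true]
        rcases hy with rfl | hy
        · simp only at h5 h5'
          rw [h5, h5']
        · rw [hagree φ h4 y hy, hagree φ' h4' y hy]
      · simp only [hy, if_false]
    rw [h2] at h1
    calc _ ≤ c ^ (C.card - 1) * ((Sx (x, z)).image (proj (insert x E))).card := h1
      _ ≤ c ^ (C.card - 1) * 1 := Nat.mul_le_mul_left _ h3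
      _ = _ := mul_one _
  calc (S.image (proj (E ∪ C))).card
      ≤ ((C ×ˢ Z).biUnion (fun p => (Sx p).image (proj (E ∪ C)))).card := Finset.card_le_card hsub
    _ ≤ ∑ p ∈ C ×ˢ Z, ((Sx p).image (proj (E ∪ C))).card := Finset.card_biUnion_le
    _ ≤ ∑ _p ∈ C ×ˢ Z, c ^ (C.card - 1) := Finset.sum_le_sum hbound
    _ = C.card * Z.card * c ^ (C.card - 1) := by
        simp [Finset.card_product]
    _ ≤ C.card * (𝓜.card * C.card) * c ^ (C.card - 1) := by
        gcongr

end Extensions

end Vale.Agent.Lib.P064
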