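import Vale.Agent.Lib.P064.Block

/-!
Counting embeddings into a graph all of whose subgraphs have many copies in the complete graph.
-/

open Finset

namespace Vale.Agent.Lib.P064

open scoped Classical

variable {V α : Type}

/-- Every subgraph `U` of `H` with an edge has at least `q ^ (- e(U))` copies in `K_n`. -/
def GoodDensity (n : ℕ) (q : ℝ) (H : SimpleGraph V) : Prop :=
  ∀ (β : Type) [Fintype β] (U : SimpleGraph β), Nonempty (U.Copy H) → U.edgeSet.Nonempty →
    (1 : ℝ) ≤ ((⊤ : SimpleGraph (Fin n)).copyCount U : ℝ) * q ^ U.edgeSet.ncard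

lemma sun_factorial [Fintype α] {H : SimpleGraph V} {n : ℕ} {q : ℝ} (hG : GoodDensity n q H)
    (hq0 : 0 < q) (hq1 : q ≤ 1) {F : SimpleGraph α} {E C : Finset α} (hC : C.Nonempty)
    (hdis : Disjoint C E) (𝓜 : Finset (α → V)) {φ₀ : α → V} (hφ₀ : φ₀ ∈ 𝓜)
    (hinj : ∀ φ ∈ 𝓜, Function.Injective φ)
    (hhom : ∀ φ ∈ 𝓜, ∀ u v, F.Adj u v → H.Adj (φ u) (φ v))
    (hagree : ∀ φ ∈ 𝓜, ∀ x ∈ E, φ x = φ₀ x)
    (hdisj : ∀ φ ∈ 𝓜, ∀ φ' ∈ 𝓜, φ ≠ φ' → ∀ x ∈ C, ∀ y ∈ C, φ x ≠ φ' y)
    (hm : 1 ≤ (newE F E C).card) :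
    (𝓜.card.factorial : ℝ) ≤
      (n : ℝ) ^ (core F E C).card * ((n : ℝ) ^ C.card * q ^ (newE F E C).card) ^ 𝓜.card := by
  set A := core F E C with hA
  set m := (newE F E C).card with hmdef
  set t := 𝓜.card with ht
  have hcardI : Fintype.card (↥𝓜) = t := by simp [ht]
  have h1 := sun_count n F A C (↥𝓜) hC
  have h2 := sun_edges F A C (↥𝓜) (newE F E C) (fun u v h => newE_spec h) hC
  have h3 := sun_copy F A C E 𝓜 hφ₀ (Finset.filter_subset _ _) hdis hinj hhom hagree hdisj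
  rw [hcardI] at h1 h2
  have htpos : 1 ≤ t := Finset.card_pos.2 ⟨φ₀, hφ₀⟩
  have hne : (sunGraph F A C (↥𝓜)).edgeSet.Nonempty := by
    apply Set.nonempty_of_ncard_ne_zero
    have h1m : 1 ≤ t * m := Nat.mul_pos htpos hm
    intro h0
    rw [h0] at h2
    have := h1m.trans h2
    exact absurd this (by norm_num)
  have h4 := hG _ (sunGraph F A C (↥𝓜)) h3 hne
  have h5 : q ^ (sunGraph F A C (↥𝓜)).edgeSet.ncard ≤ q ^ (t * m) :=
    pow_le_pow_of_le_one hq0.le hq1 h2
  have h6 : ((⊤ : SimpleGraph (Fin n)).copyCount (sunGraph F A C (↥𝓜)) : ℝ) * t.factorial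
      ≤ (n : ℝ) ^ (A.card + t * C.card) := by
    exact_mod_cast h1
  have hfac : (0 : ℝ) < t.factorial := by positivity
  have hcop : (0 : ℝ) ≤ ((⊤ : SimpleGraph (Fin n)).copyCount (sunGraph F A C (↥𝓜)) : ℝ) :=
    Nat.cast_nonneg _
  calc (t.factorial : ℝ) = 1 * t.factorial := (one_mul _).symm
    _ ≤ (((⊤ : SimpleGraph (Fin n)).copyCount (sunGraph F A C (↥𝓜)) : ℝ) *
          q ^ (sunGraph F A C (↥𝓜)).edgeSet.ncard) * t.factorial :=
        mul_le_mul_of_nonneg_right h4 hfac.le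
    _ ≤ (((⊤ : SimpleGraph (Fin n)).copyCount (sunGraph F A C (↥𝓜)) : ℝ) * q ^ (t * m)) * t.factorial := by
        gcongr
    _ = (((⊤ : SimpleGraph (Fin n)).copyCount (sunGraph F A C (↥𝓜)) : ℝ) * t.factorial) * q ^ (t * m) := by
        ring
    _ ≤ (n : ℝ) ^ (A.card + t * C.card) * q ^ (t * m) :=
        mul_le_mul_of_nonneg_right h6 (by positivity)
    _ = _ := by
        rw [mul_pow, pow_add, ← pow_mul, ← pow_mul]
        ring_nf

lemma t_bound {n : ℝ} (hn : 1 ≤ n) {b t : ℕ} {ρ : ℝ} (hρ : 0 < ρ) (ht : 1 ≤ t)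
    (hf : (t.factorial : ℝ) ≤ n ^ b * ρ ^ t) :
    (t : ℝ) ≤ b * Real.log n ∨ (t : ℝ) ≤ Real.exp 2 * ρ := by
  by_contra hcon
  push Not at hcon
  obtain ⟨h1, h2⟩ := hcon
  have hnpos : 0 < n := by linarith
  have htpos : (0 : ℝ) < t := by exact_mod_cast ht
  have h3 : (t : ℝ) ^ t / t.factorial ≤ Real.exp t := Real.pow_div_factorial_le_exp _ htpos.le t
  have hfac : (0 : ℝ) < t.factorial := by positivity
  have h4 : (t : ℝ) ^ t ≤ Real.exp t * t.factorial := by
    rwa [div_le_iff₀ hfac] at h3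
  have h5 : (Real.exp 2 * ρ) ^ t ≤ (t : ℝ) ^ t :=
    pow_le_pow_left₀ (by positivity) h2.le t
  have h6 : Real.exp 2 ^ t * ρ ^ t ≤ Real.exp t * (n ^ b * ρ ^ t) := by
    rw [← mul_pow]
    calc _ ≤ (t : ℝ) ^ t := h5
      _ ≤ Real.exp t * t.factorial := h4
      _ ≤ _ := by gcongr
  have hρt : 0 < ρ ^ t := by positivity
  have h7 : Real.exp 2 ^ t ≤ Real.exp t * n ^ b := by
    have : Real.exp 2 ^ t * ρ ^ t ≤ (Real.exp t * n ^ b) * ρ ^ t := by
      calc _ ≤ _ := h6
        _ = _ := by ring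
    exact le_of_mul_le_mul_right this hρt
  have h8 : Real.exp t ≤ n ^ b := by
    have h9 : Real.exp 2 ^ t = Real.exp t * Real.exp t := by
      rw [← Real.exp_nat_mul, ← Real.exp_add]
      congr 1
      ring
    rw [h9] at h7
    exact le_of_mul_le_mul_left h7 (Real.exp_pos _)
  have h10 : (t : ℝ) ≤ b * Real.log n := by
    have h11 := Real.log_le_log (Real.exp_pos _) h8
    rwa [Real.log_exp, Real.log_pow] at h11
  linarith

lemma block_numeric {a b m t c : ℕ} {K L ρ : ℝ} (ha : 1 ≤ a) (hab : a + b ≤ m + 1) (hK : 1 ≤ K)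
    (hL : L ≤ K) (hcK : (c : ℝ) ≤ K) (hρ0 : 0 < ρ)
    (hρ : Real.exp (-(a : ℝ)) ≤ ρ) (ht : 1 ≤ t)
    (hdich : (t : ℝ) ≤ b * L ∨ (t : ℝ) ≤ Real.exp 2 * ρ) :
    (a : ℝ) * (t * a) * c ^ (a - 1) ≤ (4 * Real.exp 2) ^ a * (Real.exp 1 * K) ^ m * ρ := by
  have hK0 : (0 : ℝ) < K := by linarith
  have he1 : (1 : ℝ) ≤ Real.exp 1 := Real.one_le_exp (by norm_num)
  have hcpow : (c : ℝ) ^ (a - 1) ≤ K ^ (a - 1) := pow_le_pow_left₀ (Nat.cast_nonneg _) hcK _
  have haa : (a : ℝ) * a ≤ 4 ^ a := by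
    have h1 : a < 2 ^ a := Nat.lt_two_pow_self
    have h2 : (a : ℝ) ≤ 2 ^ a := by exact_mod_cast h1.le
    have h3 : (4 : ℝ) ^ a = 2 ^ a * 2 ^ a := by
      rw [← mul_pow]
      norm_num
    rw [h3]
    exact mul_le_mul h2 h2 (Nat.cast_nonneg _) (by positivity)
  have hexpow : ∀ (x : ℝ) (k j : ℕ), 1 ≤ x → k ≤ j → x ^ k ≤ x ^ j := fun x k j hx hkj =>
    pow_le_pow_right₀ hx hkj
  have hb0 : (0 : ℝ) ≤ b := Nat.cast_nonneg _
  have ht0 : (0 : ℝ) ≤ t := Nat.cast_nonneg _
  have ha0 : (0 : ℝ) ≤ a := Nat.cast_nonneg _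
  have hKm0 : 0 < K ^ m := by positivity
  have hempow : Real.exp 1 ^ m * K ^ m = (Real.exp 1 * K) ^ m := (mul_pow _ _ _).symm
  have h4e : (4 * Real.exp 2) ^ a = 4 ^ a * Real.exp 2 ^ a := mul_pow _ _ _
  have hexp2 : (1 : ℝ) ≤ Real.exp 2 := Real.one_le_exp (by norm_num)
  rcases hdich with h | h
  · -- `t ≤ b L`
    have hb1 : 1 ≤ b := by
      by_contra hb
      have hb0' : b = 0 := by omega
      rw [hb0'] at h
      have : (1 : ℝ) ≤ t := by exact_mod_cast ht
      norm_num at h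
      linarith
    have ham : a ≤ m := by omega
    have hbm : b ≤ m := by omega
    have h1 : (t : ℝ) * c ^ (a - 1) ≤ b * K ^ m := by
      have hKpow : K * K ^ (a - 1) ≤ K ^ m := by
        have : K * K ^ (a - 1) = K ^ a := by
          rw [← pow_succ']
          congr 1
          omega
        rw [this]
        exact hexpow K a m hK ham
      calc (t : ℝ) * c ^ (a - 1) ≤ (b * K) * K ^ (a - 1) := by
            apply mul_le_mul _ hcpow (by positivity) (by positivity)
            exact h.trans (mul_le_mul_of_nonneg_left hL hb0)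
        _ = b * (K * K ^ (a - 1)) := by ring
        _ ≤ b * K ^ m := mul_le_mul_of_nonneg_left hKpow hb0
    have h2 : (b : ℝ) ≤ Real.exp 1 ^ m := by
      have h3 : (b : ℝ) + 1 ≤ Real.exp b := Real.add_one_le_exp _
      have h4 : Real.exp b = Real.exp 1 ^ b := by
        rw [← Real.exp_nat_mul]
        congr 1
        ring
      have h5 := hexpow (Real.exp 1) b m he1 hbm
      linarith
    have h3 : (1 : ℝ) ≤ Real.exp 2 ^ a * ρ := by
      have h4 : Real.exp 2 ^ a = Real.exp (a * 2) := by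
        rw [← Real.exp_nat_mul]
      have h5 : (1 : ℝ) = Real.exp a * Real.exp (-(a : ℝ)) := by
        rw [← Real.exp_add]
        simp
      have h6 : Real.exp a ≤ Real.exp (a * 2) := Real.exp_le_exp.2 (by nlinarith)
      rw [h4, h5]
      exact mul_le_mul h6 hρ (Real.exp_pos _).le (Real.exp_pos _).le
    calc (a : ℝ) * (t * a) * c ^ (a - 1) = (a * a) * (t * c ^ (a - 1)) := by ring
      _ ≤ 4 ^ a * ((Real.exp 1 * K) ^ m) := by
          apply mul_le_mul haa _ (by positivity) (by positivity)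
          rw [← hempow]
          exact h1.trans (mul_le_mul_of_nonneg_right h2 hKm0.le)
      _ = 4 ^ a * ((Real.exp 1 * K) ^ m) * 1 := by ring
      _ ≤ 4 ^ a * ((Real.exp 1 * K) ^ m) * (Real.exp 2 ^ a * ρ) :=
          mul_le_mul_of_nonneg_left h3 (by positivity)
      _ = _ := by rw [h4e]; ring
  · -- `t ≤ e² ρ`
    have hKa : K ^ (a - 1) ≤ (Real.exp 1 * K) ^ m := by
      rw [← hempow]
      have h1 : K ^ (a - 1) ≤ K ^ m := hexpow K (a - 1) m hK (by omega)
      have h2 : (1 : ℝ) ≤ Real.exp 1 ^ m := one_le_pow₀ he1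
      nlinarith
    have he2a : Real.exp 2 ≤ Real.exp 2 ^ a := by
      calc Real.exp 2 = Real.exp 2 ^ 1 := (pow_one _).symm
        _ ≤ _ := hexpow _ 1 a hexp2 ha
    calc (a : ℝ) * (t * a) * c ^ (a - 1) = (a * a) * (t * c ^ (a - 1)) := by ring
      _ ≤ 4 ^ a * ((Real.exp 2 * ρ) * (Real.exp 1 * K) ^ m) := by
          apply mul_le_mul haa _ (by positivity) (by positivity)
          exact mul_le_mul h (hcpow.trans hKa) (by positivity) (by positivity)
      _ ≤ 4 ^ a * ((Real.exp 2 ^ a * ρ) * (Real.exp 1 * K) ^ m) := by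
          gcongr
      _ = _ := by rw [h4e]; ring

section Main

variable [Fintype V] [Fintype α] {H : SimpleGraph V} {F : SimpleGraph α} {n : ℕ} {q K : ℝ}

theorem block_bound (hG : GoodDensity n q H) (hq0 : 0 < q) (hq1 : q ≤ 1) (hn : 1 ≤ n)
    (hV : Fintype.card V ≤ n) (Arc : V → V → Prop) (c : ℕ)
    (hc : ∀ a, (univ.filter fun b => Arc a b).card ≤ c)
    (hK : 1 ≤ K) (hL : Real.log n ≤ K) (hcK : (c : ℝ) ≤ K)
    {R : Finset (α × α)} (hRF : ∀ u v, (u, v) ∈ R → F.Adj u v)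
    {E C : Finset α} (hb : IsBlock R E C)
    (S : Finset (α → V)) (hinj : ∀ φ ∈ S, Function.Injective φ)
    (hhom : ∀ φ ∈ S, ∀ u v, F.Adj u v → H.Adj (φ u) (φ v))
    (hSR : ∀ φ ∈ S, ∀ d ∈ R, Arc (φ d.1) (φ d.2))
    {φ₀ : α → V} (hagree : ∀ φ ∈ S, ∀ x ∈ E, φ x = φ₀ x)
    (hρ : Real.exp (-(C.card : ℝ)) ≤ (n : ℝ) ^ C.card * q ^ (newE F E C).card) :
    ((S.image (proj (E ∪ C))).card : ℝ) ≤
      (4 * Real.exp 2) ^ C.card * (Real.exp 1 * K) ^ (newE F E C).card *
        ((n : ℝ) ^ C.card * q ^ (newE F E C).card) := by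
  have hK0 : (0 : ℝ) < K := by linarith
  have hn1 : (1 : ℝ) ≤ n := by exact_mod_cast hn
  have hn0 : (0 : ℝ) < n := by linarith
  have hCne := hb.ne
  have hCpos : 1 ≤ C.card := Finset.card_pos.2 hCne
  by_cases hS : S.Nonempty
  swap
  · rw [Finset.not_nonempty_iff_eq_empty] at hS
    rw [hS]
    simp only [Finset.image_empty, Finset.card_empty, Nat.cast_zero]
    positivity
  have hcard := newE_card R hRF hb
  by_cases hm : (newE F E C).card = 0
  · -- a single vertex without new edges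
    have h1 : C.card = 1 := by omega
    obtain ⟨x, rfl⟩ := Finset.card_eq_one.1 h1
    rw [hm, pow_zero, pow_zero, mul_one, mul_one, Finset.card_singleton, pow_one, pow_one]
    have h2 : E ∪ {x} = insert x E := by
      ext y
      simp only [Finset.mem_union, Finset.mem_singleton, Finset.mem_insert]
      tauto
    rw [h2]
    have h3 : S.image (proj (insert x E)) ⊆
        (univ : Finset V).image (fun b => Function.update (proj E φ₀) x (some b)) := by
      intro ψ hψ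
      obtain ⟨φ, hφ, rfl⟩ := Finset.mem_image.1 hψ
      refine Finset.mem_image.2 ⟨φ x, mem_univ _, ?_⟩
      have h4 : proj E φ = proj E φ₀ := by
        funext y
        unfold proj
        by_cases hy : y ∈ E
        · simp [hy, hagree φ hφ y hy]
        · simp [hy]
      exact (proj_insert_eq h4).symm
    have h5 : (S.image (proj (insert x E))).card ≤ n :=
      (Finset.card_le_card h3).trans (Finset.card_image_le.trans (by simpa using hV))
    have h6 : ((S.image (proj (insert x E))).card : ℝ) ≤ n := by exact_mod_cast h5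
    have h7 : (1 : ℝ) ≤ 4 * Real.exp 2 := by
      have := Real.one_le_exp (x := 2) (by norm_num)
      linarith
    nlinarith
  · have hm1 : 1 ≤ (newE F E C).card := Nat.one_le_iff_ne_zero.2 hm
    obtain ⟨𝓜, hsub, hne𝓜, hdisj, hcov⟩ := exists_max_family S hS hCne
    obtain ⟨φ₁, hφ₁⟩ := hne𝓜
    have hag' : ∀ φ ∈ 𝓜, ∀ x ∈ E, φ x = φ₁ x := by
      intro φ hφ x hx
      rw [hagree φ (hsub hφ) x hx, hagree φ₁ (hsub hφ₁) x hx]
    have hfac := sun_factorial hG hq0 hq1 hCne hb.disj 𝓜 hφ₁ (fun φ hφ => hinj φ (hsub hφ))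
      (fun φ hφ => hhom φ (hsub hφ)) hag' hdisj hm1
    set ρ := (n : ℝ) ^ C.card * q ^ (newE F E C).card with hρdef
    have hρ0 : 0 < ρ := by positivity
    have ht1 : 1 ≤ 𝓜.card := Finset.card_pos.2 ⟨φ₁, hφ₁⟩
    have hdich := t_bound hn1 hρ0 ht1 hfac
    have hcount := cover_count Arc c hc hb S hSR hagree 𝓜 hcov
    have hcount' : ((S.image (proj (E ∪ C))).card : ℝ) ≤
        (C.card : ℝ) * (𝓜.card * C.card) * c ^ (C.card - 1) := by
      exact_mod_cast hcount
    exact hcount'.trans (block_numeric hCpos (by omega) hK hL hcK hρ0 hρ ht1 hdich)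

lemma eIn_empty : eIn F (∅ : Finset α) = ∅ := by
  ext e
  induction e using Sym2.ind with
  | _ u v =>
    rw [mem_eIn_pair]
    simp

lemma eIn_union_card {E C : Finset α} :
    (eIn F (E ∪ C)).card = (eIn F E).card + (newE F E C).card := by
  have hsub : eIn F E ⊆ eIn F (E ∪ C) := by
    intro e he
    obtain ⟨h1, h2⟩ := Finset.mem_filter.1 he
    exact Finset.mem_filter.2 ⟨h1, h2.1, fun x hx => Finset.mem_union_left _ (h2.2 x hx)⟩
  unfold newE
  rw [Finset.card_sdiff_of_subset hsub]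
  have := Finset.card_le_card hsub
  omega

/-- The product bound for one pattern. -/
theorem fam_bound (hG : GoodDensity n q H) (hq0 : 0 < q) (hq1 : q ≤ 1) (hn : 1 ≤ n)
    (hV : Fintype.card V ≤ n) (Arc : V → V → Prop) (M c : ℕ)
    (hc : ∀ a, (univ.filter fun b => Arc a b).card ≤ c)
    (hcap : ∀ (T : Finset (Sym2 V)) (D : Finset V), (∀ e ∈ T, e ∈ H.edgeSet) →
      (∀ a b, s(a, b) ∈ T → Arc a b → a ∈ D) → M * T.card ≤ c * D.card)
    (hnum : ∀ a m : ℕ, M * m ≤ c * a → Real.exp (-(a : ℝ)) ≤ (n : ℝ) ^ a * q ^ m)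
    (hK : 1 ≤ K) (hL : Real.log n ≤ K) (hcK : (c : ℝ) ≤ K)
    {R : Finset (α × α)} (hRF : ∀ u v, (u, v) ∈ R → F.Adj u v)
    (S : Finset (α → V)) (hinj : ∀ φ ∈ S, Function.Injective φ)
    (hhom : ∀ φ ∈ S, ∀ u v, F.Adj u v → H.Adj (φ u) (φ v))
    (hSR : ∀ φ ∈ S, ∀ d ∈ R, Arc (φ d.1) (φ d.2))
    (hSR' : ∀ φ ∈ S, ∀ u v, F.Adj u v → Arc (φ u) (φ v) → (u, v) ∈ R) :
    (S.card : ℝ) ≤ (4 * Real.exp 2) ^ Fintype.card α * (Real.exp 1 * K) ^ (eIn F univ).card *
      ((n : ℝ) ^ Fintype.card α * q ^ (eIn F univ).card) := by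
  have hK0 : (0 : ℝ) < K := by linarith
  have hn1 : (1 : ℝ) ≤ n := by exact_mod_cast hn
  have hn0 : (0 : ℝ) < n := by linarith
  let B : Finset α → ℝ := fun E => (4 * Real.exp 2) ^ E.card * (Real.exp 1 * K) ^ (eIn F E).card *
      ((n : ℝ) ^ E.card * q ^ (eIn F E).card)
  have hB0 : ∀ E, 0 ≤ B E := fun E => by positivity
  have key : ∀ k : ℕ, ∃ E : Finset α, Closed R E ∧ ((S.image (proj E)).card : ℝ) ≤ B E ∧
      (E = univ ∨ k ≤ E.card) := by
    intro k
    induction k with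
    | zero =>
      refine ⟨∅, fun _ _ _ h => absurd h (Finset.notMem_empty _), ?_, Or.inr (Nat.zero_le _)⟩
      have h1 : (S.image (proj (∅ : Finset α))).card ≤ 1 := by
        refine Finset.card_le_one.2 ?_
        intro a ha b hb
        obtain ⟨φ, _, rfl⟩ := Finset.mem_image.1 ha
        obtain ⟨φ', _, rfl⟩ := Finset.mem_image.1 hb
        funext x
        simp [proj]
      have h2 : B ∅ = 1 := by
        simp [B, eIn_empty]
      rw [h2]
      exact_mod_cast h1
    | succ k ih =>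
      obtain ⟨E, hE, hEB, hEk⟩ := ih
      by_cases hEu : E = univ
      · exact ⟨E, hE, hEB, Or.inl hEu⟩
      obtain ⟨C, hb⟩ := exists_block R hE hEu
      have hEcard : (E ∪ C).card = E.card + C.card := by
        rw [Finset.card_union_of_disjoint hb.disj.symm]
      have hCpos : 1 ≤ C.card := Finset.card_pos.2 hb.ne
      refine ⟨E ∪ C, hb.closed, ?_, Or.inr ?_⟩
      · set m := (newE F E C).card with hm
        set B₁ : ℝ := (4 * Real.exp 2) ^ C.card * (Real.exp 1 * K) ^ m *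
            ((n : ℝ) ^ C.card * q ^ m) with hB₁
        have hB₁0 : 0 ≤ B₁ := by positivity
        have hstep : (S.image (proj (E ∪ C))).card ≤ ⌊B₁⌋₊ * (S.image (proj E)).card := by
          refine card_image_proj_step S Finset.subset_union_left _ ?_
          intro φ₀ hφ₀
          apply Nat.le_floor
          set S' := S.filter (fun φ => proj E φ = proj E φ₀) with hS'
          have hsub : S' ⊆ S := Finset.filter_subset _ _
          have hagree : ∀ φ ∈ S', ∀ x ∈ E, φ x = φ₀ x := by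
            intro φ hφ x hx
            exact proj_eq_apply hx (Finset.mem_filter.1 hφ).2
          have hρ : Real.exp (-(C.card : ℝ)) ≤ (n : ℝ) ^ C.card * q ^ m := by
            refine hnum _ _ ?_
            exact capacity Arc M c hcap hE (hinj φ₀ hφ₀) (hhom φ₀ hφ₀) (hSR' φ₀ hφ₀)
          exact block_bound hG hq0 hq1 hn hV Arc c hc hK hL hcK hRF hb S'
            (fun φ hφ => hinj φ (hsub hφ)) (fun φ hφ => hhom φ (hsub hφ))
            (fun φ hφ => hSR φ (hsub hφ)) hagree hρ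
        have hfloor : ((⌊B₁⌋₊ : ℕ) : ℝ) ≤ B₁ := Nat.floor_le hB₁0
        calc ((S.image (proj (E ∪ C))).card : ℝ)
            ≤ ((⌊B₁⌋₊ : ℕ) : ℝ) * (S.image (proj E)).card := by exact_mod_cast hstep
          _ ≤ B₁ * B E := mul_le_mul hfloor hEB (Nat.cast_nonneg _) hB₁0
          _ = B (E ∪ C) := by
              simp only [B, hB₁]
              rw [hEcard, eIn_union_card, ← hm]
              ring
      · rcases hEk with h | h
        · exact absurd h hEu
        · omega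
  obtain ⟨E, _, h2, h3⟩ := key (Fintype.card α + 1)
  have hEu : E = univ := by
    rcases h3 with h | h
    · exact h
    · have := Finset.card_le_univ E
      omega
  subst hEu
  have h4 : (S.image (proj (univ : Finset α))).card = S.card :=
    Finset.card_image_of_injective _ proj_univ_injective
  rw [h4] at h2
  have h5 : B univ = (4 * Real.exp 2) ^ Fintype.card α * (Real.exp 1 * K) ^ (eIn F univ).card *
      ((n : ℝ) ^ Fintype.card α * q ^ (eIn F univ).card) := by
    simp [B]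
  rwa [h5] at h2

end Main

end Vale.Agent.Lib.P064
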