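import Mathlib

/-!
The random graph `G(n,p)`, expected numbers of copies, and the two thresholds.
-/

namespace Vale.Agent.Lib.P064

/-- The probability of the graph `G` in the random graph `G(n,p)`. -/
noncomputable def gnpWeight (n : ℕ) (p : ℝ) (G : SimpleGraph (Fin n)) : ℝ :=
  p ^ G.edgeSet.ncard * (1 - p) ^ (n.choose 2 - G.edgeSet.ncard)

/-- The expected number of subgraphs of `G(n,p)` isomorphic to `F`. -/
noncomputable def expCount {W : Type} (n : ℕ) (p : ℝ) (F : SimpleGraph W) : ℝ :=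
  ∑ G : SimpleGraph (Fin n), gnpWeight n p G * (G.copyCount F : ℝ)

open Classical in
/-- The probability that `G(n,p)` has a subgraph isomorphic to `H`. -/
noncomputable def probContains {W : Type} (n : ℕ) (p : ℝ) (H : SimpleGraph W) : ℝ :=
  ∑ G : SimpleGraph (Fin n), gnpWeight n p G * (if 0 < G.copyCount H then 1 else 0)

/-- The threshold `p_c(n,H)`. -/
noncomputable def pc {W : Type} (n : ℕ) (H : SimpleGraph W) : ℝ :=
  sInf {p : ℝ | 0 ≤ p ∧ p ≤ 1 ∧ 1 / 2 ≤ probContains n p H}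

/-- The expectation threshold `p_E(n,H)`. -/
noncomputable def pE {W : Type} (n : ℕ) (H : SimpleGraph W) : ℝ :=
  sInf {p : ℝ | 0 ≤ p ∧ p ≤ 1 ∧ ∀ F : H.Subgraph, 1 / 2 ≤ expCount n p F.coe}

/-- The threshold `tilde p_E(n,H)`. -/
noncomputable def pTilde {W : Type} [Fintype W] (n : ℕ) (H : SimpleGraph W) : ℝ :=
  sInf {p : ℝ | 0 ≤ p ∧ p ≤ 1 ∧ ∀ F : H.Subgraph,
    (H.copyCount F.coe : ℝ) / 2 ≤ expCount n p F.coe}

end Vale.Agent.Lib.P064
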