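import Mathlib

/-!
Hall orientation: if every edge set `T` satisfies `M * |T| ≤ c * |V(T)|`, each edge can place
`M` tokens on its endpoints with at most `c` tokens at each vertex.
-/

open Finset

namespace Vale.Agent.Lib.P064

open scoped Classical in
theorem orient_exists {V : Type} [Fintype V] (H : SimpleGraph V) (M c : ℕ) (hM : 1 ≤ M)
    (hall : ∀ T : Finset (Sym2 V), (∀ e ∈ T, e ∈ H.edgeSet) →
      M * T.card ≤ c * (T.biUnion fun e => e.toFinset).card) :
    ∃ Arc : V → V → Prop,
      (∀ a b, Arc a b → H.Adj a b) ∧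
      (∀ a b, H.Adj a b → Arc a b ∨ Arc b a) ∧
      (∀ a, (univ.filter fun b => Arc a b).card ≤ c) ∧
      (∀ (T : Finset (Sym2 V)) (D : Finset V), (∀ e ∈ T, e ∈ H.edgeSet) →
        (∀ a b, s(a, b) ∈ T → Arc a b → a ∈ D) → M * T.card ≤ c * D.card) := by
  classical
  let ι := H.edgeSet × Fin M
  let t : ι → Finset (V × Fin c) := fun x => (x.1.1.toFinset) ×ˢ univ
  have hH : ∀ s : Finset ι, s.card ≤ (s.biUnion t).card := by
    intro s
    let T : Finset (Sym2 V) := s.image fun x => x.1.1
    have hT : ∀ e ∈ T, e ∈ H.edgeSet := by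
      intro e he
      obtain ⟨x, _, rfl⟩ := Finset.mem_image.1 he
      exact x.1.2
    have h1 : s.card ≤ M * T.card := by
      refine Finset.card_le_mul_card_image s M ?_
      intro a _
      have : (s.filter fun x => x.1.1 = a).card ≤ (univ : Finset (Fin M)).card := by
        refine Finset.card_le_card_of_injOn (fun x => x.2) (fun _ _ => Finset.mem_coe.2 (mem_univ _)) ?_
        intro x hx y hy hxy
        have hx' := (Finset.mem_filter.1 (Finset.mem_coe.1 hx)).2
        have hy' := (Finset.mem_filter.1 (Finset.mem_coe.1 hy)).2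
        refine Prod.ext (Subtype.ext ?_) hxy
        rw [hx', hy']
      simpa using this
    have h2 : s.biUnion t = (T.biUnion fun e => e.toFinset) ×ˢ (univ : Finset (Fin c)) := by
      ext ⟨a, j⟩
      simp only [Finset.mem_biUnion, Finset.mem_product, Finset.mem_univ, and_true, t, T,
        Finset.mem_image]
      constructor
      · rintro ⟨x, hx, h⟩
        exact ⟨x.1.1, ⟨x, hx, rfl⟩, h⟩
      · rintro ⟨_, ⟨x, hx, rfl⟩, h⟩
        exact ⟨x, hx, h⟩
    rw [h2, Finset.card_product, Finset.card_univ, Fintype.card_fin, mul_comm (Finset.card _) c]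
    exact h1.trans (hall T hT)
  obtain ⟨f, hf, hft⟩ := (Finset.all_card_le_biUnion_card_iff_exists_injective t).1 hH
  have hfm : ∀ x : ι, (f x).1 ∈ x.1.1 := by
    intro x
    have := hft x
    simp only [t, Finset.mem_product, Sym2.mem_toFinset] at this
    exact this.1
  refine ⟨fun a b => ∃ (e : H.edgeSet) (i : Fin M), e.1 = s(a, b) ∧ (f (e, i)).1 = a,
    ?_, ?_, ?_, ?_⟩
  · rintro a b ⟨e, _, h, _⟩
    have := e.2
    rw [h] at this
    exact this
  · intro a b hab
    let e : H.edgeSet := ⟨s(a, b), hab⟩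
    let i : Fin M := ⟨0, hM⟩
    have h := hfm (e, i)
    have h' : (f (e, i)).1 ∈ s(a, b) := h
    rcases Sym2.mem_iff.1 h' with h3 | h3
    · exact Or.inl ⟨e, i, rfl, h3⟩
    · exact Or.inr ⟨e, i, Sym2.eq_swap, h3⟩
  · intro a
    set O := univ.filter fun b => ∃ (e : H.edgeSet) (i : Fin M), e.1 = s(a, b) ∧ (f (e, i)).1 = a
      with hO
    have hch : ∀ b ∈ O, ∃ j : Fin c, ∃ (e : H.edgeSet) (i : Fin M), e.1 = s(a, b) ∧ f (e, i) = (a, j) := by
      intro b hb
      obtain ⟨e, i, h1, h2⟩ := (Finset.mem_filter.1 hb).2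
      refine ⟨(f (e, i)).2, e, i, h1, ?_⟩
      exact Prod.ext h2 rfl
    choose g hg using (fun b : O => hch b.1 b.2)
    have hinj : Function.Injective g := by
      intro b b' hbb
      obtain ⟨e, i, h1, h2⟩ := hg b
      obtain ⟨e', i', h1', h2'⟩ := hg b'
      rw [← hbb] at h2'
      have h3 := hf (h2.trans h2'.symm)
      have h4 : e = e' := congrArg Prod.fst h3
      rw [h4, h1'] at h1
      have := Sym2.congr_right.1 h1
      exact Subtype.ext this.symm
    have := Fintype.card_le_of_injective g hinj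
    rw [Fintype.card_coe, Fintype.card_fin] at this
    convert this
  · intro T D hT hD
    have h1 : (T.attach ×ˢ (univ : Finset (Fin M))).card ≤ (D ×ˢ (univ : Finset (Fin c))).card := by
      refine Finset.card_le_card_of_injOn (fun x => f (⟨x.1.1, hT _ x.1.2⟩, x.2)) ?_ ?_
      · intro x _
        simp only [Finset.coe_product, Set.mem_prod, Finset.mem_coe, and_true,
          Finset.coe_univ, Set.mem_univ]
        have h := hfm (⟨x.1.1, hT _ x.1.2⟩, x.2)
        obtain ⟨b, hb⟩ := Sym2.mem_iff_exists.1 h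
        refine hD _ b ?_ ⟨⟨x.1.1, hT _ x.1.2⟩, x.2, hb, rfl⟩
        have h5 := x.1.2
        have h6 : (x.1.1) = s((f (⟨x.1.1, hT _ x.1.2⟩, x.2)).1, b) := hb
        rw [← h6]
        exact h5
      · intro x _ y _ hxy
        have := hf hxy
        have h1 := congrArg Prod.fst this
        have h2 := congrArg Prod.snd this
        have h3 : x.1.1 = y.1.1 := congrArg (fun z : H.edgeSet => z.1) h1
        exact Prod.ext (Subtype.ext h3) h2
    simp only [Finset.card_product, Finset.card_attach, Finset.card_univ, Fintype.card_fin] at h1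
    nlinarith
end Vale.Agent.Lib.P064
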