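import Vale.Agent.Lib.P064.Count
import Vale.Agent.Lib.P064.Orient

/-!
The bound on the number of embeddings of `F` into `H`.
-/

open Finset

namespace Vale.Agent.Lib.P064

open scoped Classical

variable {V α : Type} [Fintype V] [Fintype α] {H : SimpleGraph V} {F : SimpleGraph α} {n : ℕ}
  {q K : ℝ}

/-- Injective homomorphisms from `F` to `H`, as maps. -/
noncomputable def emb (F : SimpleGraph α) (H : SimpleGraph V) : Finset (α → V) :=
  univ.filter (fun φ => Function.Injective φ ∧ ∀ u v, F.Adj u v → H.Adj (φ u) (φ v))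

lemma mem_emb {φ : α → V} :
    φ ∈ emb F H ↔ Function.Injective φ ∧ ∀ u v, F.Adj u v → H.Adj (φ u) (φ v) := by
  simp [emb]

/-- The ordered adjacent pairs of `F`. -/
noncomputable def darts (F : SimpleGraph α) : Finset (α × α) :=
  univ.filter (fun d => F.Adj d.1 d.2)

lemma darts_card_le : (darts F).card ≤ 2 * (eIn F univ).card := by
  have h1 := Finset.card_le_mul_card_image (f := fun d : α × α => s(d.1, d.2)) (darts F) 2 ?_
  · refine h1.trans (Nat.mul_le_mul_left _ (Finset.card_le_card ?_))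
    intro e he
    obtain ⟨d, hd, rfl⟩ := Finset.mem_image.1 he
    exact mem_eIn_pair.2 ⟨(Finset.mem_filter.1 hd).2, mem_univ _, mem_univ _⟩
  · intro e he
    obtain ⟨⟨u, v⟩, _, rfl⟩ := Finset.mem_image.1 he
    have : (darts F).filter (fun d => s(d.1, d.2) = s(u, v)) ⊆ {(u, v), (v, u)} := by
      intro d hd
      obtain ⟨_, h2⟩ := Finset.mem_filter.1 hd
      rcases Sym2.eq_iff.1 h2 with ⟨h3, h4⟩ | ⟨h3, h4⟩
      · exact Finset.mem_insert.2 (Or.inl (Prod.ext h3 h4))
      · exact Finset.mem_insert_of_mem (Finset.mem_singleton.2 (Prod.ext h3 h4))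
    exact (Finset.card_le_card this).trans Finset.card_le_two

lemma vertices_le_darts (hiso : ∀ x, ∃ y, F.Adj x y) : Fintype.card α ≤ (darts F).card := by
  choose g hg using hiso
  have h1 : (univ : Finset α).card ≤ (darts F).card := by
    refine Finset.card_le_card_of_injOn (fun x => (x, g x)) ?_ ?_
    · intro x _
      exact Finset.mem_coe.2 (Finset.mem_filter.2 ⟨mem_univ _, hg x⟩)
    · intro x _ y _ h
      exact congrArg Prod.fst h
  simpa using h1

/-- Sum over all patterns. -/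
theorem emb_bound_of_arc (hG : GoodDensity n q H) (hq0 : 0 < q) (hq1 : q ≤ 1) (hn : 1 ≤ n)
    (hV : Fintype.card V ≤ n) (Arc : V → V → Prop) (M c : ℕ)
    (hc : ∀ a, (univ.filter fun b => Arc a b).card ≤ c)
    (hcap : ∀ (T : Finset (Sym2 V)) (D : Finset V), (∀ e ∈ T, e ∈ H.edgeSet) →
      (∀ a b, s(a, b) ∈ T → Arc a b → a ∈ D) → M * T.card ≤ c * D.card)
    (hnum : ∀ a m : ℕ, M * m ≤ c * a → Real.exp (-(a : ℝ)) ≤ (n : ℝ) ^ a * q ^ m)
    (hK : 1 ≤ K) (hL : Real.log n ≤ K) (hcK : (c : ℝ) ≤ K) :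
    ((emb F H).card : ℝ) ≤ 4 ^ (eIn F univ).card *
      ((4 * Real.exp 2) ^ Fintype.card α * (Real.exp 1 * K) ^ (eIn F univ).card *
        ((n : ℝ) ^ Fintype.card α * q ^ (eIn F univ).card)) := by
  have hK0 : (0 : ℝ) < K := by linarith
  have hn1 : (1 : ℝ) ≤ n := by exact_mod_cast hn
  have hn0 : (0 : ℝ) < n := by linarith
  set B : ℝ := (4 * Real.exp 2) ^ Fintype.card α * (Real.exp 1 * K) ^ (eIn F univ).card *
        ((n : ℝ) ^ Fintype.card α * q ^ (eIn F univ).card) with hB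
  have hB0 : 0 ≤ B := by positivity
  let pat : (α → V) → Finset (α × α) := fun φ => (darts F).filter (fun d => Arc (φ d.1) (φ d.2))
  have h1 := Finset.card_le_mul_card_image (f := pat) (emb F H) ⌊B⌋₊ ?_
  · have h2 : ((emb F H).image pat).card ≤ 2 ^ (darts F).card := by
      have : (emb F H).image pat ⊆ (darts F).powerset := by
        intro R hR
        obtain ⟨φ, _, rfl⟩ := Finset.mem_image.1 hR
        exact Finset.mem_powerset.2 (Finset.filter_subset _ _)
      exact (Finset.card_le_card this).trans (by rw [Finset.card_powerset])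
    have h3 : (2 : ℕ) ^ (darts F).card ≤ 4 ^ (eIn F univ).card := by
      calc (2 : ℕ) ^ (darts F).card ≤ 2 ^ (2 * (eIn F univ).card) :=
            Nat.pow_le_pow_right (by norm_num) darts_card_le
        _ = 4 ^ (eIn F univ).card := by rw [pow_mul]; norm_num
    have h4 : (emb F H).card ≤ ⌊B⌋₊ * 4 ^ (eIn F univ).card :=
      h1.trans (Nat.mul_le_mul_left _ (h2.trans h3))
    have hfloor : ((⌊B⌋₊ : ℕ) : ℝ) ≤ B := Nat.floor_le hB0
    calc ((emb F H).card : ℝ) ≤ ((⌊B⌋₊ : ℕ) : ℝ) * 4 ^ (eIn F univ).card := by exact_mod_cast h4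
      _ ≤ B * 4 ^ (eIn F univ).card := mul_le_mul_of_nonneg_right hfloor (by positivity)
      _ = _ := mul_comm _ _
  · intro R hR
    obtain ⟨φ₁, hφ₁, rfl⟩ := Finset.mem_image.1 hR
    apply Nat.le_floor
    set S := (emb F H).filter (fun φ => pat φ = pat φ₁) with hS
    have hSe : ∀ φ ∈ S, φ ∈ emb F H := fun φ hφ => (Finset.mem_filter.1 hφ).1
    have hSp : ∀ φ ∈ S, pat φ = pat φ₁ := fun φ hφ => (Finset.mem_filter.1 hφ).2
    refine fam_bound hG hq0 hq1 hn hV Arc M c hc hcap hnum hK hL hcK (R := pat φ₁) ?_ S ?_ ?_ ?_ ?_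
    · intro u v h
      exact (Finset.mem_filter.1 (Finset.mem_filter.1 h).1).2
    · intro φ hφ
      exact (Finset.mem_filter.1 (hSe φ hφ)).2.1
    · intro φ hφ
      exact (Finset.mem_filter.1 (hSe φ hφ)).2.2
    · intro φ hφ d hd
      rw [← hSp φ hφ] at hd
      exact (Finset.mem_filter.1 hd).2
    · intro φ hφ u v huv harc
      rw [← hSp φ hφ]
      exact Finset.mem_filter.2 ⟨Finset.mem_filter.2 ⟨mem_univ _, huv⟩, harc⟩

/-- Density of edge sets from `GoodDensity`. -/
lemma density_of_good (hG : GoodDensity n q H) (hq0 : 0 < q) (hq1 : q ≤ 1)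
    (T : Finset (Sym2 V)) (hT : ∀ e ∈ T, e ∈ H.edgeSet) (hne : T.Nonempty) :
    (1 : ℝ) ≤ (n : ℝ) ^ (T.biUnion fun e => e.toFinset).card * q ^ T.card := by
  set W := T.biUnion fun e => e.toFinset with hW
  let U : SimpleGraph (↥W) :=
    { Adj := fun a b => s(a.1, b.1) ∈ T
      symm := ⟨fun a b h => by rwa [Sym2.eq_swap]⟩
      loopless := ⟨fun a h => by
        have := hT _ h
        exact H.loopless.1 _ ((SimpleGraph.mem_edgeSet H).1 this)⟩ }
  have hcopy : Nonempty (U.Copy H) := by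
    refine ⟨⟨⟨fun a => a.1, fun {a b} h => ?_⟩, Subtype.val_injective⟩⟩
    exact (SimpleGraph.mem_edgeSet H).1 (hT _ h)
  have hsurj : (T : Set (Sym2 V)) ⊆ (Sym2.map (fun a : ↥W => a.1)) '' U.edgeSet := by
    intro e he
    have he' : e ∈ T := he
    induction e using Sym2.ind with
    | _ u v =>
      have hu : u ∈ W := Finset.mem_biUnion.2 ⟨_, he', by simp⟩
      have hv : v ∈ W := Finset.mem_biUnion.2 ⟨_, he', by simp⟩
      exact ⟨s(⟨u, hu⟩, ⟨v, hv⟩), he', rfl⟩
  have hcard : T.card ≤ U.edgeSet.ncard := by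
    rw [← Set.ncard_coe_finset]
    exact (Set.ncard_le_ncard hsurj (Set.toFinite _)).trans (Set.ncard_image_le (Set.toFinite _))
  have hne' : U.edgeSet.Nonempty := by
    apply Set.nonempty_of_ncard_ne_zero
    have : 1 ≤ T.card := Finset.card_pos.2 hne
    omega
  have h1 := hG _ U hcopy hne'
  have h2 := copyCount_mul_card_le (Γ := Unit) n U (fun _ => SimpleGraph.Iso.refl)
    (fun _ _ _ => rfl)
  have h3 : ((⊤ : SimpleGraph (Fin n)).copyCount U : ℝ) ≤ (n : ℝ) ^ W.card := by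
    have : (⊤ : SimpleGraph (Fin n)).copyCount U ≤ n ^ W.card := by
      simpa using h2
    exact_mod_cast this
  calc (1 : ℝ) ≤ ((⊤ : SimpleGraph (Fin n)).copyCount U : ℝ) * q ^ U.edgeSet.ncard := h1
    _ ≤ (n : ℝ) ^ W.card * q ^ T.card := by
        apply mul_le_mul h3 (pow_le_pow_of_le_one hq0.le hq1 hcard) (by positivity) (by positivity)

end Vale.Agent.Lib.P064
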