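import Vale.Agent.Lib.P064.Link

/-!
From the spread family to the threshold.
-/

open Finset

namespace Vale.Agent.Lib.P064

open scoped Classical

variable {n : ℕ} {V : Type} [Fintype V] {H : SimpleGraph V}

lemma contains_of_subset {ι : V ↪ Fin n} {g : Equiv.Perm (Fin n)} {W : Finset (EdgeSp n)}
    (h : famS H ι g ⊆ W) : 0 < (graphOf W).copyCount H := by
  rw [SimpleGraph.copyCount_pos]
  have hinj : Function.Injective (fun a => g (ι a)) := fun a b hab =>
    ι.injective (g.injective hab)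
  refine ⟨⟨⟨fun a => g (ι a), fun {a b} hab => ?_⟩, hinj⟩⟩
  have hne : g (ι a) ≠ g (ι b) := fun hh => hab.ne (hinj hh)
  unfold graphOf
  rw [SimpleGraph.fromEdgeSet_adj]
  refine ⟨?_, hne⟩
  let x : EdgeSp n := ⟨s(g (ι a), g (ι b)), by simpa using hne⟩
  have hx : x ∈ famS H ι g := Finset.mem_filter.2 ⟨mem_univ _, a, b, hab, rfl⟩
  exact ⟨x, h hx, rfl⟩

lemma probContains_ge {p : ℝ} (h0 : 0 ≤ p) (h1 : p ≤ 1) (ι : V ↪ Fin n) :
    1 - ∑ W : Finset (EdgeSp n), wt p W * fail (famS H ι) univ W ≤ probContains n p H := by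
  unfold probContains
  rw [sum_graphs]
  simp only [gnpWeight_graphOf]
  have h2 : 1 - ∑ W : Finset (EdgeSp n), wt p W * fail (famS H ι) univ W
      = ∑ W : Finset (EdgeSp n), wt p W * (1 - fail (famS H ι) univ W) := by
    simp only [mul_sub, mul_one, Finset.sum_sub_distrib, sum_wt]
  rw [h2]
  refine Finset.sum_le_sum fun W _ => ?_
  refine mul_le_mul_of_nonneg_left ?_ (wt_nonneg h0 h1 W)
  unfold fail
  by_cases hex : ∃ i ∈ (univ : Finset (Equiv.Perm (Fin n))), famS H ι i ⊆ W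
  · obtain ⟨g, _, hg⟩ := hex
    have := contains_of_subset hg
    rw [if_pos this]
    rw [if_pos ⟨g, mem_univ _, hg⟩]
    norm_num
  · rw [if_neg hex]
    split_ifs <;> norm_num

/-- The spread lemma applied to the family of copies of `H`. -/
theorem probContains_large {q p₀ : ℝ} [Nonempty V] (hn : 1 ≤ n) (hV : Fintype.card V ≤ n)
    (ι : V ↪ Fin n) (hq0 : 0 < q) (hqe : q ≤ Real.exp (-1)) (hG : GoodDensity n q H)
    (hp : 64 * (64 * Real.exp 7 * (2 * Real.log n + 1) * q) ≤ p₀) (hp1 : p₀ ≤ 1) {L : ℕ}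
    (hL : Fintype.card (EdgeSp n) < 2 ^ L) :
    1 / 2 ≤ probContains n (roundP p₀ L) H := by
  set θ := 64 * Real.exp 7 * (2 * Real.log n + 1) * q with hθ
  have hn1 : (1 : ℝ) ≤ n := by exact_mod_cast hn
  have hL0 : 0 ≤ Real.log n := Real.log_nonneg hn1
  have hθ0 : 0 < θ := by positivity
  have hp0 : 0 < p₀ := by linarith
  obtain ⟨h0', h1'⟩ := roundP_mem hp0.le hp1 L
  have hfac : (0 : ℝ) < n.factorial := by positivity
  have hcard : Fintype.card (Equiv.Perm (Fin n)) = n.factorial := by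
    rw [Fintype.card_perm, Fintype.card_fin]
  have hspread := spread_final (X := EdgeSp n) hθ0.le hp hp0 hp1 hL (famS H ι)
    (univ : Finset (Equiv.Perm (Fin n))) (fun _ => 1 / (n.factorial : ℝ))
    (fun _ _ => by positivity) (fun g _ => Finset.card_le_univ _) (by
      intro U
      rw [Finset.sum_const, nsmul_eq_mul, mul_one_div, div_le_iff₀ hfac]
      have := spread_count hn hV ι hq0 hqe hG U
      convert this using 3) (by
      rw [Finset.sum_const, nsmul_eq_mul, Finset.card_univ, hcard]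
      field_simp)
  have := probContains_ge (H := H) h0' h1' ι
  linarith

lemma gnpWeight_one_top : gnpWeight n 1 (⊤ : SimpleGraph (Fin n)) = 1 := by
  have h1 : edgesOf (⊤ : SimpleGraph (Fin n)) = univ := by
    ext x
    simp only [mem_edgesOf, Finset.mem_univ, iff_true]
    obtain ⟨e, he⟩ := x
    induction e using Sym2.ind with
    | _ a b =>
      have : a ≠ b := by simpa using he
      exact this
  rw [gnpWeight_eq, h1]
  simp [wt, wtOn]

lemma top_contains {W : Type} (F : SimpleGraph W) (ι : W ↪ Fin n) :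
    0 < (⊤ : SimpleGraph (Fin n)).copyCount F := by
  rw [SimpleGraph.copyCount_pos]
  exact ⟨⟨⟨fun a => ι a, fun {a b} hab => by
    have : ι a ≠ ι b := fun h => hab.ne (ι.injective h)
    exact this⟩, ι.injective⟩⟩

lemma one_mem_pE_set (ι : V ↪ Fin n) (F : H.Subgraph) : 1 / 2 ≤ expCount n 1 F.coe := by
  unfold expCount
  have h1 : ∀ G ∈ (univ : Finset (SimpleGraph (Fin n))), 0 ≤ gnpWeight n 1 G * (G.copyCount F.coe : ℝ) :=
    fun G _ => mul_nonneg (gnpWeight_nonneg (by norm_num) (by norm_num) G) (Nat.cast_nonneg _)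
  have h2 := Finset.single_le_sum h1 (mem_univ (⊤ : SimpleGraph (Fin n)))
  rw [gnpWeight_one_top, one_mul] at h2
  have h3 : 0 < (⊤ : SimpleGraph (Fin n)).copyCount F.coe :=
    top_contains _ ⟨fun a => ι a.1, fun a b h => Subtype.ext (ι.injective h)⟩
  have h4 : (1 : ℝ) ≤ ((⊤ : SimpleGraph (Fin n)).copyCount F.coe : ℝ) := by exact_mod_cast h3
  linarith

lemma one_mem_pc_set (ι : V ↪ Fin n) : 1 / 2 ≤ probContains n 1 H := by
  unfold probContains
  have h1 : ∀ G ∈ (univ : Finset (SimpleGraph (Fin n))),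
      0 ≤ gnpWeight n 1 G * (if 0 < G.copyCount H then (1 : ℝ) else 0) :=
    fun G _ => mul_nonneg (gnpWeight_nonneg (by norm_num) (by norm_num) G) (by split_ifs <;> norm_num)
  have h2 := Finset.single_le_sum h1 (mem_univ (⊤ : SimpleGraph (Fin n)))
  rw [gnpWeight_one_top, one_mul, if_pos (top_contains H ι)] at h2
  linarith

lemma pc_le_of_mem {x : ℝ} (h0 : 0 ≤ x) (h1 : x ≤ 1) (h : 1 / 2 ≤ probContains n x H) :
    pc n H ≤ x :=
  csInf_le ⟨0, fun _ hy => hy.1⟩ ⟨h0, h1, h⟩

theorem pc_le_of_pE_mem (hn : 2 ≤ n) (hV : Fintype.card V ≤ n) (hH : H ≠ ⊥) {p : ℝ} (h0 : 0 ≤ p)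
    (h1 : p ≤ 1) (hp : ∀ F : H.Subgraph, 1 / 2 ≤ expCount n p F.coe) :
    pc n H ≤ 262144 * Real.exp 7 * p * Real.log n ^ 2 := by
  have hG := good_of_subgraphs h0 h1 hp
  obtain ⟨ι⟩ : Nonempty (V ↪ Fin n) :=
    Function.Embedding.nonempty_of_card_le (by simpa using hV)
  obtain ⟨a, b, hab⟩ : ∃ a b, H.Adj a b := by
    by_contra hcon
    push Not at hcon
    apply hH
    ext x y
    simp [hcon x y]
  have : Nonempty V := ⟨a⟩
  have hp0 : 0 < p := by
    rcases h0.lt_or_eq with h | h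
    · exact h
    · exfalso
      have hne : H.edgeSet.Nonempty := ⟨s(a, b), hab⟩
      have h2 := hG V H ⟨SimpleGraph.Iso.refl.toCopy⟩ hne
      have h3 : H.edgeSet.ncard ≠ 0 := Set.ncard_ne_zero_of_mem hne.choose_spec (Set.toFinite _)
      rw [← h, mul_zero, zero_pow h3, mul_zero] at h2
      norm_num at h2
  have hn2 : (2 : ℝ) ≤ n := by exact_mod_cast hn
  have hlog2 : (1 : ℝ) / 2 ≤ Real.log 2 := by
    have := Real.log_two_gt_d9
    linarith
  have hlogn2 : Real.log 2 ≤ Real.log n := Real.log_le_log (by norm_num) hn2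
  set l := Real.log n with hl
  have hl12 : 1 / 2 ≤ l := hlog2.trans hlogn2
  have hl0 : 0 < l := by linarith
  have hE : (1 : ℝ) ≤ Real.exp 7 := Real.one_le_exp (by norm_num)
  have hpc1 : pc n H ≤ 1 := pc_le_of_mem (by norm_num) le_rfl (one_mem_pc_set ι)
  set C := 262144 * Real.exp 7 with hC
  set A := 32768 * Real.exp 7 * l * p with hA
  have hgoal : C * p * l ^ 2 = 8 * l * A := by
    rw [hC, hA]
    ring
  have hApos : 0 < A := by positivity
  set q := 2 * p with hq
  by_cases hcase1 : Real.exp (-1) < q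
  · -- large density
    refine hpc1.trans ?_
    have h3 : Real.exp (-1) * Real.exp 7 = Real.exp 6 := by
      rw [← Real.exp_add]
      norm_num
    have h4 : (1 : ℝ) ≤ Real.exp 6 := Real.one_le_exp (by norm_num)
    have h5 : (1 : ℝ) ≤ Real.exp 7 * q := by
      calc (1 : ℝ) ≤ Real.exp 6 := h4
        _ = Real.exp (-1) * Real.exp 7 := h3.symm
        _ ≤ q * Real.exp 7 := mul_le_mul_of_nonneg_right hcase1.le (by positivity)
        _ = _ := mul_comm _ _
    have h6 : l ^ 2 ≥ 1 / 4 := by nlinarith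
    have h7 : C * p * l ^ 2 = 131072 * (Real.exp 7 * q) * l ^ 2 := by
      rw [hC, hq]
      ring
    rw [h7]
    have h8 : (0 : ℝ) ≤ l ^ 2 := by positivity
    nlinarith
  push Not at hcase1
  have hq0 : 0 < q := by positivity
  set θ := 64 * Real.exp 7 * (2 * l + 1) * q with hθ
  have hp₀A : 64 * θ ≤ A := by
    have : 2 * l + 1 ≤ 4 * l := by linarith
    have h3 : 64 * θ = 8192 * Real.exp 7 * p * (2 * l + 1) := by
      rw [hθ, hq]
      ring
    have h4 : A = 8192 * Real.exp 7 * p * (4 * l) := by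
      rw [hA]
      ring
    rw [h3, h4]
    gcongr
  by_cases hcase2 : 1 < 64 * θ
  · refine hpc1.trans ?_
    rw [hgoal]
    nlinarith
  push Not at hcase2
  have hθ0 : 0 < θ := by positivity
  -- the number of rounds
  set k := Nat.log 2 n with hk
  set L := 2 * (k + 1) with hL
  have hLcard : Fintype.card (EdgeSp n) < 2 ^ L := by
    rw [card_edgeSp, Nat.choose_two_right]
    have h3 : n < 2 ^ (k + 1) := Nat.lt_pow_succ_log_self (by norm_num) n
    have h4 : n * (n - 1) / 2 ≤ n * n := (Nat.div_le_self _ _).trans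
      (Nat.mul_le_mul_left _ (Nat.sub_le _ _))
    calc n * (n - 1) / 2 ≤ n * n := h4
      _ < 2 ^ (k + 1) * 2 ^ (k + 1) := Nat.mul_self_lt_mul_self h3
      _ = 2 ^ L := by
          rw [hL, ← pow_add]
          congr 1
          omega
  have hLreal : (L : ℝ) ≤ 8 * l := by
    have h3 : 2 ^ k ≤ n := Nat.pow_log_le_self 2 (by omega)
    have h4 : ((2 : ℝ) ^ k) ≤ n := by exact_mod_cast h3
    have h5 := Real.log_le_log (by positivity) h4
    rw [Real.log_pow] at h5
    have h6 : (k : ℝ) ≤ 2 * l := by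
      have hk0 : (0 : ℝ) ≤ k := Nat.cast_nonneg _
      nlinarith
    rw [hL]
    push_cast
    linarith
  have hmain := probContains_large (by omega) hV ι hq0 hcase1 hG (le_refl (64 * θ)) hcase2 hLcard
  have hp₀0 : 0 ≤ 64 * θ := by positivity
  obtain ⟨h3, h4⟩ := roundP_mem hp₀0 hcase2 L
  refine (pc_le_of_mem h3 h4 hmain).trans ?_
  refine (roundP_le hp₀0 hcase2 L).trans ?_
  rw [hgoal]
  exact mul_le_mul hLreal hp₀A hp₀0 (by positivity)

/-- The main theorem: `p_c(n,H) ≤ C p_E(n,H) log² n`. -/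
theorem pc_le_pE_log_sq :
    ∃ C : ℝ, 0 < C ∧ ∀ n : ℕ, 2 ≤ n → ∀ (V : Type) [Fintype V] (H : SimpleGraph V),
      Fintype.card V ≤ n → H ≠ ⊥ → pc n H ≤ C * pE n H * Real.log n ^ 2 := by
  refine ⟨262144 * Real.exp 7, by positivity, ?_⟩
  intro n hn V _ H hV hH
  obtain ⟨ι⟩ : Nonempty (V ↪ Fin n) :=
    Function.Embedding.nonempty_of_card_le (by simpa using hV)
  have hn2 : (2 : ℝ) ≤ n := by exact_mod_cast hn
  have hl : 0 < Real.log n := Real.log_pos (by linarith)
  have hpos : 0 < 262144 * Real.exp 7 * Real.log n ^ 2 := by positivity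
  have hne : {p : ℝ | 0 ≤ p ∧ p ≤ 1 ∧ ∀ F : H.Subgraph, 1 / 2 ≤ expCount n p F.coe}.Nonempty :=
    ⟨1, by norm_num, le_rfl, fun F => one_mem_pE_set ι F⟩
  have h1 : pc n H / (262144 * Real.exp 7 * Real.log n ^ 2) ≤ pE n H := by
    refine le_csInf hne ?_
    rintro p ⟨h0, h1, hp⟩
    rw [div_le_iff₀ hpos]
    have := pc_le_of_pE_mem hn hV hH h0 h1 hp
    calc pc n H ≤ 262144 * Real.exp 7 * p * Real.log n ^ 2 := this
      _ = _ := by ring
  rw [div_le_iff₀ hpos] at h1
  calc pc n H ≤ pE n H * (262144 * Real.exp 7 * Real.log n ^ 2) := h1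
    _ = _ := by ring

end Vale.Agent.Lib.P064
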