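import Vale.Agent.Lib.P064.Emb

/-!
The final bound on embeddings, with explicit orientation parameters.
-/

open Finset

namespace Vale.Agent.Lib.P064

open scoped Classical

variable {V α : Type} [Fintype V] [Fintype α] {H : SimpleGraph V} {F : SimpleGraph α} {n : ℕ}
  {q : ℝ}

lemma pow_le_exp_descFactorial {n v : ℕ} (hv : v ≤ n) :
    (n : ℝ) ^ v ≤ Real.exp 1 ^ v * n.descFactorial v := by
  have h1 : n ^ v * v.factorial ≤ n.descFactorial v * v ^ v := by
    have h2 : v.factorial = ∏ i ∈ range v, (v - i) := by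
      rw [← Nat.descFactorial_self, Nat.descFactorial_eq_prod_range]
    rw [h2, Nat.descFactorial_eq_prod_range]
    have h3 : n ^ v = ∏ _i ∈ range v, n := by simp
    have h4 : v ^ v = ∏ _i ∈ range v, v := by simp
    rw [h3, h4, ← Finset.prod_mul_distrib, ← Finset.prod_mul_distrib]
    refine Finset.prod_le_prod' ?_
    intro i hi
    have hi' : i < v := Finset.mem_range.1 hi
    obtain ⟨a, rfl⟩ := Nat.exists_eq_add_of_lt hi'
    obtain ⟨b, rfl⟩ := Nat.exists_eq_add_of_le hv
    have e1 : i + a + 1 - i = a + 1 := by omega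
    have e2 : i + a + 1 + b - i = a + 1 + b := by omega
    rw [e1, e2]
    nlinarith
  by_cases hv0 : v = 0
  · subst hv0
    simp
  have hvpos : (0 : ℝ) < v := by exact_mod_cast Nat.pos_of_ne_zero hv0
  have hfac : (0 : ℝ) < v.factorial := by positivity
  have h5 : (v : ℝ) ^ v / v.factorial ≤ Real.exp v := Real.pow_div_factorial_le_exp _ hvpos.le v
  have h6 : (v : ℝ) ^ v ≤ Real.exp 1 ^ v * v.factorial := by
    rw [div_le_iff₀ hfac] at h5
    have h7 : Real.exp v = Real.exp 1 ^ v := by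
      rw [← Real.exp_nat_mul]
      congr 1
      ring
    rwa [h7] at h5
  have h8 : ((n : ℝ) ^ v) * v.factorial ≤ n.descFactorial v * (v : ℝ) ^ v := by
    exact_mod_cast h1
  have h9 : ((n : ℝ) ^ v) * v.factorial ≤ (Real.exp 1 ^ v * n.descFactorial v) * v.factorial := by
    calc _ ≤ n.descFactorial v * (v : ℝ) ^ v := h8
      _ ≤ n.descFactorial v * (Real.exp 1 ^ v * v.factorial) :=
          mul_le_mul_of_nonneg_left h6 (Nat.cast_nonneg _)
      _ = _ := by ring
  exact le_of_mul_le_mul_right h9 hfac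

/-- The numerical heart of the bound. -/
lemma final_numeric {e v : ℕ} {nr K q₀ d : ℝ} (hnr : 0 ≤ nr) (hK : 0 ≤ K) (hq : 0 ≤ q₀)
    (hd : 0 ≤ d) (hve : v ≤ 2 * e) (hnd : nr ^ v ≤ Real.exp 1 ^ v * d) :
    4 ^ e * ((4 * Real.exp 2) ^ v * (Real.exp 1 * K) ^ e * (nr ^ v * q₀ ^ e))
      ≤ (64 * Real.exp 7 * K * q₀) ^ e * d := by
  set E := Real.exp 1 with hE
  have hE1 : 1 ≤ E := Real.one_le_exp (by norm_num)
  have h2 : Real.exp 2 = E ^ 2 := by
    rw [hE, ← Real.exp_nat_mul]
    norm_num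
  have h7 : Real.exp 7 = E ^ 7 := by
    rw [hE, ← Real.exp_nat_mul]
    norm_num
  rw [h2, h7]
  have hb : (1 : ℝ) ≤ 4 * E ^ 3 := by
    have : (1 : ℝ) ≤ E ^ 3 := one_le_pow₀ hE1
    linarith
  have hpow : (4 * E ^ 3) ^ v ≤ (4 * E ^ 3) ^ (2 * e) := pow_le_pow_right₀ hb hve
  have e0 : (0 : ℝ) ≤ E := by linarith
  calc 4 ^ e * ((4 * E ^ 2) ^ v * (E * K) ^ e * (nr ^ v * q₀ ^ e))
      ≤ 4 ^ e * ((4 * E ^ 2) ^ v * (E * K) ^ e * ((E ^ v * d) * q₀ ^ e)) := by
        gcongr
    _ = (4 * E ^ 3) ^ v * (4 ^ e * (E * K) ^ e * q₀ ^ e * d) := by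
        have : (4 * E ^ 3) ^ v = (4 * E ^ 2) ^ v * E ^ v := by
          rw [← mul_pow]
          ring_nf
        rw [this]
        ring
    _ ≤ (4 * E ^ 3) ^ (2 * e) * (4 ^ e * (E * K) ^ e * q₀ ^ e * d) := by
        gcongr
    _ = (64 * E ^ 7 * K * q₀) ^ e * d := by
        rw [pow_mul, ← mul_pow, ← mul_pow, ← mul_assoc, ← mul_assoc, ← mul_pow]
        congr 2
        ring

theorem inj_bound (hn : 1 ≤ n) (hV : Fintype.card V ≤ n) (hq0 : 0 < q)
    (hqe : q ≤ Real.exp (-1)) (hG : GoodDensity n q H) (hiso : ∀ x, ∃ y, F.Adj x y)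
    (hvn : Fintype.card α ≤ n) :
    ((emb F H).card : ℝ) ≤
      (64 * Real.exp 7 * (2 * Real.log n + 1) * q) ^ (eIn F univ).card *
        n.descFactorial (Fintype.card α) := by
  have hn1 : (1 : ℝ) ≤ n := by exact_mod_cast hn
  have hn0 : (0 : ℝ) < n := by linarith
  have hL0 : 0 ≤ Real.log n := Real.log_nonneg hn1
  set Q := - Real.log q with hQ
  have hq1 : q ≤ 1 := hqe.trans (by
    rw [Real.exp_le_one_iff]; norm_num)
  have hQ1 : 1 ≤ Q := by
    have := Real.log_le_log hq0 hqe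
    rw [Real.log_exp] at this
    rw [hQ]
    linarith
  have hQ0 : 0 < Q := by linarith
  have hqexp : q = Real.exp (-Q) := by
    rw [hQ, neg_neg, Real.exp_log hq0]
  set M := ⌈Q⌉₊ with hM
  have hQM : Q ≤ M := Nat.le_ceil Q
  have hMQ : (M : ℝ) < Q + 1 := Nat.ceil_lt_add_one hQ0.le
  have hM1 : 1 ≤ M := by
    have : (0 : ℝ) < M := by linarith
    exact_mod_cast this
  have hMpos : (0 : ℝ) < M := by linarith
  set c := ⌈(M : ℝ) * Real.log n / Q⌉₊ with hc
  have hc1 : (M : ℝ) * Real.log n / Q ≤ c := Nat.le_ceil _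
  have hc2 : (c : ℝ) < (M : ℝ) * Real.log n / Q + 1 :=
    Nat.ceil_lt_add_one (by positivity)
  have hc3 : (M : ℝ) * Real.log n ≤ c * Q := by
    rwa [div_le_iff₀ hQ0] at hc1
  have hc4 : (c : ℝ) * Q ≤ (M : ℝ) * Real.log n + Q := by
    have : (M : ℝ) * Real.log n / Q + 1 = ((M : ℝ) * Real.log n + Q) / Q := by
      field_simp
    rw [this, lt_div_iff₀ hQ0] at hc2
    exact hc2.le
  have hcK : (c : ℝ) ≤ 2 * Real.log n + 1 := by
    have h1 : (M : ℝ) * Real.log n / Q ≤ 2 * Real.log n := by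
      rw [div_le_iff₀ hQ0]
      have : (M : ℝ) ≤ 2 * Q := by linarith
      nlinarith
    linarith
  have hall : ∀ T : Finset (Sym2 V), (∀ e ∈ T, e ∈ H.edgeSet) →
      M * T.card ≤ c * (T.biUnion fun e => e.toFinset).card := by
    intro T hT
    by_cases hne : T.Nonempty
    · have h1 := density_of_good hG hq0 hq1 T hT hne
      set w := (T.biUnion fun e => e.toFinset).card with hw
      have h2 : (T.card : ℝ) * Q ≤ w * Real.log n := by
        have h3 := Real.log_le_log (by norm_num) h1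
        rw [Real.log_one, Real.log_mul (by positivity) (by positivity), Real.log_pow,
          Real.log_pow] at h3
        rw [hQ]
        linarith
      have h4 : (M : ℝ) * T.card ≤ c * w := by
        have h5 : ((M : ℝ) * T.card) * Q ≤ (c * w) * Q := by
          calc ((M : ℝ) * T.card) * Q = M * (T.card * Q) := by ring
            _ ≤ M * (w * Real.log n) := mul_le_mul_of_nonneg_left h2 hMpos.le
            _ = w * (M * Real.log n) := by ring
            _ ≤ w * (c * Q) := mul_le_mul_of_nonneg_left hc3 (Nat.cast_nonneg _)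
            _ = _ := by ring
        exact le_of_mul_le_mul_right h5 hQ0
      exact_mod_cast h4
    · rw [Finset.not_nonempty_iff_eq_empty] at hne
      subst hne
      simp
  obtain ⟨Arc, _, _, hout, hcap⟩ := orient_exists H M c hM1 hall
  have hnum : ∀ a m : ℕ, M * m ≤ c * a → Real.exp (-(a : ℝ)) ≤ (n : ℝ) ^ a * q ^ m := by
    intro a m hma
    have h1 : (M : ℝ) * m ≤ c * a := by exact_mod_cast hma
    have h2 : (m : ℝ) * Q ≤ a * Real.log n + a := by
      have h3 : (M : ℝ) * ((m : ℝ) * Q) ≤ M * (a * Real.log n + a) := by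
        calc (M : ℝ) * ((m : ℝ) * Q) = (M * m) * Q := by ring
          _ ≤ (c * a) * Q := mul_le_mul_of_nonneg_right h1 hQ0.le
          _ = a * (c * Q) := by ring
          _ ≤ a * (M * Real.log n + Q) := mul_le_mul_of_nonneg_left hc4 (Nat.cast_nonneg _)
          _ ≤ a * (M * Real.log n + M) := by gcongr
          _ = _ := by ring
      exact le_of_mul_le_mul_left h3 hMpos
    have h4 : (n : ℝ) ^ a * q ^ m = Real.exp (a * Real.log n - m * Q) := by
      rw [Real.exp_sub, hqexp]
      have h5 : (n : ℝ) ^ a = Real.exp (a * Real.log n) := by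
        rw [Real.exp_nat_mul, Real.exp_log hn0]
      rw [h5, ← Real.exp_nat_mul, div_eq_mul_inv, ← Real.exp_neg]
      congr 2
      ring
    rw [h4, Real.exp_le_exp]
    linarith
  have hK1 : (1 : ℝ) ≤ 2 * Real.log n + 1 := by linarith
  have hmain := emb_bound_of_arc (F := F) hG hq0 hq1 hn hV Arc M c hout hcap hnum hK1
    (by linarith) hcK
  refine hmain.trans ?_
  apply final_numeric hn0.le (by linarith) hq0.le (Nat.cast_nonneg _)
  · exact (vertices_le_darts hiso).trans darts_card_le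
  · exact pow_le_exp_descFactorial hvn

end Vale.Agent.Lib.P064
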