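import Mathlib

/-!
Spread lemma: a weighted family of small sets, spread with parameter `θ`, has a member
inside a random subset of density about `θ log r`.  Self-contained, via the encoding argument.
-/

open Finset

namespace Vale.Agent.Lib.P064

variable {X : Type} [DecidableEq X]

/-- Weight of `W ⊆ s` under the product measure of density `p` on subsets of `s`. -/
noncomputable def wtOn (s : Finset X) (p : ℝ) (W : Finset X) : ℝ :=
  p ^ W.card * (1 - p) ^ (s \ W).card

lemma wtOn_nonneg (s : Finset X) {p : ℝ} (h0 : 0 ≤ p) (h1 : p ≤ 1) (W : Finset X) :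
    0 ≤ wtOn s p W :=
  mul_nonneg (pow_nonneg h0 _) (pow_nonneg (by linarith) _)

lemma wtOn_insert_left {s : Finset X} {x : X} (hx : x ∉ s) (p : ℝ) {W : Finset X} (hW : W ⊆ s) :
    wtOn (insert x s) p W = (1 - p) * wtOn s p W := by
  have hxW : x ∉ W := fun h => hx (hW h)
  have : insert x s \ W = insert x (s \ W) := by
    rw [Finset.insert_sdiff_of_notMem _ hxW]
  unfold wtOn
  rw [this, Finset.card_insert_of_notMem (fun h => hx (Finset.mem_sdiff.1 h).1)]
  ring

lemma wtOn_insert_right {s : Finset X} {x : X} (hx : x ∉ s) (p : ℝ) {W : Finset X} (hW : W ⊆ s) :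
    wtOn (insert x s) p (insert x W) = p * wtOn s p W := by
  have hxW : x ∉ W := fun h => hx (hW h)
  have : insert x s \ insert x W = s \ W := by
    ext y
    simp only [Finset.mem_sdiff, Finset.mem_insert]
    constructor
    · rintro ⟨h1, h2⟩
      push Not at h2
      rcases h1 with rfl | h1
      · exact absurd rfl h2.1
      · exact ⟨h1, h2.2⟩
    · rintro ⟨h1, h2⟩
      refine ⟨Or.inr h1, ?_⟩
      rintro (rfl | h3)
      · exact hx h1
      · exact h2 h3
  unfold wtOn
  rw [this, Finset.card_insert_of_notMem hxW]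
  ring

lemma sum_powerset_insert_wt {s : Finset X} {x : X} (hx : x ∉ s) (p : ℝ) (g : Finset X → ℝ) :
    ∑ W ∈ (insert x s).powerset, wtOn (insert x s) p W * g W
      = (1 - p) * ∑ W ∈ s.powerset, wtOn s p W * g W
        + p * ∑ W ∈ s.powerset, wtOn s p W * g (insert x W) := by
  rw [Finset.sum_powerset_insert hx, Finset.mul_sum, Finset.mul_sum]
  congr 1
  · refine Finset.sum_congr rfl fun W hW => ?_
    rw [wtOn_insert_left hx p (Finset.mem_powerset.1 hW)]; ring
  · refine Finset.sum_congr rfl fun W hW => ?_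
    rw [wtOn_insert_right hx p (Finset.mem_powerset.1 hW)]; ring

/-- The union of two independent random subsets is again a product-measure random subset. -/
lemma union_on (a b : ℝ) (s : Finset X) (f : Finset X → ℝ) :
    ∑ W₁ ∈ s.powerset, wtOn s a W₁ * ∑ W₂ ∈ s.powerset, wtOn s b W₂ * f (W₁ ∪ W₂)
      = ∑ W ∈ s.powerset, wtOn s (a + b - a * b) W * f W := by
  induction s using Finset.induction_on generalizing f with
  | empty => simp [wtOn]
  | insert x s hx ih =>
    have h1 : ∀ W₁ : Finset X, W₁ ⊆ insert x s →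
        ∑ W₂ ∈ (insert x s).powerset, wtOn (insert x s) b W₂ * f (W₁ ∪ W₂)
          = (1 - b) * ∑ W₂ ∈ s.powerset, wtOn s b W₂ * f (W₁ ∪ W₂)
            + b * ∑ W₂ ∈ s.powerset, wtOn s b W₂ * f (insert x (W₁ ∪ W₂)) := by
      intro W₁ _
      rw [sum_powerset_insert_wt hx b (fun W₂ => f (W₁ ∪ W₂))]
      simp only [Finset.union_insert]
    rw [sum_powerset_insert_wt hx a
      (fun W₁ => ∑ W₂ ∈ (insert x s).powerset, wtOn (insert x s) b W₂ * f (W₁ ∪ W₂))]
    rw [sum_powerset_insert_wt hx (a + b - a * b) f]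
    have h2 : ∑ W ∈ s.powerset, wtOn s a W *
        ∑ W₂ ∈ (insert x s).powerset, wtOn (insert x s) b W₂ * f (W ∪ W₂)
        = (1 - b) * ∑ W ∈ s.powerset, wtOn s (a + b - a * b) W * f W
          + b * ∑ W ∈ s.powerset, wtOn s (a + b - a * b) W * f (insert x W) := by
      have := ih f
      have h3 := ih (fun W => f (insert x W))
      rw [← this, ← h3, Finset.mul_sum, Finset.mul_sum, ← Finset.sum_add_distrib]
      refine Finset.sum_congr rfl fun W hW => ?_
      rw [h1 W (fun y hy => Finset.mem_insert_of_mem (Finset.mem_powerset.1 hW hy))]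
      ring
    have h4 : ∑ W ∈ s.powerset, wtOn s a W *
        ∑ W₂ ∈ (insert x s).powerset, wtOn (insert x s) b W₂ * f (insert x W ∪ W₂)
        = ∑ W ∈ s.powerset, wtOn s (a + b - a * b) W * f (insert x W) := by
      have h3 := ih (fun W => f (insert x W))
      rw [← h3]
      refine Finset.sum_congr rfl fun W hW => ?_
      rw [sum_powerset_insert_wt hx b (fun W₂ => f (insert x W ∪ W₂))]
      have h5 : ∀ W₂ : Finset X, insert x W ∪ W₂ = insert x (W ∪ W₂) := fun W₂ => by
        rw [Finset.insert_union]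
      have h6 : ∀ W₂ : Finset X, insert x W ∪ insert x W₂ = insert x (W ∪ W₂) := fun W₂ => by
        rw [Finset.insert_union, Finset.union_insert, Finset.insert_idem]
      simp only [h5, Finset.union_insert, Finset.insert_idem]
      ring
    rw [h2, h4]
    ring

variable [Fintype X]

/-- Product measure of density `p` on subsets of the whole of `X`. -/
noncomputable def wt (p : ℝ) (W : Finset X) : ℝ := wtOn univ p W

lemma wt_nonneg {p : ℝ} (h0 : 0 ≤ p) (h1 : p ≤ 1) (W : Finset X) : 0 ≤ wt p W :=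
  wtOn_nonneg _ h0 h1 W

lemma sum_wt (p : ℝ) : ∑ W : Finset X, wt p W = 1 := by
  have := Finset.sum_pow_mul_eq_add_pow p (1 - p) (univ : Finset X)
  simp only [add_sub_cancel, one_pow] at this
  rw [← this, Finset.powerset_univ]
  refine Finset.sum_congr rfl fun W _ => ?_
  unfold wt wtOn
  congr 2
  rw [Finset.card_sdiff_of_subset (Finset.subset_univ _)]

lemma union_wt (a b : ℝ) (f : Finset X → ℝ) :
    ∑ W₁ : Finset X, wt a W₁ * ∑ W₂ : Finset X, wt b W₂ * f (W₁ ∪ W₂)
      = ∑ W : Finset X, wt (a + b - a * b) W * f W := by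
  have := union_on a b (univ : Finset X) f
  rwa [Finset.powerset_univ] at this

lemma wt_mono_step {p : ℝ} (h1 : p ≤ 1) (h0 : 0 ≤ p) {W χ : Finset X} (hd : Disjoint W χ) :
    wt p W * p ^ χ.card ≤ wt p (W ∪ χ) := by
  unfold wt wtOn
  have hc : (W ∪ χ).card = W.card + χ.card := Finset.card_union_of_disjoint hd
  have hs : univ \ W = (univ \ (W ∪ χ)) ∪ χ := by
    ext y
    simp only [Finset.mem_sdiff, Finset.mem_univ, true_and, Finset.mem_union, not_or]
    constructor
    · intro h
      by_cases hy : y ∈ χ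
      · exact Or.inr hy
      · exact Or.inl ⟨h, hy⟩
    · rintro (⟨h, _⟩ | h)
      · exact h
      · exact fun h' => (Finset.disjoint_left.1 hd h') h
  have hd' : Disjoint (univ \ (W ∪ χ)) χ := by
    rw [Finset.disjoint_left]
    intro y hy hy'
    simp only [Finset.mem_sdiff, Finset.mem_univ, true_and, Finset.mem_union, not_or] at hy
    exact hy.2 hy'
  have hc2 : (univ \ W).card = (univ \ (W ∪ χ)).card + χ.card := by
    rw [hs, Finset.card_union_of_disjoint hd']
  rw [hc, hc2, pow_add, pow_add]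
  have h2 : 0 ≤ 1 - p := by linarith
  have h3 : (1 - p) ^ χ.card ≤ 1 := pow_le_one₀ h2 (by linarith)
  have h4 : 0 ≤ p ^ W.card * p ^ χ.card * (1 - p) ^ (univ \ (W ∪ χ)).card := by positivity
  nlinarith [mul_le_mul_of_nonneg_left h3 h4]


section Encoding

variable {I : Type} [DecidableEq I]

lemma exists_chi (S : I → Finset X) (J : Finset I) (W : Finset X) {i : I} (hi : i ∈ J) :
    ∃ i' ∈ J, S i' ⊆ W ∪ S i ∧
      ∀ i'' ∈ J, S i'' ⊆ W ∪ S i → (S i' \ W).card ≤ (S i'' \ W).card := by
  have hne : (J.filter fun i' => S i' ⊆ W ∪ S i).Nonempty :=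
    ⟨i, by simp [hi, Finset.subset_union_right]⟩
  obtain ⟨i', hi', hmin⟩ := Finset.exists_min_image _ (fun i' => (S i' \ W).card) hne
  rw [Finset.mem_filter] at hi'
  exact ⟨i', hi'.1, hi'.2, fun i'' h1 h2 => hmin i'' (Finset.mem_filter.2 ⟨h1, h2⟩)⟩

/-- The part outside `W` of a member inside `W ∪ S i` with least such part. -/
noncomputable def chi (S : I → Finset X) (J : Finset I) (W : Finset X) (i : I) : Finset X :=
  if hi : i ∈ J then S (Classical.choose (exists_chi S J W hi)) \ W else ∅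

lemma chi_spec (S : I → Finset X) (J : Finset I) (W : Finset X) {i : I} (hi : i ∈ J) :
    ∃ i' ∈ J, S i' ⊆ W ∪ S i ∧ chi S J W i = S i' \ W ∧
      ∀ i'' ∈ J, S i'' ⊆ W ∪ S i → (chi S J W i).card ≤ (S i'' \ W).card := by
  have h := Classical.choose_spec (exists_chi S J W hi)
  have e : chi S J W i = S (Classical.choose (exists_chi S J W hi)) \ W := by
    unfold chi; rw [dif_pos hi]
  refine ⟨_, h.1, h.2.1, e, ?_⟩
  rw [e]
  exact h.2.2

lemma chi_subset (S : I → Finset X) (J : Finset I) (W : Finset X) {i : I} (hi : i ∈ J) :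
    chi S J W i ⊆ S i := by
  obtain ⟨i', _, h2, h3, _⟩ := chi_spec S J W hi
  rw [h3]
  intro x hx
  rw [Finset.mem_sdiff] at hx
  rcases Finset.mem_union.1 (h2 hx.1) with h | h
  · exact absurd h hx.2
  · exact h

lemma chi_disjoint (S : I → Finset X) (J : Finset I) (W : Finset X) {i : I} (hi : i ∈ J) :
    Disjoint W (chi S J W i) := by
  obtain ⟨i', _, _, h3, _⟩ := chi_spec S J W hi
  rw [h3]
  exact Finset.disjoint_sdiff

lemma chi_member (S : I → Finset X) (J : Finset I) (W : Finset X) {i : I} (hi : i ∈ J) :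
    ∃ i' ∈ J, S i' ⊆ W ∪ chi S J W i := by
  obtain ⟨i', h1, _, h3, _⟩ := chi_spec S J W hi
  refine ⟨i', h1, ?_⟩
  rw [h3]
  intro x hx
  by_cases h : x ∈ W
  · exact Finset.mem_union_left _ h
  · exact Finset.mem_union_right _ (Finset.mem_sdiff.2 ⟨hx, h⟩)

open Classical in
/-- A canonical member inside `Z`, when there is one. -/
noncomputable def star (S : I → Finset X) (J : Finset I) (Z : Finset X) : Finset X :=
  if h : ∃ i ∈ J, S i ⊆ Z then S (Classical.choose h) else ∅

lemma star_card (S : I → Finset X) (J : Finset I) (Z : Finset X) {r : ℕ}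
    (hb : ∀ i ∈ J, (S i).card ≤ r) : (star S J Z).card ≤ r := by
  unfold star
  split_ifs with h
  · exact hb _ (Classical.choose_spec h).1
  · simp

lemma chi_subset_star (S : I → Finset X) (J : Finset I) (W : Finset X) {i : I} (hi : i ∈ J) :
    chi S J W i ⊆ star S J (W ∪ chi S J W i) := by
  have hex : ∃ i' ∈ J, S i' ⊆ W ∪ chi S J W i := chi_member S J W hi
  unfold star
  rw [dif_pos hex]
  obtain ⟨h1, h2⟩ := Classical.choose_spec hex
  set i₀ := Classical.choose hex
  obtain ⟨_, _, _, _, hmin⟩ := chi_spec S J W hi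
  have h3 : S i₀ ⊆ W ∪ S i := fun x hx => by
    rcases Finset.mem_union.1 (h2 hx) with h | h
    · exact Finset.mem_union_left _ h
    · exact Finset.mem_union_right _ (chi_subset S J W hi h)
  have h4 := hmin i₀ h1 h3
  have h5 : S i₀ \ W ⊆ chi S J W i := fun x hx => by
    rw [Finset.mem_sdiff] at hx
    rcases Finset.mem_union.1 (h2 hx.1) with h | h
    · exact absurd h hx.2
    · exact h
  have h6 := Finset.eq_of_subset_of_card_le h5 h4
  rw [← h6]
  exact Finset.sdiff_subset

/-- The encoding bound. -/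
lemma encoding (S : I → Finset X) (J : Finset I) (μ : I → ℝ) (hμ : ∀ i ∈ J, 0 ≤ μ i)
    {θ p : ℝ} (hθ : 0 ≤ θ) (hp0 : 0 ≤ p) (hp1 : p ≤ 1) {r : ℕ} (hb : ∀ i ∈ J, (S i).card ≤ r)
    (hs : ∀ U : Finset X, ∑ i ∈ J.filter (fun i => U ⊆ S i), μ i ≤ θ ^ U.card) (k : ℕ) :
    ∑ W : Finset X, wt p W * (∑ i ∈ J.filter (fun i => (chi S J W i).card = k), μ i) * p ^ k
      ≤ 2 ^ r * θ ^ k := by
  classical
  -- the source set of pairs
  set A : Finset (Finset X × I) :=
    (univ ×ˢ J).filter (fun x => (chi S J x.1 x.2).card = k) with hA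
  -- the target set of triples
  set B : Finset ((Finset X × Finset X) × I) :=
    ((univ ×ˢ univ) ×ˢ J).filter
      (fun y => y.1.2 ∈ (star S J y.1.1).powerset ∧ y.1.2.card = k ∧ y.1.2 ⊆ S y.2) with hB
  have hL : ∑ W : Finset X, wt p W * (∑ i ∈ J.filter (fun i => (chi S J W i).card = k), μ i) * p ^ k
      = ∑ x ∈ A, wt p x.1 * μ x.2 * p ^ k := by
    rw [hA, Finset.sum_filter, Finset.sum_product]
    refine Finset.sum_congr rfl fun W _ => ?_
    rw [Finset.sum_filter, Finset.mul_sum, Finset.sum_mul]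
    refine Finset.sum_congr rfl fun i _ => ?_
    split_ifs <;> simp
  let ι : Finset X × I → (Finset X × Finset X) × I :=
    fun x => ((x.1 ∪ chi S J x.1 x.2, chi S J x.1 x.2), x.2)
  have hι : Set.InjOn ι A := by
    rintro ⟨W, i⟩ hx ⟨W', i'⟩ hy h
    have hx' : i ∈ J := by
      have := (Finset.mem_filter.1 (Finset.mem_coe.1 hx)).1
      exact (Finset.mem_product.1 this).2
    have hy' : i' ∈ J := by
      have := (Finset.mem_filter.1 (Finset.mem_coe.1 hy)).1
      exact (Finset.mem_product.1 this).2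
    simp only [ι, Prod.mk.injEq] at h
    obtain ⟨⟨h1, h2⟩, h3⟩ := h
    subst h3
    have d1 := chi_disjoint S J W hx'
    have d2 := chi_disjoint S J W' hx'
    have : W = W' := by
      have e1 : W = (W ∪ chi S J W i) \ chi S J W i := by
        rw [Finset.union_sdiff_right, Finset.sdiff_eq_self_of_disjoint d1]
      have e2 : W' = (W' ∪ chi S J W' i) \ chi S J W' i := by
        rw [Finset.union_sdiff_right, Finset.sdiff_eq_self_of_disjoint d2]
      rw [e1, e2, h1, h2]
    rw [this]
  have hmaps : ∀ x ∈ A, ι x ∈ B := by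
    rintro ⟨W, i⟩ hx
    have hx1 := Finset.mem_filter.1 hx
    have hi : i ∈ J := (Finset.mem_product.1 hx1.1).2
    simp only [hB, Finset.mem_filter, Finset.mem_product, Finset.mem_univ, true_and, ι,
      Finset.mem_powerset]
    exact ⟨hi, chi_subset_star S J W hi, hx1.2, chi_subset S J W hi⟩
  have hstep : ∑ x ∈ A, wt p x.1 * μ x.2 * p ^ k ≤ ∑ y ∈ B, wt p y.1.1 * μ y.2 := by
    calc ∑ x ∈ A, wt p x.1 * μ x.2 * p ^ k
        ≤ ∑ x ∈ A, wt p (ι x).1.1 * μ (ι x).2 := by
          refine Finset.sum_le_sum fun x hx => ?_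
          have hx1 := Finset.mem_filter.1 hx
          have hi : x.2 ∈ J := (Finset.mem_product.1 hx1.1).2
          have h1 := wt_mono_step hp1 hp0 (chi_disjoint S J x.1 hi)
          rw [hx1.2] at h1
          have h2 := hμ _ hi
          simp only [ι]
          nlinarith [mul_le_mul_of_nonneg_right h1 h2]
      _ = ∑ y ∈ A.image ι, wt p y.1.1 * μ y.2 := by
          rw [Finset.sum_image hι]
      _ ≤ ∑ y ∈ B, wt p y.1.1 * μ y.2 := by
          refine Finset.sum_le_sum_of_subset_of_nonneg ?_ ?_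
          · intro y hy
            obtain ⟨x, hx, rfl⟩ := Finset.mem_image.1 hy
            exact hmaps x hx
          · intro y hy _
            have := (Finset.mem_filter.1 hy).1
            have hi : y.2 ∈ J := (Finset.mem_product.1 this).2
            exact mul_nonneg (wt_nonneg hp0 hp1 _) (hμ _ hi)
  have hR : ∑ y ∈ B, wt p y.1.1 * μ y.2 ≤ 2 ^ r * θ ^ k := by
    rw [hB, Finset.sum_filter, Finset.sum_product, Finset.sum_product]
    calc ∑ Z : Finset X, ∑ χ : Finset X, ∑ i ∈ J,
          (if χ ∈ (star S J Z).powerset ∧ χ.card = k ∧ χ ⊆ S i then wt p Z * μ i else 0)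
        ≤ ∑ Z : Finset X, ∑ χ ∈ (star S J Z).powerset, wt p Z * θ ^ k := by
          refine Finset.sum_le_sum fun Z _ => ?_
          rw [← Finset.sum_subset (Finset.subset_univ (star S J Z).powerset)]
          · refine Finset.sum_le_sum fun χ hχ => ?_
            by_cases hk : χ.card = k
            · have h1 : ∑ i ∈ J, (if χ ∈ (star S J Z).powerset ∧ χ.card = k ∧ χ ⊆ S i
                  then wt p Z * μ i else 0)
                  = wt p Z * ∑ i ∈ J.filter (fun i => χ ⊆ S i), μ i := by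
                rw [Finset.sum_filter, Finset.mul_sum]
                refine Finset.sum_congr rfl fun i _ => ?_
                by_cases h : χ ⊆ S i
                · simp [hχ, hk, h]
                · simp [h]
              rw [h1]
              refine mul_le_mul_of_nonneg_left ?_ (wt_nonneg hp0 hp1 _)
              have := hs χ
              rwa [hk] at this
            · have h1 : ∑ i ∈ J, (if χ ∈ (star S J Z).powerset ∧ χ.card = k ∧ χ ⊆ S i
                  then wt p Z * μ i else 0) = 0 := by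
                refine Finset.sum_eq_zero fun i _ => ?_
                simp [hk]
              rw [h1]
              exact mul_nonneg (wt_nonneg hp0 hp1 _) (pow_nonneg hθ _)
          · intro χ _ hχ
            refine Finset.sum_eq_zero fun i _ => ?_
            simp [Finset.mem_powerset] at hχ
            simp [Finset.mem_powerset, hχ]
      _ ≤ ∑ Z : Finset X, wt p Z * (2 ^ r * θ ^ k) := by
          refine Finset.sum_le_sum fun Z _ => ?_
          rw [Finset.sum_const, nsmul_eq_mul, Finset.card_powerset]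
          have h1 : ((2 ^ (star S J Z).card : ℕ) : ℝ) ≤ 2 ^ r := by
            push_cast
            exact pow_le_pow_right₀ (by norm_num) (star_card S J Z hb)
          have h2 := wt_nonneg (X := X) hp0 hp1 Z
          have h3 : 0 ≤ θ ^ k := pow_nonneg hθ _
          calc ((2 ^ (star S J Z).card : ℕ) : ℝ) * (wt p Z * θ ^ k)
              ≤ 2 ^ r * (wt p Z * θ ^ k) :=
                mul_le_mul_of_nonneg_right h1 (mul_nonneg h2 h3)
            _ = wt p Z * (2 ^ r * θ ^ k) := by ring
      _ = 2 ^ r * θ ^ k := by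
          rw [← Finset.sum_mul, sum_wt, one_mul]
  rw [hL]
  exact hstep.trans hR

end Encoding


section Recursion

variable {I : Type} [DecidableEq I]

open Classical in
/-- Failure indicator: no member inside `W`. -/
noncomputable def fail (S : I → Finset X) (J : Finset I) (W : Finset X) : ℝ :=
  if ∃ i ∈ J, S i ⊆ W then 0 else 1

lemma fail_nonneg (S : I → Finset X) (J : Finset I) (W : Finset X) : 0 ≤ fail S J W := by
  unfold fail; split_ifs <;> norm_num

lemma fail_le_one (S : I → Finset X) (J : Finset I) (W : Finset X) : fail S J W ≤ 1 := by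
  unfold fail; split_ifs <;> norm_num

/-- Density after `L` independent rounds of density `p`. -/
noncomputable def roundP (p : ℝ) : ℕ → ℝ
  | 0 => 0
  | L + 1 => p + roundP p L - p * roundP p L

lemma roundP_mem {p : ℝ} (h0 : 0 ≤ p) (h1 : p ≤ 1) (L : ℕ) :
    0 ≤ roundP p L ∧ roundP p L ≤ 1 := by
  induction L with
  | zero => simp [roundP]
  | succ L ih =>
    obtain ⟨a, b⟩ := ih
    simp only [roundP]
    constructor
    · nlinarith [mul_nonneg h0 (sub_nonneg.2 b)]
    · nlinarith [mul_nonneg (sub_nonneg.2 h1) (sub_nonneg.2 b)]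

lemma roundP_le {p : ℝ} (h0 : 0 ≤ p) (h1 : p ≤ 1) (L : ℕ) : roundP p L ≤ L * p := by
  induction L with
  | zero => simp [roundP]
  | succ L ih =>
    obtain ⟨a, _⟩ := roundP_mem h0 h1 L
    simp only [roundP]
    push_cast
    nlinarith [mul_nonneg h0 a]

lemma numeric_step {r r' : ℕ} (hr : r' = r / 2) (hr1 : 1 ≤ r) :
    (r : ℝ) * (2 ^ r * ((1 : ℝ) / 64) ^ (r' + 1)) ≤
      (1 / 2) * ((1 / 2) ^ r' - (1 / 2) ^ r) := by
  have h1 : r + 1 ≤ 2 * (r' + 1) := by omega
  have h2 : r' + 1 ≤ r := by omega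
  have h3 : ((1 : ℝ) / 64) ^ (r' + 1) ≤ (1 / 8) ^ (r + 1) := by
    have : ((1 : ℝ) / 64) = (1 / 8) ^ 2 := by norm_num
    rw [this, ← pow_mul]
    exact pow_le_pow_of_le_one (by norm_num) (by norm_num) (by omega)
  have h4 : (r : ℝ) ≤ 2 ^ r := by exact_mod_cast (Nat.lt_two_pow_self (n := r)).le
  have h5 : ((1 : ℝ) / 2) ^ r' ≥ 2 * (1 / 2) ^ r := by
    obtain ⟨k, hk⟩ := Nat.exists_eq_add_of_le h2
    rw [hk, pow_add, pow_succ]
    have h6 : ((1 : ℝ) / 2) ^ k ≤ 1 := pow_le_one₀ (by norm_num) (by norm_num)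
    have h7 : (0 : ℝ) ≤ (1 / 2) ^ r' := by positivity
    nlinarith
  have h8 : (r : ℝ) * (2 ^ r * ((1 : ℝ) / 64) ^ (r' + 1)) ≤ 2 ^ r * (2 ^ r * (1 / 8) ^ (r + 1)) := by
    have : (0 : ℝ) ≤ 2 ^ r := by positivity
    have h9 : (0 : ℝ) ≤ (1 / 64) ^ (r' + 1) := by positivity
    calc (r : ℝ) * (2 ^ r * ((1 : ℝ) / 64) ^ (r' + 1))
        ≤ 2 ^ r * (2 ^ r * (1 / 64) ^ (r' + 1)) :=
          mul_le_mul_of_nonneg_right h4 (mul_nonneg this h9)
      _ ≤ 2 ^ r * (2 ^ r * (1 / 8) ^ (r + 1)) := by
          refine mul_le_mul_of_nonneg_left (mul_le_mul_of_nonneg_left h3 this) this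
  have h10 : (2 : ℝ) ^ r * (2 ^ r * (1 / 8) ^ (r + 1)) = (1 / 8) * (1 / 2) ^ r := by
    rw [pow_succ]
    have : (2 : ℝ) ^ r * (2 ^ r * ((1 / 8) ^ r * (1 / 8))) = (2 * 2 * (1 / 8)) ^ r * (1 / 8) := by
      rw [mul_pow, mul_pow]; ring
    rw [this]
    norm_num
    ring
  rw [h10] at h8
  have h11 : (0 : ℝ) ≤ (1 / 2) ^ r := by positivity
  nlinarith

/-- Main recursion of the spread lemma. -/
theorem spread_rec {θ p : ℝ} (hθ : 0 ≤ θ) (hp : 64 * θ ≤ p) (hp0 : 0 < p) (hp1 : p ≤ 1) :
    ∀ (L r : ℕ), r < 2 ^ L → ∀ (S : I → Finset X) (J : Finset I) (μ : I → ℝ),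
      (∀ i ∈ J, 0 ≤ μ i) → (∀ i ∈ J, (S i).card ≤ r) →
      (∀ U : Finset X, ∑ i ∈ J.filter (fun i => U ⊆ S i), μ i ≤ θ ^ U.card) →
      (∑ i ∈ J, μ i) * ∑ W : Finset X, wt (roundP p L) W * fail S J W
        ≤ (1 / 2) * (1 - (1 / 2) ^ r) := by
  have base : ∀ (c : ℝ) (S : I → Finset X) (J : Finset I) (μ : I → ℝ),
      (∀ i ∈ J, (S i).card ≤ 0) →
      (∑ i ∈ J, μ i) * ∑ W : Finset X, wt c W * fail S J W ≤ (1 / 2) * (1 - (1 / 2) ^ 0) := by
    intro c S J μ hb
    rcases J.eq_empty_or_nonempty with rfl | ⟨i, hi⟩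
    · simp
    · have : ∀ W : Finset X, fail S J W = 0 := by
        intro W
        unfold fail
        rw [if_pos]
        refine ⟨i, hi, ?_⟩
        have := hb i hi
        rw [Nat.le_zero, Finset.card_eq_zero] at this
        rw [this]
        exact Finset.empty_subset _
      simp [this]
  intro L
  induction L with
  | zero =>
    intro r hr S J μ _ hb _
    have : r = 0 := by simpa using hr
    subst this
    exact base _ S J μ hb
  | succ L ih =>
    intro r hr S J μ hμ hb hs
    rcases Nat.eq_zero_or_pos r with rfl | hrpos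
    · exact base _ S J μ hb
    have hc := roundP_mem hp0.le hp1 L
    set c := roundP p L with hcdef
    set r' := r / 2 with hr'
    have hr'lt : r' < 2 ^ L := by
      have : r < 2 * 2 ^ L := by rw [pow_succ] at hr; omega
      omega
    have hround : roundP p (L + 1) = p + c - p * c := rfl
    rw [hround, ← union_wt]
    -- bad mass for a fixed first round
    let bad : Finset X → ℝ := fun W₁ =>
      ∑ i ∈ J.filter (fun i => r' < (chi S J W₁ i).card), μ i
    have hfixed : ∀ W₁ : Finset X,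
        (∑ i ∈ J, μ i) * ∑ W₂ : Finset X, wt c W₂ * fail S J (W₁ ∪ W₂)
          ≤ (1 / 2) * (1 - (1 / 2) ^ r') + bad W₁ := by
      intro W₁
      set J₁ := J.filter (fun i => (chi S J W₁ i).card ≤ r') with hJ₁
      have hIH := ih r' hr'lt (chi S J W₁) J₁ μ
        (fun i hi => hμ i (Finset.mem_filter.1 hi).1)
        (fun i hi => (Finset.mem_filter.1 hi).2)
        (fun U => by
          refine le_trans ?_ (hs U)
          refine Finset.sum_le_sum_of_subset_of_nonneg ?_ ?_
          · intro i hi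
            rw [Finset.mem_filter] at hi ⊢
            have hiJ := (Finset.mem_filter.1 hi.1).1
            exact ⟨hiJ, hi.2.trans (chi_subset S J W₁ hiJ)⟩
          · intro i hi _
            exact hμ i (Finset.mem_filter.1 hi).1)
      have hsplit : ∑ i ∈ J, μ i = ∑ i ∈ J₁, μ i + bad W₁ := by
        rw [← Finset.sum_filter_add_sum_filter_not J (fun i => (chi S J W₁ i).card ≤ r')]
        congr 1
        refine Finset.sum_congr ?_ (fun _ _ => rfl)
        ext i
        simp only [Finset.mem_filter, not_le]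
      have hbad0 : 0 ≤ bad W₁ :=
        Finset.sum_nonneg fun i hi => hμ i (Finset.mem_filter.1 hi).1
      have hJ₁0 : 0 ≤ ∑ i ∈ J₁, μ i :=
        Finset.sum_nonneg fun i hi => hμ i (Finset.mem_filter.1 hi).1
      have hcomp : ∀ W₂ : Finset X, fail S J (W₁ ∪ W₂) ≤ fail (chi S J W₁) J₁ W₂ := by
        intro W₂
        unfold fail
        by_cases h : ∃ i ∈ J₁, chi S J W₁ i ⊆ W₂
        · obtain ⟨i, hi, hsub⟩ := h
          have hiJ := (Finset.mem_filter.1 hi).1
          obtain ⟨i', hi', hsub'⟩ := chi_member S J W₁ hiJ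
          rw [if_pos (⟨i', hi', hsub'.trans (Finset.union_subset_union_right hsub)⟩ :
            ∃ i ∈ J, S i ⊆ W₁ ∪ W₂)]
          split_ifs <;> norm_num
        · rw [if_neg h]
          split_ifs <;> norm_num
      have hwt : ∀ W : Finset X, 0 ≤ wt c W := wt_nonneg hc.1 hc.2
      have h1 : ∑ W₂ : Finset X, wt c W₂ * fail S J (W₁ ∪ W₂)
          ≤ ∑ W₂ : Finset X, wt c W₂ * fail (chi S J W₁) J₁ W₂ :=
        Finset.sum_le_sum fun W₂ _ => mul_le_mul_of_nonneg_left (hcomp W₂) (hwt W₂)
      have h2 : ∑ W₂ : Finset X, wt c W₂ * fail S J (W₁ ∪ W₂) ≤ 1 := by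
        calc ∑ W₂ : Finset X, wt c W₂ * fail S J (W₁ ∪ W₂)
            ≤ ∑ W₂ : Finset X, wt c W₂ :=
              Finset.sum_le_sum fun W₂ _ =>
                mul_le_of_le_one_right (hwt W₂) (fail_le_one _ _ _)
          _ = 1 := sum_wt c
      rw [hsplit, add_mul]
      have h3 := mul_le_mul_of_nonneg_left h1 hJ₁0
      have h4 := mul_le_mul_of_nonneg_left h2 hbad0
      linarith
    -- average over the first round
    have hbadsum : ∑ W₁ : Finset X, wt p W₁ * bad W₁ ≤
        (r : ℝ) * (2 ^ r * ((1 : ℝ) / 64) ^ (r' + 1)) := by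
      have hk : ∀ W₁ : Finset X, bad W₁ =
          ∑ k ∈ Finset.Ioc r' r, ∑ i ∈ J.filter (fun i => (chi S J W₁ i).card = k), μ i := by
        intro W₁
        rw [← Finset.sum_biUnion]
        · refine Finset.sum_congr ?_ (fun _ _ => rfl)
          ext i
          simp only [Finset.mem_filter, Finset.mem_biUnion, Finset.mem_Ioc]
          constructor
          · rintro ⟨hi, h⟩
            exact ⟨_, ⟨h, (Finset.card_le_card (chi_subset S J W₁ hi)).trans (hb i hi)⟩, hi, rfl⟩
          · rintro ⟨k, ⟨h1, _⟩, hi, rfl⟩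
            exact ⟨hi, h1⟩
        · intro a _ b _ hab
          refine Finset.disjoint_left.2 fun i hi hi' => hab ?_
          rw [Finset.mem_coe] at *
          rw [← (Finset.mem_filter.1 hi).2, ← (Finset.mem_filter.1 hi').2]
      have hE : ∀ k ∈ Finset.Ioc r' r,
          ∑ W₁ : Finset X, wt p W₁ * ∑ i ∈ J.filter (fun i => (chi S J W₁ i).card = k), μ i
            ≤ 2 ^ r * ((1 : ℝ) / 64) ^ (r' + 1) := by
        intro k hk'
        rw [Finset.mem_Ioc] at hk'
        have henc := encoding S J μ hμ hθ hp0.le hp1 hb hs k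
        have hpk : (0 : ℝ) < p ^ k := pow_pos hp0 k
        have hθk : θ ^ k ≤ (p / 64) ^ k := pow_le_pow_left₀ hθ (by linarith) k
        have hsum : (∑ W₁ : Finset X,
            wt p W₁ * ∑ i ∈ J.filter (fun i => (chi S J W₁ i).card = k), μ i) * p ^ k
            ≤ 2 ^ r * (p / 64) ^ k := by
          rw [Finset.sum_mul]
          refine henc.trans ?_
          exact mul_le_mul_of_nonneg_left hθk (by positivity)
        have h2 : (p / 64) ^ k = (1 / 64) ^ k * p ^ k := by
          rw [← mul_pow]; congr 1; ring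
        rw [h2, ← mul_assoc] at hsum
        have h3 := le_of_mul_le_mul_right hsum hpk
        refine h3.trans ?_
        refine mul_le_mul_of_nonneg_left ?_ (by positivity)
        exact pow_le_pow_of_le_one (by norm_num) (by norm_num) (by omega)
      calc ∑ W₁ : Finset X, wt p W₁ * bad W₁
          = ∑ k ∈ Finset.Ioc r' r, ∑ W₁ : Finset X,
              wt p W₁ * ∑ i ∈ J.filter (fun i => (chi S J W₁ i).card = k), μ i := by
            simp only [hk, Finset.mul_sum]
            rw [Finset.sum_comm]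
        _ ≤ ∑ _k ∈ Finset.Ioc r' r, 2 ^ r * ((1 : ℝ) / 64) ^ (r' + 1) :=
            Finset.sum_le_sum hE
        _ = ((r - r' : ℕ) : ℝ) * (2 ^ r * ((1 : ℝ) / 64) ^ (r' + 1)) := by
            rw [Finset.sum_const, Nat.card_Ioc, nsmul_eq_mul]
        _ ≤ (r : ℝ) * (2 ^ r * ((1 : ℝ) / 64) ^ (r' + 1)) := by
            refine mul_le_mul_of_nonneg_right ?_ (by positivity)
            exact_mod_cast Nat.sub_le _ _
    have hwtp : ∀ W : Finset X, 0 ≤ wt p W := wt_nonneg hp0.le hp1
    calc (∑ i ∈ J, μ i) * ∑ W₁ : Finset X, wt p W₁ * ∑ W₂ : Finset X, wt c W₂ * fail S J (W₁ ∪ W₂)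
        = ∑ W₁ : Finset X, wt p W₁ *
            ((∑ i ∈ J, μ i) * ∑ W₂ : Finset X, wt c W₂ * fail S J (W₁ ∪ W₂)) := by
          rw [Finset.mul_sum]
          refine Finset.sum_congr rfl fun W₁ _ => ?_
          ring
      _ ≤ ∑ W₁ : Finset X, wt p W₁ * ((1 / 2) * (1 - (1 / 2) ^ r') + bad W₁) :=
          Finset.sum_le_sum fun W₁ _ => mul_le_mul_of_nonneg_left (hfixed W₁) (hwtp W₁)
      _ = (1 / 2) * (1 - (1 / 2) ^ r') + ∑ W₁ : Finset X, wt p W₁ * bad W₁ := by
          simp only [mul_add]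
          rw [Finset.sum_add_distrib, ← Finset.sum_mul, sum_wt, one_mul]
      _ ≤ (1 / 2) * (1 - (1 / 2) ^ r') + (r : ℝ) * (2 ^ r * ((1 : ℝ) / 64) ^ (r' + 1)) := by
          linarith
      _ ≤ (1 / 2) * (1 - (1 / 2) ^ r) := by
          have := numeric_step hr' hrpos
          linarith

/-- The spread lemma, final form: with density `roundP p L`, the failure probability is
at most `1/2`, for a unit-mass family. -/
theorem spread_final {θ p : ℝ} (hθ : 0 ≤ θ) (hp : 64 * θ ≤ p) (hp0 : 0 < p) (hp1 : p ≤ 1)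
    {L r : ℕ} (hr : r < 2 ^ L) (S : I → Finset X) (J : Finset I) (μ : I → ℝ)
    (hμ : ∀ i ∈ J, 0 ≤ μ i) (hb : ∀ i ∈ J, (S i).card ≤ r)
    (hs : ∀ U : Finset X, ∑ i ∈ J.filter (fun i => U ⊆ S i), μ i ≤ θ ^ U.card)
    (hm : ∑ i ∈ J, μ i = 1) :
    ∑ W : Finset X, wt (roundP p L) W * fail S J W ≤ 1 / 2 := by
  have := spread_rec hθ hp hp0 hp1 L r hr S J μ hμ hb hs
  rw [hm, one_mul] at this
  have h2 : (0 : ℝ) ≤ (1 / 2) ^ r := by positivity
  linarith

end Recursion

end Vale.Agent.Lib.P064
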