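import Vale.Agent.Lib.P064.Defs
import Vale.Agent.Lib.P064.Inj
import Vale.Agent.Lib.P064.Spread

/-!
The random graph as a product measure on edges, and first moment computations.
-/

open Finset

namespace Vale.Agent.Lib.P064

open scoped Classical

/-- The possible edges on `n` vertices. -/
abbrev EdgeSp (n : ℕ) := {e : Sym2 (Fin n) // ¬ e.IsDiag}

variable {n : ℕ}

/-- The graph with a given set of edges. -/
noncomputable def graphOf (W : Finset (EdgeSp n)) : SimpleGraph (Fin n) :=
  SimpleGraph.fromEdgeSet {e | ∃ x ∈ W, x.1 = e}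

/-- The set of edges of a graph. -/
noncomputable def edgesOf (G : SimpleGraph (Fin n)) : Finset (EdgeSp n) :=
  univ.filter (fun x => x.1 ∈ G.edgeSet)

lemma mem_edgesOf {G : SimpleGraph (Fin n)} {x : EdgeSp n} : x ∈ edgesOf G ↔ x.1 ∈ G.edgeSet := by
  simp [edgesOf]

lemma graphOf_edgesOf (G : SimpleGraph (Fin n)) : graphOf (edgesOf G) = G := by
  ext a b
  unfold graphOf
  rw [SimpleGraph.fromEdgeSet_adj]
  constructor
  · rintro ⟨⟨x, hx, h⟩, _⟩
    have := mem_edgesOf.1 hx
    rw [h] at this
    exact this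
  · intro h
    refine ⟨⟨⟨s(a, b), ?_⟩, mem_edgesOf.2 h, rfl⟩, h.ne⟩
    simpa using h.ne

lemma edgesOf_graphOf (W : Finset (EdgeSp n)) : edgesOf (graphOf W) = W := by
  ext x
  rw [mem_edgesOf]
  unfold graphOf
  rw [SimpleGraph.edgeSet_fromEdgeSet]
  constructor
  · rintro ⟨⟨y, hy, h⟩, _⟩
    have : y = x := Subtype.ext h
    rwa [← this]
  · intro h
    exact ⟨⟨x, h, rfl⟩, x.2⟩

/-- Graphs on `n` vertices are the subsets of the edge space. -/
noncomputable def graphEquiv : SimpleGraph (Fin n) ≃ Finset (EdgeSp n) where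
  toFun := edgesOf
  invFun := graphOf
  left_inv := graphOf_edgesOf
  right_inv := edgesOf_graphOf

lemma edgesOf_card (G : SimpleGraph (Fin n)) : (edgesOf G).card = G.edgeSet.ncard := by
  have h1 : (((edgesOf G).image Subtype.val : Finset (Sym2 (Fin n))) : Set _) = G.edgeSet := by
    ext e
    simp only [Finset.coe_image, Set.mem_image, Finset.mem_coe, mem_edgesOf]
    constructor
    · rintro ⟨x, hx, rfl⟩
      exact hx
    · intro he
      refine ⟨⟨e, ?_⟩, he, rfl⟩
      exact G.not_isDiag_of_mem_edgeSet he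
  rw [← h1, Set.ncard_coe_finset, Finset.card_image_of_injective _ Subtype.val_injective]

lemma card_edgeSp : Fintype.card (EdgeSp n) = n.choose 2 := by
  have := Sym2.card_subtype_not_diag (α := Fin n)
  simp only [Fintype.card_fin] at this
  convert this

lemma gnpWeight_eq (p : ℝ) (G : SimpleGraph (Fin n)) : gnpWeight n p G = wt p (edgesOf G) := by
  unfold gnpWeight wt wtOn
  rw [edgesOf_card, ← edgesOf_card, Finset.card_sdiff_of_subset (Finset.subset_univ _),
    Finset.card_univ, card_edgeSp]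

lemma sum_graphs (f : SimpleGraph (Fin n) → ℝ) :
    ∑ G, f G = ∑ W : Finset (EdgeSp n), f (graphOf W) := by
  refine (Equiv.sum_comp (graphEquiv (n := n)).symm f).symm

lemma gnpWeight_graphOf (p : ℝ) (W : Finset (EdgeSp n)) : gnpWeight n p (graphOf W) = wt p W := by
  rw [gnpWeight_eq, edgesOf_graphOf]

lemma gnpWeight_nonneg {p : ℝ} (h0 : 0 ≤ p) (h1 : p ≤ 1) (G : SimpleGraph (Fin n)) :
    0 ≤ gnpWeight n p G := by
  rw [gnpWeight_eq]
  exact wt_nonneg h0 h1 _

/-- A fixed set of edges is present with probability `p ^ |E|`. -/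
lemma sum_wt_superset {X : Type} [DecidableEq X] [Fintype X] (p : ℝ) (E : Finset X) :
    ∑ W : Finset X, wt p W * (if E ⊆ W then 1 else 0) = p ^ E.card := by
  have h1 : ∑ W : Finset X, wt p W * (if E ⊆ W then 1 else 0)
      = ∑ W ∈ (univ \ E).powerset, wt p (E ∪ W) := by
    rw [← Finset.sum_filter_add_sum_filter_not (univ : Finset (Finset X)) (fun W => E ⊆ W)]
    have h0 : ∑ W ∈ (univ : Finset (Finset X)) with ¬ E ⊆ W, wt p W * (if E ⊆ W then (1 : ℝ) else 0) = 0 := by
      refine Finset.sum_eq_zero fun W hW => ?_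
      simp [(Finset.mem_filter.1 hW).2]
    rw [h0, add_zero]
    symm
    refine Finset.sum_bij (fun W _ => E ∪ W) ?_ ?_ ?_ ?_
    · intro W _
      exact Finset.mem_filter.2 ⟨mem_univ _, Finset.subset_union_left⟩
    · intro W₁ h₁ W₂ h₂ h
      have h₁' := Finset.mem_powerset.1 h₁
      have h₂' := Finset.mem_powerset.1 h₂
      have hd₁ : Disjoint E W₁ := Finset.disjoint_of_subset_right h₁' Finset.disjoint_sdiff
      have hd₂ : Disjoint E W₂ := Finset.disjoint_of_subset_right h₂' Finset.disjoint_sdiff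
      have e₁ := Finset.union_sdiff_cancel_left hd₁
      have e₂ := Finset.union_sdiff_cancel_left hd₂
      rw [← e₁, ← e₂, h]
    · intro W hW
      have hsub := (Finset.mem_filter.1 hW).2
      refine ⟨W \ E, Finset.mem_powerset.2 ?_, Finset.union_sdiff_of_subset hsub⟩
      exact Finset.sdiff_subset_sdiff (Finset.subset_univ _) (Finset.Subset.refl _)
    · intro W _
      simp
  rw [h1]
  have h2 : ∀ W ∈ (univ \ E).powerset, wt p (E ∪ W)
      = p ^ E.card * (p ^ W.card * (1 - p) ^ ((univ \ E).card - W.card)) := by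
    intro W hW
    have h₁' := Finset.mem_powerset.1 hW
    have hd₁ : Disjoint E W := Finset.disjoint_of_subset_right h₁' Finset.disjoint_sdiff
    unfold wt wtOn
    rw [Finset.card_union_of_disjoint hd₁, pow_add]
    have h3 : (univ \ (E ∪ W)).card = (univ \ E).card - W.card := by
      have h4 : univ \ (E ∪ W) = (univ \ E) \ W := by
        ext y
        simp only [Finset.mem_sdiff, Finset.mem_union, Finset.mem_univ, true_and]
        tauto
      rw [h4, Finset.card_sdiff_of_subset h₁']
    rw [h3]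
    ring
  rw [Finset.sum_congr rfl h2, ← Finset.mul_sum, Finset.sum_pow_mul_eq_add_pow]
  simp

/-- A subgraph of `G` seen as a subgraph of the complete graph. -/
def liftTop {G : SimpleGraph (Fin n)} (S : G.Subgraph) : (⊤ : SimpleGraph (Fin n)).Subgraph where
  verts := S.verts
  Adj := S.Adj
  adj_sub := fun h => (S.adj_sub h).ne
  edge_vert := S.edge_vert
  symm := S.symm

lemma copyCount_congr {β W : Type} [Fintype β] (G : SimpleGraph β) {F : SimpleGraph W}
    {F' : SimpleGraph W} (e : F ≃g F') : G.copyCount F = G.copyCount F' := by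
  unfold SimpleGraph.copyCount
  congr 1
  ext S
  simp only [Finset.mem_filter, Finset.mem_univ, true_and]
  exact ⟨fun ⟨f⟩ => ⟨e.symm.trans f⟩, fun ⟨f⟩ => ⟨e.trans f⟩⟩

lemma copyCount_congr' {β W W' : Type} [Fintype β] (G : SimpleGraph β) {F : SimpleGraph W}
    {F' : SimpleGraph W'} (e : F ≃g F') : G.copyCount F = G.copyCount F' := by
  unfold SimpleGraph.copyCount
  congr 1
  ext S
  simp only [Finset.mem_filter, Finset.mem_univ, true_and]
  exact ⟨fun ⟨f⟩ => ⟨e.symm.trans f⟩, fun ⟨f⟩ => ⟨e.trans f⟩⟩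

lemma expCount_congr {W W' : Type} (p : ℝ) {F : SimpleGraph W} {F' : SimpleGraph W'}
    (e : F ≃g F') : expCount n p F = expCount n p F' := by
  unfold expCount
  refine Finset.sum_congr rfl fun G _ => ?_
  rw [copyCount_congr' G e]

/-- The edges of a subgraph of the complete graph as a subset of the edge space. -/
noncomputable def subEdges (S : (⊤ : SimpleGraph (Fin n)).Subgraph) : Finset (EdgeSp n) :=
  univ.filter (fun x => x.1 ∈ S.edgeSet)

lemma subEdges_card {W : Type} {F : SimpleGraph W} (S : (⊤ : SimpleGraph (Fin n)).Subgraph)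
    (e : F ≃g S.coe) : (subEdges S).card = F.edgeSet.ncard := by
  have h1 : (((subEdges S).image Subtype.val : Finset (Sym2 (Fin n))) : Set _) = S.edgeSet := by
    ext z
    simp only [Finset.coe_image, Set.mem_image, Finset.mem_coe, subEdges, Finset.mem_filter,
      Finset.mem_univ, true_and]
    constructor
    · rintro ⟨x, hx, rfl⟩
      exact hx
    · intro hz
      refine ⟨⟨z, ?_⟩, hz, rfl⟩
      have := S.edgeSet_subset hz
      exact (⊤ : SimpleGraph (Fin n)).not_isDiag_of_mem_edgeSet this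
  have h2 : (subEdges S).card = S.edgeSet.ncard := by
    rw [← h1, Set.ncard_coe_finset, Finset.card_image_of_injective _ Subtype.val_injective]
  rw [h2, ← S.image_coe_edgeSet_coe,
    Set.ncard_image_of_injective _ (Sym2.map.injective Subtype.val_injective)]
  exact (Set.ncard_congr' e.mapEdgeSet).symm

lemma copyCount_le_filter {W : Type} (F : SimpleGraph W) (G : SimpleGraph (Fin n)) :
    G.copyCount F ≤ ((univ : Finset (⊤ : SimpleGraph (Fin n)).Subgraph).filter
      (fun S => Nonempty (F ≃g S.coe) ∧ subEdges S ⊆ edgesOf G)).card := by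
  unfold SimpleGraph.copyCount
  refine Finset.card_le_card_of_injOn liftTop ?_ ?_
  · intro S hS
    have hS' : Nonempty (F ≃g S.coe) := (Finset.mem_filter.1 (Finset.mem_coe.1 hS)).2
    refine Finset.mem_coe.2 (Finset.mem_filter.2 ⟨mem_univ _, hS', ?_⟩)
    intro x hx
    have hx' : x.1 ∈ (liftTop S).edgeSet := (Finset.mem_filter.1 hx).2
    refine mem_edgesOf.2 ?_
    obtain ⟨e, he⟩ := x
    induction e using Sym2.ind with
    | _ a b =>
      have h1 : S.Adj a b := hx'
      exact S.adj_sub h1
  · intro S _ S' _ h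
    have h1 : S.verts = S'.verts :=
      congrArg (fun T : (⊤ : SimpleGraph (Fin n)).Subgraph => T.verts) h
    have h2 : S.Adj = S'.Adj :=
      congrArg (fun T : (⊤ : SimpleGraph (Fin n)).Subgraph => T.Adj) h
    exact SimpleGraph.Subgraph.ext h1 h2

/-- First moment: the expected number of copies is at most the number of copies in `K_n` times
`p ^ e(F)`. -/
lemma expCount_le {W : Type} {p : ℝ} (h0 : 0 ≤ p) (h1 : p ≤ 1) (F : SimpleGraph W) :
    expCount n p F ≤ ((⊤ : SimpleGraph (Fin n)).copyCount F : ℝ) * p ^ F.edgeSet.ncard := by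
  let AF := (univ : Finset (⊤ : SimpleGraph (Fin n)).Subgraph).filter
      (fun S => Nonempty (F ≃g S.coe))
  have hAF : (⊤ : SimpleGraph (Fin n)).copyCount F = AF.card := by
    unfold SimpleGraph.copyCount
    apply congrArg Finset.card
    ext S
    simp only [Finset.mem_filter, Finset.mem_univ, true_and, AF]
  have step : ∀ G : SimpleGraph (Fin n), gnpWeight n p G * (G.copyCount F : ℝ) ≤
      ∑ S ∈ AF, gnpWeight n p G * (if subEdges S ⊆ edgesOf G then 1 else 0) := by
    intro G
    rw [← Finset.mul_sum]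
    refine mul_le_mul_of_nonneg_left ?_ (gnpWeight_nonneg h0 h1 G)
    have h2 := copyCount_le_filter F G
    have h3 : ((univ : Finset (⊤ : SimpleGraph (Fin n)).Subgraph).filter
        (fun S => Nonempty (F ≃g S.coe) ∧ subEdges S ⊆ edgesOf G)) =
        AF.filter (fun S => subEdges S ⊆ edgesOf G) := by
      rw [Finset.filter_filter]
    rw [h3, Finset.card_filter] at h2
    calc (G.copyCount F : ℝ) ≤ ((∑ S ∈ AF, if subEdges S ⊆ edgesOf G then 1 else 0 : ℕ) : ℝ) := by
          exact_mod_cast h2
      _ = _ := by push_cast; rfl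
  unfold expCount
  calc ∑ G, gnpWeight n p G * (G.copyCount F : ℝ)
      ≤ ∑ G, ∑ S ∈ AF, gnpWeight n p G * (if subEdges S ⊆ edgesOf G then 1 else 0) :=
        Finset.sum_le_sum fun G _ => step G
    _ = ∑ S ∈ AF, ∑ G, gnpWeight n p G * (if subEdges S ⊆ edgesOf G then 1 else 0) :=
        Finset.sum_comm
    _ = ∑ S ∈ AF, p ^ F.edgeSet.ncard := by
        refine Finset.sum_congr rfl fun S hS => ?_
        obtain ⟨e⟩ := (Finset.mem_filter.1 hS).2
        rw [sum_graphs]
        simp only [gnpWeight_graphOf, edgesOf_graphOf]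
        rw [sum_wt_superset, subEdges_card S e]
    _ = _ := by
        rw [Finset.sum_const, hAF, nsmul_eq_mul]

/-- The hypothesis on all subgraphs gives `GoodDensity`. -/
lemma good_of_subgraphs {V : Type} {H : SimpleGraph V} {p : ℝ} (h0 : 0 ≤ p) (h1 : p ≤ 1)
    (hp : ∀ F : H.Subgraph, 1 / 2 ≤ expCount n p F.coe) : GoodDensity n (2 * p) H := by
  intro β _ U hcopy hne
  obtain ⟨f⟩ := hcopy
  have h2 := hp f.toSubgraph
  rw [← expCount_congr p f.isoToSubgraph] at h2
  have h3 := h2.trans (expCount_le h0 h1 U)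
  have hpos : 1 ≤ U.edgeSet.ncard := by
    rw [Nat.one_le_iff_ne_zero]
    exact (Set.ncard_ne_zero_of_mem hne.choose_spec (Set.toFinite _))
  have hcount : (0 : ℝ) ≤ ((⊤ : SimpleGraph (Fin n)).copyCount U : ℝ) := Nat.cast_nonneg _
  have hpe : (0 : ℝ) ≤ p ^ U.edgeSet.ncard := by positivity
  have h2e : (2 : ℝ) ≤ 2 ^ U.edgeSet.ncard := by
    calc (2 : ℝ) = 2 ^ 1 := by norm_num
      _ ≤ 2 ^ U.edgeSet.ncard := pow_le_pow_right₀ (by norm_num) hpos
  rw [mul_pow]
  nlinarith [mul_nonneg hcount hpe]

end Vale.Agent.Lib.P064
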