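import Vale.Agent.Lib.P064.Gnp

/-!
The uniformly random copy of `H` in `K_n` is spread.
-/

open Finset

namespace Vale.Agent.Lib.P064

open scoped Classical

variable {n : ℕ}

/-- Permutations with prescribed values on a set: few of them. -/
lemma perm_fiber_card {T : Type} [Fintype T] (A : Finset T) (y : T → T)
    (s : Finset (Equiv.Perm T)) (hs : ∀ h ∈ s, ∀ x ∈ A, h x = y x) :
    s.card ≤ (Fintype.card T - A.card).factorial := by
  by_cases hne : s.Nonempty
  · obtain ⟨h₀, hh₀⟩ := hne
    have h₀y := hs h₀ hh₀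
    let Ac : Finset T := Aᶜ
    let B : Finset T := Ac.image h₀
    have hB : B.card = Ac.card := Finset.card_image_of_injective _ h₀.injective
    have hAc : Ac.card = Fintype.card T - A.card := by
      exact Finset.card_compl A
    have hmem : ∀ h : Equiv.Perm T, (∀ x ∈ A, h x = y x) → ∀ x : ↥Ac, h x.1 ∈ B := by
      intro h hh x
      have hx : x.1 ∉ A := Finset.mem_compl.1 x.2
      refine Finset.mem_image.2 ⟨h₀.symm (h x.1), Finset.mem_compl.2 ?_, by simp⟩
      intro hin
      have h1 := h₀y _ hin
      have h2 := hh _ hin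
      simp only [Equiv.apply_symm_apply] at h1
      rw [← h2] at h1
      exact hx (h.injective h1 ▸ hin)
    let Φ : ↥s → (↥Ac ↪ ↥B) := fun h =>
      ⟨fun x => ⟨h.1 x.1, hmem h.1 (hs h.1 h.2) x⟩, by
        intro a b hab
        have := congrArg Subtype.val hab
        exact Subtype.ext (h.1.injective this)⟩
    have hΦ : Function.Injective Φ := by
      intro h h' hhh
      apply Subtype.ext
      ext x
      by_cases hx : x ∈ A
      · rw [hs h.1 h.2 x hx, hs h'.1 h'.2 x hx]
      · have := congrArg (fun e : (↥Ac ↪ ↥B) => (e ⟨x, Finset.mem_compl.2 hx⟩).1) hhh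
        exact this
    have h1 := Fintype.card_le_of_injective Φ hΦ
    rw [Fintype.card_embedding_eq, Fintype.card_coe, Fintype.card_coe, Fintype.card_coe, hB,
      Nat.descFactorial_self, hAc] at h1
    exact h1
  · rw [Finset.not_nonempty_iff_eq_empty] at hne
    rw [hne]
    simp

section Spread

variable {V : Type} [Fintype V] {H : SimpleGraph V}

/-- The edge set of the copy of `H` given by a permutation of the vertices of `K_n`. -/
noncomputable def famS (H : SimpleGraph V) (ι : V ↪ Fin n) (g : Equiv.Perm (Fin n)) :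
    Finset (EdgeSp n) :=
  univ.filter (fun x => ∃ a b, H.Adj a b ∧ x.1 = s(g (ι a), g (ι b)))

/-- The vertices covered by a set of possible edges. -/
noncomputable def supp (U : Finset (EdgeSp n)) : Finset (Fin n) :=
  U.biUnion (fun x => x.1.toFinset)

/-- The graph formed by a set of possible edges on the vertices it covers. -/
noncomputable def suppGraph (U : Finset (EdgeSp n)) : SimpleGraph ↥(supp U) where
  Adj a b := ∃ x ∈ U, x.1 = s(a.1, b.1)
  symm := ⟨fun a b ⟨x, hx, h⟩ => ⟨x, hx, by rw [h, Sym2.eq_swap]⟩⟩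
  loopless := ⟨fun a ⟨x, _, h⟩ => by
    apply x.2
    rw [h]
    simp⟩

lemma suppGraph_iso (U : Finset (EdgeSp n)) (a : ↥(supp U)) : ∃ b, (suppGraph U).Adj a b := by
  obtain ⟨x, hx, hax⟩ := Finset.mem_biUnion.1 a.2
  have hax' : a.1 ∈ x.1 := by simpa using hax
  obtain ⟨b, hb⟩ := Sym2.mem_iff_exists.1 hax'
  have hbm : b ∈ supp U := by
    refine Finset.mem_biUnion.2 ⟨x, hx, ?_⟩
    rw [Sym2.mem_toFinset, hb]
    exact Sym2.mem_mk_right _ _
  exact ⟨⟨b, hbm⟩, x, hx, hb⟩

lemma suppGraph_edges (U : Finset (EdgeSp n)) : (eIn (suppGraph U) univ).card = U.card := by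
  have h1 : (eIn (suppGraph U) univ).image (Sym2.map Subtype.val) = U.image Subtype.val := by
    ext z
    simp only [Finset.mem_image]
    constructor
    · rintro ⟨e, he, rfl⟩
      induction e using Sym2.ind with
      | _ a b =>
        obtain ⟨x, hx, h⟩ := (mem_eIn_pair.1 he).1
        exact ⟨x, hx, h⟩
    · rintro ⟨x, hx, rfl⟩
      obtain ⟨e, he⟩ := x
      induction e using Sym2.ind with
      | _ a b =>
        have hu : a ∈ supp U := Finset.mem_biUnion.2 ⟨⟨s(a, b), he⟩, hx, by simp⟩
        have hv : b ∈ supp U := Finset.mem_biUnion.2 ⟨⟨s(a, b), he⟩, hx, by simp⟩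
        refine ⟨s(⟨a, hu⟩, ⟨b, hv⟩), ?_, rfl⟩
        exact mem_eIn_pair.2 ⟨⟨⟨s(a, b), he⟩, hx, rfl⟩, mem_univ _, mem_univ _⟩
  have h2 := congrArg Finset.card h1
  rwa [Finset.card_image_of_injective _ (Sym2.map.injective Subtype.val_injective),
    Finset.card_image_of_injective _ Subtype.val_injective] at h2

/-- The embedding of the graph of `U` obtained from a permutation. -/
noncomputable def pullback [Nonempty V] (ι : V ↪ Fin n) (U : Finset (EdgeSp n))
    (g : Equiv.Perm (Fin n)) : ↥(supp U) → V :=
  fun a => Function.invFun ι (g⁻¹ a.1)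

lemma pullback_spec [Nonempty V] {ι : V ↪ Fin n} {U : Finset (EdgeSp n)}
    {g : Equiv.Perm (Fin n)} (hg : U ⊆ famS H ι g) (a : ↥(supp U)) :
    ι (pullback ι U g a) = g⁻¹ a.1 := by
  obtain ⟨x, hx, hax⟩ := Finset.mem_biUnion.1 a.2
  have hax' : a.1 ∈ x.1 := by simpa using hax
  obtain ⟨c, d, _, h⟩ := (Finset.mem_filter.1 (hg hx)).2
  rw [h] at hax'
  unfold pullback
  refine Function.invFun_eq ?_
  rcases Sym2.mem_iff.1 hax' with h2 | h2
  · exact ⟨c, by rw [h2]; simp⟩
  · exact ⟨d, by rw [h2]; simp⟩

lemma pullback_mem [Nonempty V] {ι : V ↪ Fin n} {U : Finset (EdgeSp n)}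
    {g : Equiv.Perm (Fin n)} (hg : U ⊆ famS H ι g) : pullback ι U g ∈ emb (suppGraph U) H := by
  refine mem_emb.2 ⟨?_, ?_⟩
  · intro a b hab
    have h1 := pullback_spec hg a
    have h2 := pullback_spec hg b
    rw [hab, h2] at h1
    exact Subtype.ext (g⁻¹.injective h1).symm
  · rintro a b ⟨x, hx, hxab⟩
    obtain ⟨c, d, hcd, h⟩ := (Finset.mem_filter.1 (hg hx)).2
    rw [hxab] at h
    have h1 := pullback_spec hg a
    have h2 := pullback_spec hg b
    rcases Sym2.eq_iff.1 h with ⟨h3, h4⟩ | ⟨h3, h4⟩
    · have h5 : pullback ι U g a = c := by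
        apply ι.injective
        rw [h1, h3]
        simp
      have h6 : pullback ι U g b = d := by
        apply ι.injective
        rw [h2, h4]
        simp
      rw [h5, h6]
      exact hcd
    · have h5 : pullback ι U g a = d := by
        apply ι.injective
        rw [h1, h3]
        simp
      have h6 : pullback ι U g b = c := by
        apply ι.injective
        rw [h2, h4]
        simp
      rw [h5, h6]
      exact hcd.symm

/-- The number of permutations whose copy contains `U`. -/
theorem spread_count {q : ℝ} [Nonempty V] (hn : 1 ≤ n) (hV : Fintype.card V ≤ n) (ι : V ↪ Fin n)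
    (hq0 : 0 < q) (hqe : q ≤ Real.exp (-1)) (hG : GoodDensity n q H) (U : Finset (EdgeSp n)) :
    ((univ.filter fun g : Equiv.Perm (Fin n) => U ⊆ famS H ι g).card : ℝ) ≤
      (64 * Real.exp 7 * (2 * Real.log n + 1) * q) ^ U.card * n.factorial := by
  set G := univ.filter fun g : Equiv.Perm (Fin n) => U ⊆ famS H ι g with hGdef
  set a := Fintype.card ↥(supp U) with ha
  have han : a ≤ n := by
    have := Finset.card_le_univ (supp U)
    rw [Fintype.card_fin] at this
    rw [ha, Fintype.card_coe]
    exact this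
  have h1 : G.card ≤ (n - a).factorial * (G.image (pullback ι U)).card := by
    refine Finset.card_le_mul_card_image G _ ?_
    intro τ _
    let y : Fin n → Fin n := fun x => if hx : x ∈ supp U then ι (τ ⟨x, hx⟩) else x
    have h3 : (supp U).card = a := by rw [ha, Fintype.card_coe]
    rw [← Finset.card_image_of_injective _ (inv_injective (G := Equiv.Perm (Fin n)))]
    have h2 := perm_fiber_card (supp U) y
      ((G.filter fun g => pullback ι U g = τ).image (fun g => g⁻¹)) (by
        intro h hh x hx
        obtain ⟨g, hg, rfl⟩ := Finset.mem_image.1 hh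
        obtain ⟨h5, h6⟩ := Finset.mem_filter.1 hg
        have hgU : U ⊆ famS H ι g := (Finset.mem_filter.1 h5).2
        have h4 := pullback_spec hgU ⟨x, hx⟩
        rw [h6] at h4
        simp only [y, hx, dif_pos]
        exact h4.symm)
    rw [Fintype.card_fin, h3] at h2
    exact h2
  have h2 : (G.image (pullback ι U)).card ≤ (emb (suppGraph U) H).card := by
    refine Finset.card_le_card ?_
    intro τ hτ
    obtain ⟨g, hg, rfl⟩ := Finset.mem_image.1 hτ
    exact pullback_mem (Finset.mem_filter.1 hg).2
  have h3 := inj_bound hn hV hq0 hqe hG (suppGraph_iso U) han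
  rw [suppGraph_edges] at h3
  have hfac : ((n - a).factorial : ℝ) * n.descFactorial a = n.factorial := by
    exact_mod_cast Nat.factorial_mul_descFactorial han
  calc (G.card : ℝ) ≤ ((n - a).factorial : ℝ) * (G.image (pullback ι U)).card := by
        exact_mod_cast h1
    _ ≤ ((n - a).factorial : ℝ) * (emb (suppGraph U) H).card := by
        gcongr
    _ ≤ ((n - a).factorial : ℝ) * ((64 * Real.exp 7 * (2 * Real.log n + 1) * q) ^ U.card *
          n.descFactorial a) := by
        gcongr
    _ = (64 * Real.exp 7 * (2 * Real.log n + 1) * q) ^ U.card *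
          (((n - a).factorial : ℝ) * n.descFactorial a) := by ring
    _ = _ := by rw [hfac]

end Spread

end Vale.Agent.Lib.P064
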