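import Vale.Agent.Lib.P064.Emb

/-!
Peeling vertices of small degree before taking blocks: a count of embeddings whose loss per
vertex depends only on the degree threshold `T`.
-/

open Finset

namespace Vale.Agent.Lib.P064

open scoped Classical

variable {V α : Type} [Fintype V] [Fintype α] {H : SimpleGraph V} {F : SimpleGraph α} {n : ℕ}
  {q : ℝ}

/-- All tokens of the new edges sit at the image of `C` when no arc goes from `E` into `C`. -/
lemma capacity_noArc (Arc : V → V → Prop) (M c : ℕ)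
    (hcap : ∀ (T : Finset (Sym2 V)) (D : Finset V), (∀ e ∈ T, e ∈ H.edgeSet) →
      (∀ a b, s(a, b) ∈ T → Arc a b → a ∈ D) → M * T.card ≤ c * D.card)
    {R : Finset (α × α)} {E C : Finset α} (hE : ∀ u v, (u, v) ∈ R → u ∈ E → v ∉ C) {φ : α → V}
    (hinj : Function.Injective φ) (hhom : ∀ u v, F.Adj u v → H.Adj (φ u) (φ v))
    (hR : ∀ u v, F.Adj u v → Arc (φ u) (φ v) → (u, v) ∈ R) :
    M * (newE F E C).card ≤ c * C.card := by
  let T : Finset (Sym2 V) := (newE F E C).image (Sym2.map φ)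
  let D : Finset V := C.image φ
  have hT : T.card = (newE F E C).card :=
    Finset.card_image_of_injective _ (Sym2.map.injective hinj)
  have hD : D.card ≤ C.card := Finset.card_image_le
  have h1 : M * T.card ≤ c * D.card := by
    apply hcap
    · intro e he
      obtain ⟨e', he', rfl⟩ := Finset.mem_image.1 he
      induction e' using Sym2.ind with
      | _ u v =>
        obtain ⟨h2, _⟩ := mem_newE_pair.1 he'
        exact hhom u v h2
    · intro a b hab harc
      obtain ⟨e', he', hmap⟩ := Finset.mem_image.1 hab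
      induction e' using Sym2.ind with
      | _ u v =>
        obtain ⟨h2, h3, h4, h5⟩ := mem_newE_pair.1 he'
        rw [Sym2.map_mk, Sym2.eq_iff] at hmap
        rcases hmap with ⟨rfl, rfl⟩ | ⟨rfl, rfl⟩
        · have h6 := hR u v h2 harc
          have huC : u ∈ C := by
            rcases h3 with h7 | h7
            · exfalso
              have h8 := hE u v h6 h7
              rcases h4 with h9 | h9
              · exact h5 ⟨h7, h9⟩
              · exact h8 h9
            · exact h7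
          exact Finset.mem_image_of_mem _ huC
        · have h6 := hR v u h2.symm harc
          have hvC : v ∈ C := by
            rcases h4 with h7 | h7
            · exfalso
              have h8 := hE v u h6 h7
              rcases h3 with h9 | h9
              · exact h5 ⟨h9, h7⟩
              · exact h8 h9
            · exact h7
          exact Finset.mem_image_of_mem _ hvC
  rw [hT] at h1
  exact h1.trans (Nat.mul_le_mul_left _ hD)

/-- Each new edge is counted at most twice when summing the degrees of the vertices of `W`. -/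
lemma sum_newE_single_le (E W : Finset α) :
    ∑ z ∈ W, (newE F (E ∪ W.erase z) {z}).card ≤ 2 * (newE F E W).card := by
  have h1 : ∀ z ∈ W, (newE F (E ∪ W.erase z) {z}).card ≤
      ((newE F E W).filter (fun e => z ∈ e)).card := by
    intro z hz
    refine Finset.card_le_card ?_
    intro e he
    induction e using Sym2.ind with
    | _ u v =>
      obtain ⟨h2, h3, h4, h5⟩ := mem_newE_pair.1 he
      simp only [Finset.mem_union, Finset.mem_erase, Finset.mem_singleton] at h3 h4 h5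
      have huW : u ∈ E ∨ u ∈ W := by
        rcases h3 with (h | h) | h
        · exact Or.inl h
        · exact Or.inr h.2
        · exact Or.inr (h ▸ hz)
      have hvW : v ∈ E ∨ v ∈ W := by
        rcases h4 with (h | h) | h
        · exact Or.inl h
        · exact Or.inr h.2
        · exact Or.inr (h ▸ hz)
      refine Finset.mem_filter.2 ⟨mem_newE_pair.2 ⟨h2, huW, hvW, ?_⟩, ?_⟩
      · rintro ⟨h6, h7⟩
        exact h5 ⟨Or.inl h6, Or.inl h7⟩
      · rw [Sym2.mem_iff]
        by_cases huz : z = u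
        · exact Or.inl huz
        · right
          by_contra hvz
          apply h5
          constructor
          · rcases h3 with h | h
            · exact h
            · exact absurd h.symm huz
          · rcases h4 with h | h
            · exact h
            · exact absurd h.symm hvz
  have h2 : ∑ z ∈ W, ((newE F E W).filter (fun e => z ∈ e)).card
      = ∑ e ∈ newE F E W, (W.filter (fun z => z ∈ e)).card := by
    simp only [Finset.card_filter]
    rw [Finset.sum_comm]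
  have h3 : ∀ e ∈ newE F E W, (W.filter (fun z => z ∈ e)).card ≤ 2 := by
    intro e _
    induction e using Sym2.ind with
    | _ u v =>
      have : W.filter (fun z => z ∈ s(u, v)) ⊆ {u, v} := by
        intro z hz
        have h4 := (Finset.mem_filter.1 hz).2
        rw [Sym2.mem_iff] at h4
        simpa using h4
      exact (Finset.card_le_card this).trans Finset.card_le_two
  calc ∑ z ∈ W, (newE F (E ∪ W.erase z) {z}).card
      ≤ ∑ z ∈ W, ((newE F E W).filter (fun e => z ∈ e)).card := Finset.sum_le_sum h1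
    _ = ∑ e ∈ newE F E W, (W.filter (fun z => z ∈ e)).card := h2
    _ ≤ ∑ _e ∈ newE F E W, 2 := Finset.sum_le_sum h3
    _ = _ := by simp [mul_comm]

/-- Additivity of the number of new edges. -/
lemma newE_card_split (E C D : Finset α) :
    (newE F E (C ∪ D)).card = (newE F E C).card + (newE F (E ∪ C) D).card := by
  have h1 : (eIn F (E ∪ (C ∪ D))).card = (eIn F E).card + (newE F E (C ∪ D)).card :=
    eIn_union_card
  have h2 : (eIn F ((E ∪ C) ∪ D)).card = (eIn F (E ∪ C)).card + (newE F (E ∪ C) D).card :=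
    eIn_union_card
  have h3 : (eIn F (E ∪ C)).card = (eIn F E).card + (newE F E C).card :=
    eIn_union_card
  rw [Finset.union_assoc] at h2
  omega

/-- The real form of the step for restrictions. -/
lemma card_image_proj_step_real (S : Finset (α → V)) {D D' : Finset α} (h : D ⊆ D') {B : ℝ}
    (hB : 0 ≤ B)
    (hn : ∀ φ₀ ∈ S, (((S.filter (fun φ => proj D φ = proj D φ₀)).image (proj D')).card : ℝ) ≤ B) :
    ((S.image (proj D')).card : ℝ) ≤ B * (S.image (proj D)).card := by
  have h1 := card_image_proj_step S h ⌊B⌋₊ (fun φ₀ h0 => Nat.le_floor (hn φ₀ h0))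
  have h2 : ((⌊B⌋₊ : ℕ) : ℝ) ≤ B := Nat.floor_le hB
  calc ((S.image (proj D')).card : ℝ) ≤ ((⌊B⌋₊ : ℕ) : ℝ) * (S.image (proj D)).card := by
        exact_mod_cast h1
    _ ≤ _ := mul_le_mul_of_nonneg_right h2 (Nat.cast_nonneg _)

/-- The sunflower count over a block. -/
lemma block_count (hG : GoodDensity n q H) (hq0 : 0 < q) (hq1 : q ≤ 1) (hn : 1 ≤ n)
    (Arc : V → V → Prop) (c : ℕ) (hc : ∀ a, (univ.filter fun b => Arc a b).card ≤ c)
    {R : Finset (α × α)} {E C : Finset α} (hb : IsBlock R E C)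
    (S : Finset (α → V)) (hS : S.Nonempty) (hinj : ∀ φ ∈ S, Function.Injective φ)
    (hhom : ∀ φ ∈ S, ∀ u v, F.Adj u v → H.Adj (φ u) (φ v))
    (hSR : ∀ φ ∈ S, ∀ d ∈ R, Arc (φ d.1) (φ d.2))
    {φ₀ : α → V} (hagree : ∀ φ ∈ S, ∀ x ∈ E, φ x = φ₀ x)
    (hm : 1 ≤ (newE F E C).card) :
    ∃ t : ℕ, 1 ≤ t ∧ ((t : ℝ) ≤ (core F E C).card * Real.log n ∨
        (t : ℝ) ≤ Real.exp 2 * ((n : ℝ) ^ C.card * q ^ (newE F E C).card)) ∧
      (S.image (proj (E ∪ C))).card ≤ C.card * (t * C.card) * c ^ (C.card - 1) := by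
  have hn1 : (1 : ℝ) ≤ n := by exact_mod_cast hn
  have hn0 : (0 : ℝ) < n := by linarith
  obtain ⟨𝓜, hsub, hne𝓜, hdisj, hcov⟩ := exists_max_family S hS hb.ne
  obtain ⟨φ₁, hφ₁⟩ := hne𝓜
  have hag' : ∀ φ ∈ 𝓜, ∀ x ∈ E, φ x = φ₁ x := by
    intro φ hφ x hx
    rw [hagree φ (hsub hφ) x hx, hagree φ₁ (hsub hφ₁) x hx]
  have hfac := sun_factorial hG hq0 hq1 hb.ne hb.disj 𝓜 hφ₁ (fun φ hφ => hinj φ (hsub hφ))
    (fun φ hφ => hhom φ (hsub hφ)) hag' hdisj hm
  have hρ0 : 0 < (n : ℝ) ^ C.card * q ^ (newE F E C).card := by positivity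
  have ht1 : 1 ≤ 𝓜.card := Finset.card_pos.2 ⟨φ₁, hφ₁⟩
  exact ⟨𝓜.card, ht1, t_bound hn1 hρ0 ht1 hfac, cover_count Arc c hc hb S hSR hagree 𝓜 hcov⟩

/-- The numerical heart of the peeled block bound. -/
lemma peel_numeric {a b m t c T : ℕ} {κ ρ L : ℝ} (ha : 1 ≤ a) (hab : a + b ≤ m + 1) (hT : 1 ≤ T)
    (hκ : 2 ≤ κ) (hm : a * T ≤ 2 * m) (hcZ : (c : ℝ) ≤ κ ^ T) (hLZ : (T : ℝ) * L ≤ κ ^ T)
    (hL : 0 ≤ L) (hρ0 : 0 < ρ) (hρ : Real.exp (-(a : ℝ)) ≤ ρ)
    (hdich : (t : ℝ) ≤ b * L ∨ (t : ℝ) ≤ Real.exp 2 * ρ) :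
    (a : ℝ) * (t * a) * c ^ (a - 1) ≤ (8 * Real.exp 2) ^ a * κ ^ (2 * m) * ρ := by
  have hκ0 : (0 : ℝ) < κ := by linarith
  have hκ1 : (1 : ℝ) ≤ κ := by linarith
  set Z := κ ^ T with hZ
  have hZ1 : (1 : ℝ) ≤ Z := one_le_pow₀ hκ1
  have hZ0 : (0 : ℝ) < Z := by linarith
  obtain ⟨x, hx⟩ : ∃ x, 2 * m = x + a * T := ⟨2 * m - a * T, by omega⟩
  have hpow : κ ^ (2 * m) = κ ^ x * Z ^ a := by
    rw [hx, pow_add, hZ, ← pow_mul, mul_comm T a]
  have hκx : (1 : ℝ) + x ≤ κ ^ x := by
    have h1 := one_add_mul_le_pow (a := κ - 1) (by linarith) x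
    have h2 : 1 + (κ - 1) = κ := by ring
    rw [h2] at h1
    have h3 : (x : ℝ) ≤ x * (κ - 1) := by
      have : (1 : ℝ) ≤ κ - 1 := by linarith
      nlinarith [(Nat.cast_nonneg x : (0 : ℝ) ≤ x)]
    linarith
  have hκx1 : (1 : ℝ) ≤ κ ^ x := one_le_pow₀ hκ1
  have hc0 : (0 : ℝ) ≤ c := Nat.cast_nonneg _
  have hcpow : (c : ℝ) ^ (a - 1) ≤ Z ^ (a - 1) := pow_le_pow_left₀ hc0 hcZ _
  have haZ : Z ^ (a - 1) * Z = Z ^ a := by
    rw [← pow_succ]
    congr 1
    omega
  have hapos : (0 : ℝ) < a := by exact_mod_cast ha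
  have ha2 : (a : ℝ) ≤ 2 ^ a := by exact_mod_cast (Nat.lt_two_pow_self (n := a)).le
  have he1 : (1 : ℝ) ≤ Real.exp 1 := Real.one_le_exp (by norm_num)
  have he2 : Real.exp 2 = Real.exp 1 ^ 2 := by
    rw [← Real.exp_nat_mul]
    norm_num
  have hea : (8 * Real.exp 2) ^ a = 2 ^ a * 2 ^ a * 2 ^ a * Real.exp 2 ^ a := by
    rw [mul_pow, show (8 : ℝ) = 2 * 2 * 2 by norm_num, mul_pow, mul_pow]
  have h2a : (0 : ℝ) < 2 ^ a := by positivity
  have hea0 : (1 : ℝ) ≤ Real.exp 2 ^ a := one_le_pow₀ (Real.one_le_exp (by norm_num))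
  rw [hpow, hea]
  rcases hdich with h | h
  · -- `t ≤ b L`
    have hb0 : (0 : ℝ) ≤ b := Nat.cast_nonneg _
    have hbm : (b : ℝ) ≤ m := by
      have : b ≤ m := by omega
      exact_mod_cast this
    have hm2 : 2 * (m : ℝ) = x + a * T := by exact_mod_cast hx
    have hT1 : (1 : ℝ) ≤ T := by exact_mod_cast hT
    have ha1 : (1 : ℝ) ≤ a := by exact_mod_cast ha
    have haT : (1 : ℝ) ≤ a * T := by nlinarith
    have hx0 : (0 : ℝ) ≤ x := Nat.cast_nonneg _
    have h1 : (x : ℝ) + a * T ≤ (1 + x) * (a * T) := by nlinarith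
    have h2 : (t : ℝ) ≤ κ ^ x * (a * Z) := by
      have h3 : (t : ℝ) ≤ m * L := h.trans (mul_le_mul_of_nonneg_right hbm hL)
      have h4 : 2 * (m * L) ≤ (1 + x) * a * (T * L) := by
        have h5 : 2 * (m : ℝ) ≤ (1 + x) * (a * T) := by rw [hm2]; exact h1
        calc 2 * (m * L) = (2 * (m : ℝ)) * L := by ring
          _ ≤ ((1 + x) * (a * T)) * L := mul_le_mul_of_nonneg_right h5 hL
          _ = _ := by ring
      have h6 : (1 + (x : ℝ)) * a * (T * L) ≤ κ ^ x * a * Z := by
        apply mul_le_mul _ hLZ (mul_nonneg (Nat.cast_nonneg _) hL) (by positivity)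
        exact mul_le_mul_of_nonneg_right hκx hapos.le
      have h7 : (0 : ℝ) ≤ m * L := mul_nonneg (Nat.cast_nonneg _) hL
      have h8 : (κ ^ x * a * Z) = κ ^ x * (a * Z) := by ring
      linarith
    have hρ' : (1 : ℝ) ≤ Real.exp 2 ^ a * ρ := by
      have h5 : Real.exp 2 ^ a = Real.exp (2 * a) := by
        rw [← Real.exp_nat_mul]
        ring_nf
      have h6 : (1 : ℝ) = Real.exp a * Real.exp (-(a : ℝ)) := by
        rw [← Real.exp_add]
        simp
      have h7 : Real.exp a ≤ Real.exp (2 * a) := Real.exp_le_exp.2 (by nlinarith)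
      rw [h5, h6]
      exact mul_le_mul h7 hρ (Real.exp_pos _).le (Real.exp_pos _).le
    calc (a : ℝ) * (t * a) * c ^ (a - 1) = a * a * t * c ^ (a - 1) := by ring
      _ ≤ a * a * (κ ^ x * (a * Z)) * Z ^ (a - 1) := by
          apply mul_le_mul _ hcpow (by positivity) (by positivity)
          exact mul_le_mul_of_nonneg_left h2 (by positivity)
      _ = (a * a * a) * (κ ^ x * (Z ^ (a - 1) * Z)) := by ring
      _ = (a * a * a) * (κ ^ x * Z ^ a) := by rw [haZ]
      _ ≤ (2 ^ a * 2 ^ a * 2 ^ a) * (κ ^ x * Z ^ a) := by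
          apply mul_le_mul_of_nonneg_right _ (by positivity)
          apply mul_le_mul (mul_le_mul ha2 ha2 hapos.le h2a.le) ha2 hapos.le (by positivity)
      _ = (2 ^ a * 2 ^ a * 2 ^ a) * (κ ^ x * Z ^ a) * 1 := by ring
      _ ≤ (2 ^ a * 2 ^ a * 2 ^ a) * (κ ^ x * Z ^ a) * (Real.exp 2 ^ a * ρ) :=
          mul_le_mul_of_nonneg_left hρ' (by positivity)
      _ = _ := by ring
  · -- `t ≤ e² ρ`
    have h1 : Real.exp 2 ≤ Real.exp 2 ^ a := by
      calc Real.exp 2 = Real.exp 2 ^ 1 := (pow_one _).symm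
        _ ≤ _ := pow_le_pow_right₀ (Real.one_le_exp (by norm_num)) ha
    have h2 : Z ^ (a - 1) ≤ Z ^ a := pow_le_pow_right₀ hZ1 (by omega)
    have h3 : (1 : ℝ) ≤ 2 ^ a := one_le_pow₀ (by norm_num)
    calc (a : ℝ) * (t * a) * c ^ (a - 1) = a * a * t * c ^ (a - 1) := by ring
      _ ≤ (2 ^ a * 2 ^ a) * (Real.exp 2 ^ a * ρ) * Z ^ a := by
          apply mul_le_mul _ (hcpow.trans h2) (by positivity) (by positivity)
          apply mul_le_mul (mul_le_mul ha2 ha2 hapos.le h2a.le)
            (h.trans (mul_le_mul_of_nonneg_right h1 hρ0.le)) (Nat.cast_nonneg _) (by positivity)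
      _ = 1 * 1 * ((2 ^ a * 2 ^ a) * Real.exp 2 ^ a * (Z ^ a * ρ)) := by ring
      _ ≤ 2 ^ a * κ ^ x * ((2 ^ a * 2 ^ a) * Real.exp 2 ^ a * (Z ^ a * ρ)) := by
          apply mul_le_mul_of_nonneg_right _ (by positivity)
          exact mul_le_mul h3 hκx1 (by norm_num) (by positivity)
      _ = _ := by ring

/-- A singleton is a block for the empty relation. -/
lemma isBlock_singleton {D : Finset α} {z : α} (hz : z ∉ D) :
    IsBlock (∅ : Finset (α × α)) D {z} where
  ne := Finset.singleton_nonempty z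
  disj := Finset.disjoint_singleton_left.2 hz
  closed := fun _ _ h => absurd h (Finset.notMem_empty _)
  conn := by
    intro x hx D' hxD hD' hne
    exfalso
    apply hne
    apply Finset.Subset.antisymm hD'
    have : x = z := Finset.mem_singleton.1 hx
    subst this
    exact Finset.singleton_subset_iff.2 hxD

/-- One light vertex: the number of its images is at most the room, up to a constant. -/
lemma peel_light (hG : GoodDensity n q H) (hq0 : 0 < q) (hq1 : q ≤ 1) (hn : 1 ≤ n)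
    (hV : Fintype.card V ≤ n) {A κ : ℝ} (hA : Real.exp 2 ≤ A) (hκ : 1 ≤ κ) (T : ℕ)
    (hlight : ∀ d : ℕ, 1 ≤ d → d < T → (d : ℝ) * Real.log n ≤ A * ((n : ℝ) * q ^ d))
    {D : Finset α} {z : α} (hz : z ∉ D) (hd : (newE F D {z}).card < T)
    (S : Finset (α → V)) (hinj : ∀ φ ∈ S, Function.Injective φ)
    (hhom : ∀ φ ∈ S, ∀ u v, F.Adj u v → H.Adj (φ u) (φ v))
    {φ₀ : α → V} (hagree : ∀ φ ∈ S, ∀ x ∈ D, φ x = φ₀ x) :
    ((S.image (proj (D ∪ {z}))).card : ℝ) ≤
      A * κ ^ (2 * (newE F D {z}).card) * ((n : ℝ) * q ^ (newE F D {z}).card) := by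
  have hn1 : (1 : ℝ) ≤ n := by exact_mod_cast hn
  have hn0 : (0 : ℝ) < n := by linarith
  have hA1 : (1 : ℝ) ≤ A := (Real.one_le_exp (by norm_num)).trans hA
  have hA0 : (0 : ℝ) < A := by linarith
  have hκ0 : (0 : ℝ) < κ := by linarith
  set d := (newE F D {z}).card with hdd
  by_cases hS : S.Nonempty
  swap
  · rw [Finset.not_nonempty_iff_eq_empty] at hS
    rw [hS]
    simp only [Finset.image_empty, Finset.card_empty, Nat.cast_zero]
    positivity
  have hκd : (1 : ℝ) ≤ κ ^ (2 * d) := one_le_pow₀ hκ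
  by_cases hm : d = 0
  · rw [hm]
    simp only [mul_zero, pow_zero, mul_one]
    have h2 : D ∪ {z} = insert z D := by
      ext y
      simp only [Finset.mem_union, Finset.mem_singleton, Finset.mem_insert]
      tauto
    rw [h2]
    have h3 : S.image (proj (insert z D)) ⊆
        (univ : Finset V).image (fun b => Function.update (proj D φ₀) z (some b)) := by
      intro ψ hψ
      obtain ⟨φ, hφ, rfl⟩ := Finset.mem_image.1 hψ
      refine Finset.mem_image.2 ⟨φ z, mem_univ _, ?_⟩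
      have h4 : proj D φ = proj D φ₀ := by
        funext y
        unfold proj
        by_cases hy : y ∈ D
        · simp [hy, hagree φ hφ y hy]
        · simp [hy]
      exact (proj_insert_eq h4).symm
    have h5 : (S.image (proj (insert z D))).card ≤ n :=
      (Finset.card_le_card h3).trans (Finset.card_image_le.trans (by simpa using hV))
    have h6 : ((S.image (proj (insert z D))).card : ℝ) ≤ n := by exact_mod_cast h5
    nlinarith
  · have hd1 : 1 ≤ d := Nat.one_le_iff_ne_zero.2 hm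
    obtain ⟨t, ht1, hdich, hcount⟩ := block_count (c := 0) (Arc := fun _ _ => False) hG hq0 hq1 hn
      (by simp) (isBlock_singleton hz) S hS hinj hhom
      (fun _ _ d hd => absurd hd (Finset.notMem_empty _)) hagree hd1
    have hbd := newE_card (F := F) (∅ : Finset (α × α))
      (fun _ _ h => absurd h (Finset.notMem_empty _)) (isBlock_singleton hz)
    rw [Finset.card_singleton] at hbd
    simp only [Finset.card_singleton, pow_one, Nat.sub_self, pow_zero, mul_one,
      one_mul] at hdich hcount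
    have hρ0 : 0 < (n : ℝ) * q ^ d := by positivity
    have hcast : ((S.image (proj (D ∪ {z}))).card : ℝ) ≤ t := by exact_mod_cast hcount
    refine hcast.trans ?_
    rcases hdich with h | h
    · have hb : ((core F D {z}).card : ℝ) ≤ d := by
        have : (core F D {z}).card ≤ d := by omega
        exact_mod_cast this
      have hl0 : 0 ≤ Real.log n := Real.log_nonneg hn1
      have h1 := hlight d hd1 hd
      have h2 : (t : ℝ) ≤ d * Real.log n := h.trans (mul_le_mul_of_nonneg_right hb hl0)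
      have h3 : 0 ≤ A * ((n : ℝ) * q ^ d) := by positivity
      calc (t : ℝ) ≤ A * ((n : ℝ) * q ^ d) := h2.trans h1
        _ = 1 * (A * ((n : ℝ) * q ^ d)) := (one_mul _).symm
        _ ≤ κ ^ (2 * d) * (A * ((n : ℝ) * q ^ d)) := mul_le_mul_of_nonneg_right hκd h3
        _ = _ := by ring
    · have h3 : 0 ≤ A * ((n : ℝ) * q ^ d) := by positivity
      calc (t : ℝ) ≤ Real.exp 2 * ((n : ℝ) * q ^ d) := h
        _ ≤ A * ((n : ℝ) * q ^ d) := mul_le_mul_of_nonneg_right hA hρ0.le
        _ = 1 * (A * ((n : ℝ) * q ^ d)) := (one_mul _).symm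
        _ ≤ κ ^ (2 * d) * (A * ((n : ℝ) * q ^ d)) := mul_le_mul_of_nonneg_right hκd h3
        _ = _ := by ring

/-- A strongly connected set all of whose vertices have degree at least `T`. -/
lemma peel_block (hG : GoodDensity n q H) (hq0 : 0 < q) (hq1 : q ≤ 1) (hn : 1 ≤ n)
    (Arc : V → V → Prop) (M c : ℕ)
    (hc : ∀ a, (univ.filter fun b => Arc a b).card ≤ c)
    (hcap : ∀ (T : Finset (Sym2 V)) (D : Finset V), (∀ e ∈ T, e ∈ H.edgeSet) →
      (∀ a b, s(a, b) ∈ T → Arc a b → a ∈ D) → M * T.card ≤ c * D.card)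
    (hnum : ∀ a m : ℕ, M * m ≤ c * a → Real.exp (-(a : ℝ)) ≤ (n : ℝ) ^ a * q ^ m)
    {κ : ℝ} (hκ : 2 ≤ κ) {T : ℕ} (hT : 1 ≤ T) (hcZ : (c : ℝ) ≤ κ ^ T)
    (hLZ : (T : ℝ) * Real.log n ≤ κ ^ T)
    {R : Finset (α × α)} (hRF : ∀ u v, (u, v) ∈ R → F.Adj u v)
    {E W : Finset α} (hne : W.Nonempty) (hdisj : Disjoint W E)
    (hEW : ∀ u v, (u, v) ∈ R → u ∈ E → v ∉ W)
    (hconn : ∀ D : Finset α, D.Nonempty → D ⊆ W → D ≠ W → ∃ u ∈ D, ∃ v ∈ W \ D, (u, v) ∈ R)
    (hdeg : ∀ z ∈ W, T ≤ (newE F (E ∪ W.erase z) {z}).card)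
    (S : Finset (α → V)) (hinj : ∀ φ ∈ S, Function.Injective φ)
    (hhom : ∀ φ ∈ S, ∀ u v, F.Adj u v → H.Adj (φ u) (φ v))
    (hSR : ∀ φ ∈ S, ∀ d ∈ R, Arc (φ d.1) (φ d.2))
    (hSR' : ∀ φ ∈ S, ∀ u v, F.Adj u v → Arc (φ u) (φ v) → (u, v) ∈ R)
    {φ₀ : α → V} (hagree : ∀ φ ∈ S, ∀ x ∈ E, φ x = φ₀ x) :
    ((S.image (proj (E ∪ W))).card : ℝ) ≤
      (8 * Real.exp 2) ^ W.card * κ ^ (2 * (newE F E W).card) *
        ((n : ℝ) ^ W.card * q ^ (newE F E W).card) := by
  have hn1 : (1 : ℝ) ≤ n := by exact_mod_cast hn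
  have hn0 : (0 : ℝ) < n := by linarith
  have hκ0 : (0 : ℝ) < κ := by linarith
  by_cases hS : S.Nonempty
  swap
  · rw [Finset.not_nonempty_iff_eq_empty] at hS
    rw [hS]
    simp only [Finset.image_empty, Finset.card_empty, Nat.cast_zero]
    positivity
  obtain ⟨φ₁, hφ₁⟩ := hS
  set R' : Finset (α × α) := R.filter (fun p => p.1 ∈ W ∧ p.2 ∈ W) with hR'
  have hb : IsBlock R' E W := by
    refine ⟨hne, hdisj, ?_, ?_⟩
    · intro u v huv _
      exact Finset.mem_union_right _ (Finset.mem_filter.1 huv).2.2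
    · intro x hx D hxD hDW hDne
      obtain ⟨u, hu, v, hv, huv⟩ := hconn D ⟨x, hxD⟩ hDW hDne
      refine ⟨u, hu, v, hv, Finset.mem_filter.2 ⟨huv, hDW hu, (Finset.mem_sdiff.1 hv).1⟩⟩
  have hRF' : ∀ u v, (u, v) ∈ R' → F.Adj u v := fun u v h => hRF u v (Finset.mem_filter.1 h).1
  have hab := newE_card R' hRF' hb
  set a := W.card with ha
  set m := (newE F E W).card with hm
  have ha1 : 1 ≤ a := Finset.card_pos.2 hne
  have h2m : a * T ≤ 2 * m := by
    have h1 := sum_newE_single_le (F := F) E W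
    have h2 : ∑ _z ∈ W, T ≤ ∑ z ∈ W, (newE F (E ∪ W.erase z) {z}).card :=
      Finset.sum_le_sum hdeg
    simp only [Finset.sum_const, smul_eq_mul] at h2
    rw [← ha] at h2
    omega
  have hm1 : 1 ≤ m := by
    have : 1 ≤ a * T := Nat.mul_pos ha1 hT
    omega
  have hρ : Real.exp (-(a : ℝ)) ≤ (n : ℝ) ^ a * q ^ m :=
    hnum _ _ (capacity_noArc Arc M c hcap hEW (hinj φ₁ hφ₁) (hhom φ₁ hφ₁) (hSR' φ₁ hφ₁))
  obtain ⟨t, _, hdich, hcount⟩ := block_count hG hq0 hq1 hn Arc c hc hb S ⟨φ₁, hφ₁⟩ hinj hhom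
    (fun φ hφ d hd => hSR φ hφ d (Finset.mem_filter.1 hd).1) hagree hm1
  have hcast : ((S.image (proj (E ∪ W))).card : ℝ) ≤ (a : ℝ) * (t * a) * c ^ (a - 1) := by
    exact_mod_cast hcount
  refine hcast.trans ?_
  exact peel_numeric ha1 hab hT hκ h2m hcZ hLZ (Real.log_nonneg hn1) (by positivity) hρ hdich

/-- A minimal nonempty subset of `W` closed in `W`. -/
lemma exists_min_closed (R : Finset (α × α)) {W : Finset α} (hne : W.Nonempty) :
    ∃ C ⊆ W, C.Nonempty ∧ (∀ u v, (u, v) ∈ R → u ∈ C → v ∈ W → v ∈ C) ∧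
      ∀ D : Finset α, D.Nonempty → D ⊆ C → D ≠ C → ∃ u ∈ D, ∃ v ∈ C \ D, (u, v) ∈ R := by
  let 𝒞 := W.powerset.filter (fun C => C.Nonempty ∧ ∀ u v, (u, v) ∈ R → u ∈ C → v ∈ W → v ∈ C)
  have h𝒞 : 𝒞.Nonempty :=
    ⟨W, Finset.mem_filter.2 ⟨Finset.mem_powerset.2 (Finset.Subset.refl _), hne,
      fun _ _ _ _ h => h⟩⟩
  obtain ⟨C, hC, hmin⟩ := Finset.exists_min_image 𝒞 Finset.card h𝒞
  obtain ⟨h1, h2, h3⟩ := Finset.mem_filter.1 hC
  have h1' := Finset.mem_powerset.1 h1
  refine ⟨C, h1', h2, h3, ?_⟩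
  intro D hDne hDC hDneC
  by_contra hcon
  push Not at hcon
  have hD : D ∈ 𝒞 := by
    refine Finset.mem_filter.2 ⟨Finset.mem_powerset.2 (hDC.trans h1'), hDne, ?_⟩
    intro u v huv hu hv
    by_contra hvD
    exact hcon u hu v (Finset.mem_sdiff.2 ⟨h3 u v huv (hDC hu) hv, hvD⟩) huv
  have h4 := hmin D hD
  have h5 : D.card < C.card := Finset.card_lt_card (hDC.ssubset_of_ne hDneC)
  omega

/-- The main induction: peel light vertices, split along closed sets, bound strong blocks. -/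
theorem peel_main (hG : GoodDensity n q H) (hq0 : 0 < q) (hq1 : q ≤ 1) (hn : 1 ≤ n)
    (hV : Fintype.card V ≤ n) (Arc : V → V → Prop) (M c : ℕ)
    (hc : ∀ a, (univ.filter fun b => Arc a b).card ≤ c)
    (hcap : ∀ (T : Finset (Sym2 V)) (D : Finset V), (∀ e ∈ T, e ∈ H.edgeSet) →
      (∀ a b, s(a, b) ∈ T → Arc a b → a ∈ D) → M * T.card ≤ c * D.card)
    (hnum : ∀ a m : ℕ, M * m ≤ c * a → Real.exp (-(a : ℝ)) ≤ (n : ℝ) ^ a * q ^ m)
    {κ : ℝ} (hκ : 2 ≤ κ) {T : ℕ} (hT : 1 ≤ T) (hcZ : (c : ℝ) ≤ κ ^ T)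
    (hLZ : (T : ℝ) * Real.log n ≤ κ ^ T)
    (hlight : ∀ d : ℕ, 1 ≤ d → d < T →
      (d : ℝ) * Real.log n ≤ (8 * Real.exp 2) * ((n : ℝ) * q ^ d))
    {R : Finset (α × α)} (hRF : ∀ u v, (u, v) ∈ R → F.Adj u v) (k : ℕ) :
    ∀ (E W : Finset α) (S : Finset (α → V)) (φ₀ : α → V), W.card ≤ k → Disjoint W E →
      (∀ u v, (u, v) ∈ R → u ∈ E → v ∉ W) →
      (∀ φ ∈ S, Function.Injective φ) →
      (∀ φ ∈ S, ∀ u v, F.Adj u v → H.Adj (φ u) (φ v)) →
      (∀ φ ∈ S, ∀ d ∈ R, Arc (φ d.1) (φ d.2)) →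
      (∀ φ ∈ S, ∀ u v, F.Adj u v → Arc (φ u) (φ v) → (u, v) ∈ R) →
      (∀ φ ∈ S, ∀ x ∈ E, φ x = φ₀ x) →
      ((S.image (proj (E ∪ W))).card : ℝ) ≤
        (8 * Real.exp 2) ^ W.card * κ ^ (2 * (newE F E W).card) *
          ((n : ℝ) ^ W.card * q ^ (newE F E W).card) := by
  have hn1 : (1 : ℝ) ≤ n := by exact_mod_cast hn
  have hn0 : (0 : ℝ) < n := by linarith
  have hκ0 : (0 : ℝ) < κ := by linarith
  have hκ1 : (1 : ℝ) ≤ κ := by linarith
  have hE2 : (1 : ℝ) ≤ Real.exp 2 := Real.one_le_exp (by norm_num)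
  have hA : Real.exp 2 ≤ 8 * Real.exp 2 := by linarith
  induction k with
  | zero =>
    intro E W S φ₀ hW _ _ _ _ _ _ hagree
    have hW0 : W = ∅ := Finset.card_eq_zero.1 (Nat.le_zero.1 hW)
    subst hW0
    have h1 : (S.image (proj (E ∪ ∅))).card ≤ 1 := by
      refine Finset.card_le_one.2 ?_
      intro a ha b hb
      obtain ⟨φ, hφ, rfl⟩ := Finset.mem_image.1 ha
      obtain ⟨φ', hφ', rfl⟩ := Finset.mem_image.1 hb
      funext x
      rw [Finset.union_empty]
      by_cases hxE : x ∈ E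
      · simp [proj, hxE, hagree φ hφ x hxE, hagree φ' hφ' x hxE]
      · simp [proj, hxE]
    have h2 : (newE F E ∅).card = 0 := by
      have : newE F E ∅ = ∅ := by
        unfold newE
        simp
      rw [this]
      rfl
    rw [h2]
    simp only [Finset.card_empty, pow_zero, mul_zero, mul_one]
    exact_mod_cast h1
  | succ k ih =>
    intro E W S φ₀ hW hdisj hEW hinj hhom hSR hSR' hagree
    by_cases hne : W.Nonempty
    swap
    · rw [Finset.not_nonempty_iff_eq_empty] at hne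
      subst hne
      exact ih E ∅ S φ₀ (by simp) hdisj hEW hinj hhom hSR hSR' hagree
    by_cases hl : ∃ z ∈ W, (newE F (E ∪ W.erase z) {z}).card < T
    · -- peel a light vertex
      obtain ⟨z, hzW, hzT⟩ := hl
      set W' := W.erase z with hW'
      set D := E ∪ W' with hD
      have hzE : z ∉ E := fun h => Finset.disjoint_left.1 hdisj hzW h
      have hzD : z ∉ D := by
        intro h
        rcases Finset.mem_union.1 h with h | h
        · exact hzE h
        · exact (Finset.mem_erase.1 h).1 rfl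
      have hWz : W = W' ∪ {z} := by
        ext y
        simp only [hW', Finset.mem_union, Finset.mem_erase, Finset.mem_singleton]
        by_cases hy : y = z
        · subst hy
          simp [hzW]
        · simp [hy]
      have hcardW : W.card = W'.card + 1 := by
        rw [hW', Finset.card_erase_add_one hzW]
      have hU : E ∪ W = D ∪ {z} := by
        rw [hD, Finset.union_assoc, ← hWz]
      have hsplit := newE_card_split (F := F) E W' {z}
      rw [← hWz] at hsplit
      set d := (newE F D {z}).card with hd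
      have hstep := card_image_proj_step_real S (D := D) (D' := E ∪ W)
        (by rw [hU]; exact Finset.subset_union_left)
        (B := (8 * Real.exp 2) * κ ^ (2 * d) * ((n : ℝ) * q ^ d)) (by positivity) (by
          intro φ₁ hφ₁
          rw [hU]
          have hsub : S.filter (fun φ => proj D φ = proj D φ₁) ⊆ S := Finset.filter_subset _ _
          exact peel_light hG hq0 hq1 hn hV hA hκ1 T hlight hzD hzT _
            (fun φ hφ => hinj φ (hsub hφ)) (fun φ hφ => hhom φ (hsub hφ))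
            (φ₀ := φ₁) (fun φ hφ x hx => proj_eq_apply hx (Finset.mem_filter.1 hφ).2))
      have hih := ih E W' S φ₀ (by omega)
        (Finset.disjoint_of_subset_left (Finset.erase_subset _ _) hdisj)
        (fun u v huv hu hv => hEW u v huv hu (Finset.mem_of_mem_erase hv)) hinj hhom hSR hSR' hagree
      have hB : (0 : ℝ) ≤ (8 * Real.exp 2) * κ ^ (2 * d) * ((n : ℝ) * q ^ d) := by positivity
      calc ((S.image (proj (E ∪ W))).card : ℝ)
          ≤ (8 * Real.exp 2) * κ ^ (2 * d) * ((n : ℝ) * q ^ d) * (S.image (proj D)).card := hstep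
        _ ≤ (8 * Real.exp 2) * κ ^ (2 * d) * ((n : ℝ) * q ^ d) *
            ((8 * Real.exp 2) ^ W'.card * κ ^ (2 * (newE F E W').card) *
              ((n : ℝ) ^ W'.card * q ^ (newE F E W').card)) :=
            mul_le_mul_of_nonneg_left hih hB
        _ = _ := by
            rw [hcardW, hsplit]
            ring
    · push Not at hl
      obtain ⟨C, hCW, hCne, hCcl, hCconn⟩ := exists_min_closed R hne
      by_cases hCeq : C = W
      · subst hCeq
        exact peel_block hG hq0 hq1 hn Arc M c hc hcap hnum hκ hT hcZ hLZ hRF hne hdisj hEW hCconn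
          hl S hinj hhom hSR hSR' hagree
      · -- split along the closed set `C`
        set W₂ := W \ C with hW₂
        have hCcard : C.card < W.card := Finset.card_lt_card (hCW.ssubset_of_ne hCeq)
        have hWU : W = C ∪ W₂ := by
          rw [hW₂, Finset.union_sdiff_of_subset hCW]
        have hcardW : W.card = C.card + W₂.card := by
          have : Disjoint C W₂ := Finset.disjoint_sdiff
          conv_lhs => rw [hWU]
          exact Finset.card_union_of_disjoint this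
        have hCpos : 1 ≤ C.card := Finset.card_pos.2 hCne
        have hU : E ∪ W = (E ∪ C) ∪ W₂ := by
          rw [Finset.union_assoc, ← hWU]
        have hsplit := newE_card_split (F := F) E C W₂
        rw [← hWU] at hsplit
        have hih1 := ih E C S φ₀ (by omega)
          (Finset.disjoint_of_subset_left hCW hdisj)
          (fun u v huv hu hv => hEW u v huv hu (hCW hv)) hinj hhom hSR hSR' hagree
        set B₁ : ℝ := (8 * Real.exp 2) ^ W₂.card * κ ^ (2 * (newE F (E ∪ C) W₂).card) *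
            ((n : ℝ) ^ W₂.card * q ^ (newE F (E ∪ C) W₂).card) with hB₁
        have hB₁0 : 0 ≤ B₁ := by positivity
        have hstep := card_image_proj_step_real S (D := E ∪ C) (D' := E ∪ W)
          (Finset.union_subset_union_right hCW) hB₁0 (by
            intro φ₁ hφ₁
            rw [hU]
            have hsub : S.filter (fun φ => proj (E ∪ C) φ = proj (E ∪ C) φ₁) ⊆ S :=
              Finset.filter_subset _ _
            refine ih (E ∪ C) W₂ _ φ₁ (by omega) ?_ ?_ (fun φ hφ => hinj φ (hsub hφ))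
              (fun φ hφ => hhom φ (hsub hφ)) (fun φ hφ => hSR φ (hsub hφ))
              (fun φ hφ => hSR' φ (hsub hφ))
              (fun φ hφ x hx => proj_eq_apply hx (Finset.mem_filter.1 hφ).2)
            · rw [Finset.disjoint_left]
              intro y hy hy2
              obtain ⟨h1, h2⟩ := Finset.mem_sdiff.1 hy
              rcases Finset.mem_union.1 hy2 with h3 | h3
              · exact Finset.disjoint_left.1 hdisj h1 h3
              · exact h2 h3
            · intro u v huv hu hv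
              obtain ⟨h1, h2⟩ := Finset.mem_sdiff.1 hv
              rcases Finset.mem_union.1 hu with h3 | h3
              · exact hEW u v huv h3 h1
              · exact h2 (hCcl u v huv h3 h1))
        calc ((S.image (proj (E ∪ W))).card : ℝ)
            ≤ B₁ * (S.image (proj (E ∪ C))).card := hstep
          _ ≤ B₁ * ((8 * Real.exp 2) ^ C.card * κ ^ (2 * (newE F E C).card) *
                ((n : ℝ) ^ C.card * q ^ (newE F E C).card)) :=
              mul_le_mul_of_nonneg_left hih1 hB₁0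
          _ = _ := by
              rw [hcardW, hsplit, hB₁]
              ring

/-- The bound for one pattern of orientations. -/
theorem fam_bound_peel (hG : GoodDensity n q H) (hq0 : 0 < q) (hq1 : q ≤ 1) (hn : 1 ≤ n)
    (hV : Fintype.card V ≤ n) (Arc : V → V → Prop) (M c : ℕ)
    (hc : ∀ a, (univ.filter fun b => Arc a b).card ≤ c)
    (hcap : ∀ (T : Finset (Sym2 V)) (D : Finset V), (∀ e ∈ T, e ∈ H.edgeSet) →
      (∀ a b, s(a, b) ∈ T → Arc a b → a ∈ D) → M * T.card ≤ c * D.card)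
    (hnum : ∀ a m : ℕ, M * m ≤ c * a → Real.exp (-(a : ℝ)) ≤ (n : ℝ) ^ a * q ^ m)
    {κ : ℝ} (hκ : 2 ≤ κ) {T : ℕ} (hT : 1 ≤ T) (hcZ : (c : ℝ) ≤ κ ^ T)
    (hLZ : (T : ℝ) * Real.log n ≤ κ ^ T)
    (hlight : ∀ d : ℕ, 1 ≤ d → d < T →
      (d : ℝ) * Real.log n ≤ (8 * Real.exp 2) * ((n : ℝ) * q ^ d))
    {R : Finset (α × α)} (hRF : ∀ u v, (u, v) ∈ R → F.Adj u v)
    (S : Finset (α → V)) (hinj : ∀ φ ∈ S, Function.Injective φ)
    (hhom : ∀ φ ∈ S, ∀ u v, F.Adj u v → H.Adj (φ u) (φ v))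
    (hSR : ∀ φ ∈ S, ∀ d ∈ R, Arc (φ d.1) (φ d.2))
    (hSR' : ∀ φ ∈ S, ∀ u v, F.Adj u v → Arc (φ u) (φ v) → (u, v) ∈ R) :
    (S.card : ℝ) ≤ (8 * Real.exp 2) ^ Fintype.card α * κ ^ (2 * (eIn F univ).card) *
      ((n : ℝ) ^ Fintype.card α * q ^ (eIn F univ).card) := by
  by_cases hS : S.Nonempty
  swap
  · rw [Finset.not_nonempty_iff_eq_empty] at hS
    rw [hS]
    have hn1 : (1 : ℝ) ≤ n := by exact_mod_cast hn
    have hκ0 : (0 : ℝ) < κ := by linarith
    simp only [Finset.card_empty, Nat.cast_zero]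
    positivity
  obtain ⟨φ₀, _⟩ := hS
  have h1 := peel_main hG hq0 hq1 hn hV Arc M c hc hcap hnum hκ hT hcZ hLZ hlight hRF
    (Fintype.card α) ∅ univ S φ₀ (by simp) (by simp)
    (fun _ _ _ h => absurd h (Finset.notMem_empty _)) hinj hhom hSR hSR'
    (fun _ _ _ h => absurd h (Finset.notMem_empty _))
  have h2 : (S.image (proj ((∅ : Finset α) ∪ univ))).card = S.card := by
    rw [Finset.empty_union]
    exact Finset.card_image_of_injective _ proj_univ_injective
  have h3 : (newE F ∅ univ).card = (eIn F univ).card := by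
    unfold newE
    rw [eIn_empty, Finset.empty_union, Finset.sdiff_empty]
  rw [h2, h3, Finset.card_univ] at h1
  exact h1

/-- Sum over all patterns. -/
theorem emb_bound_peel (hG : GoodDensity n q H) (hq0 : 0 < q) (hq1 : q ≤ 1) (hn : 1 ≤ n)
    (hV : Fintype.card V ≤ n) (Arc : V → V → Prop) (M c : ℕ)
    (hc : ∀ a, (univ.filter fun b => Arc a b).card ≤ c)
    (hcap : ∀ (T : Finset (Sym2 V)) (D : Finset V), (∀ e ∈ T, e ∈ H.edgeSet) →
      (∀ a b, s(a, b) ∈ T → Arc a b → a ∈ D) → M * T.card ≤ c * D.card)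
    (hnum : ∀ a m : ℕ, M * m ≤ c * a → Real.exp (-(a : ℝ)) ≤ (n : ℝ) ^ a * q ^ m)
    {κ : ℝ} (hκ : 2 ≤ κ) {T : ℕ} (hT : 1 ≤ T) (hcZ : (c : ℝ) ≤ κ ^ T)
    (hLZ : (T : ℝ) * Real.log n ≤ κ ^ T)
    (hlight : ∀ d : ℕ, 1 ≤ d → d < T →
      (d : ℝ) * Real.log n ≤ (8 * Real.exp 2) * ((n : ℝ) * q ^ d)) :
    ((emb F H).card : ℝ) ≤ 4 ^ (eIn F univ).card *
      ((8 * Real.exp 2) ^ Fintype.card α * κ ^ (2 * (eIn F univ).card) *
        ((n : ℝ) ^ Fintype.card α * q ^ (eIn F univ).card)) := by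
  have hn1 : (1 : ℝ) ≤ n := by exact_mod_cast hn
  have hn0 : (0 : ℝ) < n := by linarith
  have hκ0 : (0 : ℝ) < κ := by linarith
  set B : ℝ := (8 * Real.exp 2) ^ Fintype.card α * κ ^ (2 * (eIn F univ).card) *
        ((n : ℝ) ^ Fintype.card α * q ^ (eIn F univ).card) with hB
  have hB0 : 0 ≤ B := by positivity
  let pat : (α → V) → Finset (α × α) := fun φ => (darts F).filter (fun d => Arc (φ d.1) (φ d.2))
  have h1 := Finset.card_le_mul_card_image (f := pat) (emb F H) ⌊B⌋₊ ?_
  · have h2 : ((emb F H).image pat).card ≤ 2 ^ (darts F).card := by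
      have : (emb F H).image pat ⊆ (darts F).powerset := by
        intro R hR
        obtain ⟨φ, _, rfl⟩ := Finset.mem_image.1 hR
        exact Finset.mem_powerset.2 (Finset.filter_subset _ _)
      exact (Finset.card_le_card this).trans (by rw [Finset.card_powerset])
    have h3 : (2 : ℕ) ^ (darts F).card ≤ 4 ^ (eIn F univ).card := by
      calc (2 : ℕ) ^ (darts F).card ≤ 2 ^ (2 * (eIn F univ).card) :=
            Nat.pow_le_pow_right (by norm_num) darts_card_le
        _ = 4 ^ (eIn F univ).card := by rw [pow_mul]; norm_num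
    have h4 : (emb F H).card ≤ ⌊B⌋₊ * 4 ^ (eIn F univ).card :=
      h1.trans (Nat.mul_le_mul_left _ (h2.trans h3))
    have hfloor : ((⌊B⌋₊ : ℕ) : ℝ) ≤ B := Nat.floor_le hB0
    calc ((emb F H).card : ℝ) ≤ ((⌊B⌋₊ : ℕ) : ℝ) * 4 ^ (eIn F univ).card := by exact_mod_cast h4
      _ ≤ B * 4 ^ (eIn F univ).card := mul_le_mul_of_nonneg_right hfloor (by positivity)
      _ = _ := mul_comm _ _
  · intro R hR
    obtain ⟨φ₁, hφ₁, rfl⟩ := Finset.mem_image.1 hR
    apply Nat.le_floor
    set S := (emb F H).filter (fun φ => pat φ = pat φ₁) with hS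
    have hSe : ∀ φ ∈ S, φ ∈ emb F H := fun φ hφ => (Finset.mem_filter.1 hφ).1
    have hSp : ∀ φ ∈ S, pat φ = pat φ₁ := fun φ hφ => (Finset.mem_filter.1 hφ).2
    refine fam_bound_peel hG hq0 hq1 hn hV Arc M c hc hcap hnum hκ hT hcZ hLZ hlight
      (R := pat φ₁) ?_ S ?_ ?_ ?_ ?_
    · intro u v h
      exact (Finset.mem_filter.1 (Finset.mem_filter.1 h).1).2
    · intro φ hφ
      exact (Finset.mem_filter.1 (hSe φ hφ)).2.1
    · intro φ hφ
      exact (Finset.mem_filter.1 (hSe φ hφ)).2.2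
    · intro φ hφ d hd
      rw [← hSp φ hφ] at hd
      exact (Finset.mem_filter.1 hd).2
    · intro φ hφ u v huv harc
      rw [← hSp φ hφ]
      exact Finset.mem_filter.2 ⟨Finset.mem_filter.2 ⟨mem_univ _, huv⟩, harc⟩

end Vale.Agent.Lib.P064
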