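import Vale.Agent.Lib.P064.PeelNum

/-!
The thresholds when `p_E` is not too small.
-/

open Finset

namespace Vale.Agent.Lib.P064

open scoped Classical

section Core

variable {V : Type} [Fintype V] {H : SimpleGraph V} {n : ℕ}

lemma exists_adj_of_ne_bot (hH : H ≠ ⊥) : ∃ a b, H.Adj a b := by
  by_contra hcon
  push Not at hcon
  apply hH
  ext x y
  simp [hcon x y]

/-- Every density in the `p_E` set is at least `1 / (2 n²)`. -/
lemma lower_of_mem (hn : 2 ≤ n) (hH : H ≠ ⊥) {p : ℝ} (h0 : 0 ≤ p) (h1 : p ≤ 1)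
    (hp : ∀ F : H.Subgraph, 1 / 2 ≤ expCount n p F.coe) :
    1 / (2 * (n : ℝ) ^ 2) ≤ p := by
  have hG := good_of_subgraphs h0 h1 hp
  obtain ⟨a, b, hab⟩ := exists_adj_of_ne_bot hH
  have hn1 : (1 : ℝ) ≤ n := by
    have : (1 : ℕ) ≤ n := by omega
    exact_mod_cast this
  have hp0 : 0 < p := by
    rcases h0.lt_or_eq with h | h
    · exact h
    · exfalso
      have hne : H.edgeSet.Nonempty := ⟨s(a, b), hab⟩
      have h2 := hG V H ⟨SimpleGraph.Iso.refl.toCopy⟩ hne
      have h3 : H.edgeSet.ncard ≠ 0 := Set.ncard_ne_zero_of_mem hne.choose_spec (Set.toFinite _)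
      rw [← h, mul_zero, zero_pow h3, mul_zero] at h2
      norm_num at h2
  by_cases hq1 : 2 * p ≤ 1
  · have h2 := density_of_good hG (by linarith) hq1 {s(a, b)} (by simpa using hab)
      (Finset.singleton_nonempty _)
    simp only [Finset.singleton_biUnion, Finset.card_singleton, pow_one] at h2
    have h3 : (s(a, b) : Sym2 V).toFinset.card ≤ 2 := by
      have : (s(a, b) : Sym2 V).toFinset ⊆ {a, b} := by
        intro z hz
        rw [Sym2.mem_toFinset, Sym2.mem_iff] at hz
        simpa using hz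
      exact (Finset.card_le_card this).trans Finset.card_le_two
    have h4 : (n : ℝ) ^ (s(a, b) : Sym2 V).toFinset.card ≤ (n : ℝ) ^ 2 :=
      pow_le_pow_right₀ hn1 h3
    have h5 : (1 : ℝ) ≤ (n : ℝ) ^ 2 * (2 * p) :=
      h2.trans (mul_le_mul_of_nonneg_right h4 (by linarith))
    rw [div_le_iff₀ (by positivity)]
    linarith
  · push Not at hq1
    have hn2 : (1 : ℝ) ≤ (n : ℝ) ^ 2 := one_le_pow₀ hn1
    rw [div_le_iff₀ (by positivity)]
    nlinarith

lemma pE_set_nonempty (ι : V ↪ Fin n) :
    {p : ℝ | 0 ≤ p ∧ p ≤ 1 ∧ ∀ F : H.Subgraph, 1 / 2 ≤ expCount n p F.coe}.Nonempty :=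
  ⟨1, by norm_num, le_rfl, fun F => one_mem_pE_set ι F⟩

lemma pE_pos (hn : 2 ≤ n) (hV : Fintype.card V ≤ n) (hH : H ≠ ⊥) : 0 < pE n H := by
  obtain ⟨ι⟩ : Nonempty (V ↪ Fin n) :=
    Function.Embedding.nonempty_of_card_le (by simpa using hV)
  have hn0 : (0 : ℝ) < n := by
    have : 0 < n := by omega
    exact_mod_cast this
  have h1 : 1 / (2 * (n : ℝ) ^ 2) ≤ pE n H := by
    refine le_csInf (pE_set_nonempty ι) ?_
    rintro p ⟨h0, h1, hp⟩
    exact lower_of_mem hn hH h0 h1 hp
  have h2 : 0 < 1 / (2 * (n : ℝ) ^ 2) := by positivity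
  linarith

lemma pE_le_one (hV : Fintype.card V ≤ n) : pE n H ≤ 1 := by
  obtain ⟨ι⟩ : Nonempty (V ↪ Fin n) :=
    Function.Embedding.nonempty_of_card_le (by simpa using hV)
  exact csInf_le ⟨0, fun _ hy => hy.1⟩ ⟨by norm_num, le_rfl, fun F => one_mem_pE_set ι F⟩

lemma pc_le_one (hV : Fintype.card V ≤ n) : pc n H ≤ 1 := by
  obtain ⟨ι⟩ : Nonempty (V ↪ Fin n) :=
    Function.Embedding.nonempty_of_card_le (by simpa using hV)
  exact pc_le_of_mem (by norm_num) le_rfl (one_mem_pc_set ι)

lemma pTilde_le_one (hV : Fintype.card V ≤ n) : pTilde n H ≤ 1 := by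
  refine csInf_le ⟨0, fun _ hy => hy.1⟩ ⟨by norm_num, le_rfl, ?_⟩
  intro F
  rw [expCount_eq, one_pow, mul_one]
  have h2 : (H.copyCount F.coe : ℝ) ≤ ((⊤ : SimpleGraph (Fin n)).copyCount F.coe : ℝ) := by
    exact_mod_cast copyCount_le_top hV F.coe
  have h3 : (0 : ℝ) ≤ (H.copyCount F.coe : ℝ) := Nat.cast_nonneg _
  linarith

/-- The constant of the dense bound. -/
noncomputable def denseConst : ℝ := 4 * (1280 * Real.exp 44)

/-- The core dichotomy in the dense range. -/
theorem dense_core (hn : 2 ≤ n) (hV : Fintype.card V ≤ n) (hH : H ≠ ⊥)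
    (hx : 100 ≤ Real.log n) (hQ : 2 * Real.log (1 / pE n H) < Real.log n) :
    1 ≤ 4 * Real.exp 1 * pE n H ∨
      ∃ Θ : ℝ, 0 < Θ ∧ EmbBound n H Θ ∧
        Θ ≤ denseConst * pE n H * (1 + Real.log n) ^ (2 * Real.log (1 / pE n H) / Real.log n) := by
  obtain ⟨ι⟩ : Nonempty (V ↪ Fin n) :=
    Function.Embedding.nonempty_of_card_le (by simpa using hV)
  have hE0 := pE_pos hn hV hH
  have hlt : pE n H < 2 * pE n H := by linarith
  obtain ⟨p, ⟨h0, h1, hp⟩, hp2⟩ := exists_lt_of_csInf_lt (pE_set_nonempty (H := H) ι) hlt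
  have hpE : pE n H ≤ p := csInf_le ⟨0, fun _ hy => hy.1⟩ ⟨h0, h1, hp⟩
  have hp0 : 0 < p := by linarith
  set q := 2 * p with hq
  have hq0 : 0 < q := by positivity
  have hq4 : q ≤ 4 * pE n H := by linarith
  by_cases hqe : Real.exp (-1) < q
  · left
    have h2 : Real.exp (-1) * Real.exp 1 = 1 := by
      rw [← Real.exp_add]
      simp
    have h3 : 0 < Real.exp 1 := Real.exp_pos _
    calc (1 : ℝ) = Real.exp (-1) * Real.exp 1 := h2.symm
      _ ≤ q * Real.exp 1 := mul_le_mul_of_nonneg_right hqe.le h3.le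
      _ ≤ (4 * pE n H) * Real.exp 1 := mul_le_mul_of_nonneg_right hq4 h3.le
      _ = _ := by ring
  · right
    push Not at hqe
    have hG : GoodDensity n q H := good_of_subgraphs h0 h1 hp
    have hlog : - Real.log q ≤ Real.log (1 / pE n H) := by
      rw [one_div, Real.log_inv]
      have : Real.log (pE n H) ≤ Real.log q := Real.log_le_log hE0 (by linarith)
      linarith
    obtain ⟨Θ, hΘ0, hΘ, hΘle⟩ := embBound_dense (by omega) hV hq0 hqe hG hx (by linarith)
    refine ⟨Θ, hΘ0, hΘ, hΘle.trans ?_⟩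
    have hxpos : 0 < Real.log n := by linarith
    have hℓ : 0 < 1 + Real.log n := by linarith
    have hy0 : 0 ≤ Real.log (1 + Real.log n) := Real.log_nonneg (by linarith)
    rw [Real.rpow_def_of_pos hℓ]
    have h2 : 2 * (- Real.log q) * Real.log (1 + Real.log n) / Real.log n ≤
        Real.log (1 + Real.log n) * (2 * Real.log (1 / pE n H) / Real.log n) := by
      rw [mul_div_assoc', div_le_div_iff_of_pos_right hxpos]
      nlinarith
    have h3 := Real.exp_le_exp.2 h2
    have h4 : 0 ≤ 1280 * Real.exp 44 := by positivity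
    unfold denseConst
    calc 1280 * Real.exp 44 * q *
          Real.exp (2 * (- Real.log q) * Real.log (1 + Real.log n) / Real.log n)
        ≤ 1280 * Real.exp 44 * (4 * pE n H) *
          Real.exp (Real.log (1 + Real.log n) * (2 * Real.log (1 / pE n H) / Real.log n)) := by
          apply mul_le_mul _ h3 (Real.exp_pos _).le (by positivity)
          exact mul_le_mul_of_nonneg_left hq4 h4
      _ = _ := by ring

end Core

/-- The exponent `min 1 (2 log (1/p_E) / log n)`. -/
lemma peel_factor_ge_one {x z : ℝ} (hx : 0 < x) (hz : 0 ≤ z) :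
    1 ≤ (1 + x) ^ (min 1 z) :=
  Real.one_le_rpow (by linarith) (le_min (by norm_num) hz)

/-- `p_c(n,H) ≤ C p_E log n (1 + log n)^min(1, 2 log(1/p_E)/log n)`. -/
theorem pc_le_pE_dense :
    ∃ C : ℝ, 0 < C ∧ ∀ n : ℕ, 2 ≤ n → ∀ (V : Type) [Fintype V] (H : SimpleGraph V),
      Fintype.card V ≤ n → H ≠ ⊥ →
      pc n H ≤ C * pE n H * Real.log n *
        (1 + Real.log n) ^ (min 1 (2 * Real.log (1 / pE n H) / Real.log n)) := by
  obtain ⟨C₀, hC₀, hmain⟩ := pc_le_pE_log_sq
  refine ⟨100 * C₀ + C₀ + 8 * Real.exp 1 + 512 * denseConst, ?_, ?_⟩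
  · unfold denseConst
    positivity
  intro n hn V _ H hV hH
  have hn2 : (2 : ℝ) ≤ n := by exact_mod_cast hn
  have hx : 0 < Real.log n := Real.log_pos (by linarith)
  have hx12 : 1 / 2 ≤ Real.log n := by
    have h1 : Real.log 2 ≤ Real.log n := Real.log_le_log (by norm_num) hn2
    have h2 := Real.log_two_gt_d9
    linarith
  have hE0 := pE_pos hn hV hH
  have hE1 : pE n H ≤ 1 := pE_le_one hV
  have hQ0 : 0 ≤ Real.log (1 / pE n H) := by
    rw [one_div]
    exact Real.log_nonneg (by rw [one_le_inv₀ hE0]; exact hE1)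
  set z := 2 * Real.log (1 / pE n H) / Real.log n with hz
  have hz0 : 0 ≤ z := by positivity
  have hF := peel_factor_ge_one hx hz0
  set P := pE n H * Real.log n * (1 + Real.log n) ^ (min 1 z) with hP
  have hP0 : 0 ≤ P := by positivity
  have hgoal : (100 * C₀ + C₀ + 8 * Real.exp 1 + 512 * denseConst) * pE n H * Real.log n *
      (1 + Real.log n) ^ (min 1 z) = (100 * C₀ + C₀ + 8 * Real.exp 1 + 512 * denseConst) * P := by
    rw [hP]
    ring
  rw [hgoal]
  have he0 : 0 ≤ Real.exp 1 := (Real.exp_pos _).le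
  have hd0 : 0 ≤ denseConst := by
    unfold denseConst
    positivity
  have hPx : pE n H * Real.log n ≤ P := by
    have h1 : 0 ≤ pE n H * Real.log n := by positivity
    rw [hP]
    nlinarith
  have hA := hmain n hn V H hV hH
  by_cases hc1 : Real.log n < 100
  · -- small `n`
    have h1 : pE n H * Real.log n ^ 2 ≤ 100 * (pE n H * Real.log n) := by
      have : Real.log n ^ 2 ≤ 100 * Real.log n := by nlinarith
      nlinarith
    have h2 : C₀ * pE n H * Real.log n ^ 2 ≤ C₀ * (100 * P) := by
      calc C₀ * pE n H * Real.log n ^ 2 = C₀ * (pE n H * Real.log n ^ 2) := by ring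
        _ ≤ C₀ * (100 * P) := by
            apply mul_le_mul_of_nonneg_left _ hC₀.le
            linarith
    have h3 : 0 ≤ C₀ * P := by positivity
    have h4 : 0 ≤ Real.exp 1 * P := by positivity
    have h5 : 0 ≤ denseConst * P := by positivity
    nlinarith
  push Not at hc1
  by_cases hc2 : 1 ≤ z
  · -- the exponent is `1`
    have h1 : min 1 z = 1 := min_eq_left hc2
    have hP2 : pE n H * Real.log n ^ 2 ≤ P := by
      rw [hP, h1, Real.rpow_one]
      have : Real.log n ^ 2 ≤ Real.log n * (1 + Real.log n) := by nlinarith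
      have h2 : pE n H * Real.log n ^ 2 ≤ pE n H * (Real.log n * (1 + Real.log n)) :=
        mul_le_mul_of_nonneg_left this hE0.le
      calc _ ≤ _ := h2
        _ = _ := by ring
    have h2 : C₀ * pE n H * Real.log n ^ 2 ≤ C₀ * P := by
      calc C₀ * pE n H * Real.log n ^ 2 = C₀ * (pE n H * Real.log n ^ 2) := by ring
        _ ≤ C₀ * P := mul_le_mul_of_nonneg_left hP2 hC₀.le
    have h3 : 0 ≤ C₀ * P := by positivity
    have h4 : 0 ≤ Real.exp 1 * P := by positivity
    have h5 : 0 ≤ denseConst * P := by positivity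
    nlinarith
  push Not at hc2
  have hQ : 2 * Real.log (1 / pE n H) < Real.log n := by
    rw [hz, div_lt_one hx] at hc2
    exact hc2
  have hmz : min 1 z = z := min_eq_right hc2.le
  rcases dense_core hn hV hH hc1 hQ with h | ⟨Θ, hΘ0, hΘ, hΘle⟩
  · -- `p_E` is large
    have h1 := pc_le_one (n := n) (H := H) hV
    have hxx : (1 : ℝ) ≤ Real.log n := by linarith
    have h2 : pE n H ≤ pE n H * Real.log n := by nlinarith
    have h3 : 1 ≤ 4 * Real.exp 1 * P := by
      calc (1 : ℝ) ≤ 4 * Real.exp 1 * pE n H := h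
        _ ≤ 4 * Real.exp 1 * P := mul_le_mul_of_nonneg_left (h2.trans hPx) (by positivity)
    have h4 : 0 ≤ C₀ * P := by positivity
    have h5 : 0 ≤ Real.exp 1 * P := by positivity
    have h6 : 0 ≤ denseConst * P := by positivity
    nlinarith
  · have h1 := pc_le_of_embBound hn hV hH hΘ0 hΘ
    have h2 : 512 * Real.log n * Θ ≤ 512 * denseConst * P := by
      have h3 : 512 * Real.log n * Θ ≤
          512 * Real.log n * (denseConst * pE n H * (1 + Real.log n) ^ z) :=
        mul_le_mul_of_nonneg_left hΘle (by positivity)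
      refine h3.trans (le_of_eq ?_)
      rw [hP, hmz]
      ring
    have h4 : 0 ≤ C₀ * P := by positivity
    have h5 : 0 ≤ Real.exp 1 * P := by positivity
    nlinarith

/-- `tilde p_E(n,H) ≤ C p_E (1 + log n)^min(1, 2 log(1/p_E)/log n)`. -/
theorem pTilde_le_pE_dense :
    ∃ C : ℝ, 0 < C ∧ ∀ n : ℕ, 2 ≤ n → ∀ (V : Type) [Fintype V] (H : SimpleGraph V),
      Fintype.card V ≤ n → H ≠ ⊥ →
      pTilde n H ≤ C * pE n H *
        (1 + Real.log n) ^ (min 1 (2 * Real.log (1 / pE n H) / Real.log n)) := by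
  obtain ⟨C₀, hC₀, hmain⟩ := pTilde_le_pE_log
  refine ⟨100 * C₀ + C₀ + 8 * Real.exp 1 + denseConst, ?_, ?_⟩
  · unfold denseConst
    positivity
  intro n hn V _ H hV hH
  have hn2 : (2 : ℝ) ≤ n := by exact_mod_cast hn
  have hx : 0 < Real.log n := Real.log_pos (by linarith)
  have hE0 := pE_pos hn hV hH
  have hE1 : pE n H ≤ 1 := pE_le_one hV
  have hQ0 : 0 ≤ Real.log (1 / pE n H) := by
    rw [one_div]
    exact Real.log_nonneg (by rw [one_le_inv₀ hE0]; exact hE1)
  set z := 2 * Real.log (1 / pE n H) / Real.log n with hz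
  have hz0 : 0 ≤ z := by positivity
  have hF := peel_factor_ge_one hx hz0
  set P := pE n H * (1 + Real.log n) ^ (min 1 z) with hP
  have hP0 : 0 ≤ P := by positivity
  have hgoal : (100 * C₀ + C₀ + 8 * Real.exp 1 + denseConst) * pE n H *
      (1 + Real.log n) ^ (min 1 z) = (100 * C₀ + C₀ + 8 * Real.exp 1 + denseConst) * P := by
    rw [hP]
    ring
  rw [hgoal]
  have hd0 : 0 ≤ denseConst := by
    unfold denseConst
    positivity
  have hPx : pE n H ≤ P := by
    rw [hP]
    nlinarith
  have hA := hmain n hn V H hV hH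
  have h4 : 0 ≤ C₀ * P := by positivity
  have h5 : 0 ≤ Real.exp 1 * P := by positivity
  have h6 : 0 ≤ denseConst * P := by positivity
  by_cases hc1 : Real.log n < 100
  · have h2 : C₀ * pE n H * Real.log n ≤ C₀ * (100 * P) := by
      have h3 : pE n H * Real.log n ≤ 100 * P := by nlinarith
      calc C₀ * pE n H * Real.log n = C₀ * (pE n H * Real.log n) := by ring
        _ ≤ C₀ * (100 * P) := mul_le_mul_of_nonneg_left h3 hC₀.le
    nlinarith
  push Not at hc1
  by_cases hc2 : 1 ≤ z
  · have h1 : min 1 z = 1 := min_eq_left hc2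
    have hP2 : pE n H * Real.log n ≤ P := by
      rw [hP, h1, Real.rpow_one]
      exact mul_le_mul_of_nonneg_left (by linarith) hE0.le
    have h2 : C₀ * pE n H * Real.log n ≤ C₀ * P := by
      calc C₀ * pE n H * Real.log n = C₀ * (pE n H * Real.log n) := by ring
        _ ≤ C₀ * P := mul_le_mul_of_nonneg_left hP2 hC₀.le
    nlinarith
  push Not at hc2
  have hQ : 2 * Real.log (1 / pE n H) < Real.log n := by
    rw [hz, div_lt_one hx] at hc2
    exact hc2
  have hmz : min 1 z = z := min_eq_right hc2.le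
  rcases dense_core hn hV hH hc1 hQ with h | ⟨Θ, hΘ0, hΘ, hΘle⟩
  · have h1 := pTilde_le_one (n := n) (H := H) hV
    have h3 : 1 ≤ 4 * Real.exp 1 * P := by
      calc (1 : ℝ) ≤ 4 * Real.exp 1 * pE n H := h
        _ ≤ 4 * Real.exp 1 * P := mul_le_mul_of_nonneg_left hPx (by positivity)
    nlinarith
  · have h1 := pTilde_le_of_embBound hV hΘ0 hΘ
    have h2 : Θ ≤ denseConst * P := by
      refine hΘle.trans (le_of_eq ?_)
      rw [hP, hmz]
      ring
    nlinarith

/-- Conjecture Q1 in the range `p_E ≥ exp(-log n / log log n)`. -/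
theorem pc_le_pE_log_range :
    ∃ C : ℝ, 0 < C ∧ ∀ n : ℕ, 3 ≤ n → ∀ (V : Type) [Fintype V] (H : SimpleGraph V),
      Fintype.card V ≤ n → H ≠ ⊥ →
      Real.exp (-(Real.log n / Real.log (Real.log n))) ≤ pE n H →
      pc n H ≤ C * pE n H * Real.log n := by
  obtain ⟨C₀, hC₀, hmain⟩ := pc_le_pE_log_sq
  obtain ⟨C₁, hC₁, hdense⟩ := pc_le_pE_dense
  refine ⟨3 * C₀ + C₁ * Real.exp 4, by positivity, ?_⟩
  intro n hn V _ H hV hH hrange
  have hn3 : (3 : ℝ) ≤ n := by exact_mod_cast hn
  have hx : 1 ≤ Real.log n := by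
    have h1 : Real.log 3 ≤ Real.log n := Real.log_le_log (by norm_num) hn3
    have h2 : 1 ≤ Real.log 3 := by
      rw [Real.le_log_iff_exp_le (by norm_num)]
      have := Real.exp_one_lt_d9
      linarith
    linarith
  have hxpos : 0 < Real.log n := by linarith
  have hE0 := pE_pos (by omega) hV hH
  have hE1 : pE n H ≤ 1 := pE_le_one hV
  have hbase : 0 ≤ pE n H * Real.log n := by positivity
  by_cases hc : Real.log n < Real.exp 1
  · -- small `n`
    have h1 := hmain n (by omega) V H hV hH
    have h2 : Real.log n ≤ 3 := by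
      have := Real.exp_one_lt_d9
      linarith
    have h3 : C₀ * pE n H * Real.log n ^ 2 ≤ 3 * C₀ * (pE n H * Real.log n) := by
      have h4 : 0 ≤ C₀ * (pE n H * Real.log n) := by positivity
      have h5 : C₀ * pE n H * Real.log n ^ 2 = (C₀ * (pE n H * Real.log n)) * Real.log n := by ring
      rw [h5]
      nlinarith
    have h6 : 0 ≤ C₁ * Real.exp 4 * (pE n H * Real.log n) := by positivity
    nlinarith
  · push Not at hc
    have hlx : 1 ≤ Real.log (Real.log n) := by
      rw [Real.le_log_iff_exp_le hxpos]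
      exact hc
    have hlx0 : 0 < Real.log (Real.log n) := by linarith
    have h1 := hdense n (by omega) V H hV hH
    refine h1.trans ?_
    set L := Real.log (Real.log n) with hL
    have hQ : Real.log (1 / pE n H) ≤ Real.log n / L := by
      rw [one_div, Real.log_inv]
      have := Real.log_le_log (Real.exp_pos _) hrange
      rw [Real.log_exp] at this
      linarith
    have hQ0 : 0 ≤ Real.log (1 / pE n H) := by
      rw [one_div]
      exact Real.log_nonneg (by rw [one_le_inv₀ hE0]; exact hE1)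
    have hz : min 1 (2 * Real.log (1 / pE n H) / Real.log n) ≤ 2 / L := by
      refine (min_le_right _ _).trans ?_
      rw [div_le_div_iff₀ hxpos hlx0]
      have h2 : Real.log (1 / pE n H) * L ≤ Real.log n := by
        rwa [le_div_iff₀ hlx0] at hQ
      nlinarith
    have hℓ : 0 < 1 + Real.log n := by linarith
    have hy : Real.log (1 + Real.log n) ≤ 2 * L := by
      have h2 : 1 + Real.log n ≤ 2 * Real.log n := by linarith
      have h3 := Real.log_le_log hℓ h2
      rw [Real.log_mul (by norm_num) hxpos.ne'] at h3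
      have h4 : Real.log 2 ≤ 1 := by
        have := Real.log_two_lt_d9
        linarith
      linarith
    have hy0 : 0 ≤ Real.log (1 + Real.log n) := Real.log_nonneg (by linarith)
    have hfac : (1 + Real.log n) ^ (min 1 (2 * Real.log (1 / pE n H) / Real.log n)) ≤
        Real.exp 4 := by
      rw [Real.rpow_def_of_pos hℓ]
      apply Real.exp_le_exp.2
      have h2 : Real.log (1 + Real.log n) * min 1 (2 * Real.log (1 / pE n H) / Real.log n)
          ≤ Real.log (1 + Real.log n) * (2 / L) := mul_le_mul_of_nonneg_left hz hy0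
      have h3 : Real.log (1 + Real.log n) * (2 / L) ≤ 4 := by
        rw [mul_div_assoc', div_le_iff₀ hlx0]
        linarith
      linarith
    have h3 : C₁ * pE n H * Real.log n *
        (1 + Real.log n) ^ (min 1 (2 * Real.log (1 / pE n H) / Real.log n)) ≤
        C₁ * pE n H * Real.log n * Real.exp 4 :=
      mul_le_mul_of_nonneg_left hfac (by positivity)
    have h6 : 0 ≤ C₀ * (pE n H * Real.log n) := by positivity
    nlinarith

/-- `tilde p_E = O(p_E)` in the range `p_E ≥ exp(-log n / log log n)`. -/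
theorem pTilde_le_pE_range :
    ∃ C : ℝ, 0 < C ∧ ∀ n : ℕ, 3 ≤ n → ∀ (V : Type) [Fintype V] (H : SimpleGraph V),
      Fintype.card V ≤ n → H ≠ ⊥ →
      Real.exp (-(Real.log n / Real.log (Real.log n))) ≤ pE n H →
      pTilde n H ≤ C * pE n H := by
  obtain ⟨C₀, hC₀, hmain⟩ := pTilde_le_pE_log
  obtain ⟨C₁, hC₁, hdense⟩ := pTilde_le_pE_dense
  refine ⟨3 * C₀ + C₁ * Real.exp 4, by positivity, ?_⟩
  intro n hn V _ H hV hH hrange
  have hn3 : (3 : ℝ) ≤ n := by exact_mod_cast hn
  have hx : 1 ≤ Real.log n := by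
    have h1 : Real.log 3 ≤ Real.log n := Real.log_le_log (by norm_num) hn3
    have h2 : 1 ≤ Real.log 3 := by
      rw [Real.le_log_iff_exp_le (by norm_num)]
      have := Real.exp_one_lt_d9
      linarith
    linarith
  have hxpos : 0 < Real.log n := by linarith
  have hE0 := pE_pos (by omega) hV hH
  have hE1 : pE n H ≤ 1 := pE_le_one hV
  by_cases hc : Real.log n < Real.exp 1
  · -- small `n`
    have h1 := hmain n (by omega) V H hV hH
    have h2 : Real.log n ≤ 3 := by
      have := Real.exp_one_lt_d9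
      linarith
    have h3 : C₀ * pE n H * Real.log n ≤ 3 * C₀ * pE n H := by
      have h4 : 0 ≤ C₀ * pE n H := by positivity
      nlinarith
    have h6 : 0 ≤ C₁ * Real.exp 4 * pE n H := by positivity
    nlinarith
  · push Not at hc
    have hlx : 1 ≤ Real.log (Real.log n) := by
      rw [Real.le_log_iff_exp_le hxpos]
      exact hc
    have hlx0 : 0 < Real.log (Real.log n) := by linarith
    have h1 := hdense n (by omega) V H hV hH
    refine h1.trans ?_
    set L := Real.log (Real.log n) with hL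
    have hQ : Real.log (1 / pE n H) ≤ Real.log n / L := by
      rw [one_div, Real.log_inv]
      have := Real.log_le_log (Real.exp_pos _) hrange
      rw [Real.log_exp] at this
      linarith
    have hQ0 : 0 ≤ Real.log (1 / pE n H) := by
      rw [one_div]
      exact Real.log_nonneg (by rw [one_le_inv₀ hE0]; exact hE1)
    have hz : min 1 (2 * Real.log (1 / pE n H) / Real.log n) ≤ 2 / L := by
      refine (min_le_right _ _).trans ?_
      rw [div_le_div_iff₀ hxpos hlx0]
      have h2 : Real.log (1 / pE n H) * L ≤ Real.log n := by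
        rwa [le_div_iff₀ hlx0] at hQ
      nlinarith
    have hℓ : 0 < 1 + Real.log n := by linarith
    have hy : Real.log (1 + Real.log n) ≤ 2 * L := by
      have h2 : 1 + Real.log n ≤ 2 * Real.log n := by linarith
      have h3 := Real.log_le_log hℓ h2
      rw [Real.log_mul (by norm_num) hxpos.ne'] at h3
      have h4 : Real.log 2 ≤ 1 := by
        have := Real.log_two_lt_d9
        linarith
      linarith
    have hy0 : 0 ≤ Real.log (1 + Real.log n) := Real.log_nonneg (by linarith)
    have hfac : (1 + Real.log n) ^ (min 1 (2 * Real.log (1 / pE n H) / Real.log n)) ≤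
        Real.exp 4 := by
      rw [Real.rpow_def_of_pos hℓ]
      apply Real.exp_le_exp.2
      have h2 : Real.log (1 + Real.log n) * min 1 (2 * Real.log (1 / pE n H) / Real.log n)
          ≤ Real.log (1 + Real.log n) * (2 / L) := mul_le_mul_of_nonneg_left hz hy0
      have h3 : Real.log (1 + Real.log n) * (2 / L) ≤ 4 := by
        rw [mul_div_assoc', div_le_iff₀ hlx0]
        linarith
      linarith
    have h3 : C₁ * pE n H *
        (1 + Real.log n) ^ (min 1 (2 * Real.log (1 / pE n H) / Real.log n)) ≤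
        C₁ * pE n H * Real.exp 4 :=
      mul_le_mul_of_nonneg_left hfac (by positivity)
    have h6 : 0 ≤ C₀ * pE n H := by positivity
    nlinarith

end Vale.Agent.Lib.P064
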