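import Vale.Agent.Lib.P064.Final

/-!
The fractional expectation threshold `tilde p_E`.
-/

open Finset

namespace Vale.Agent.Lib.P064

open scoped Classical

variable {n : ℕ} {V W : Type}

lemma liftTop_surj {G : SimpleGraph (Fin n)} (F : SimpleGraph W)
    (S : (⊤ : SimpleGraph (Fin n)).Subgraph) (h2 : subEdges S ⊆ edgesOf G)
    (h1 : Nonempty (F ≃g S.coe)) :
    ∃ S' : G.Subgraph, Nonempty (F ≃g S'.coe) ∧ liftTop S' = S := by
  have hsub : ∀ {a b}, S.Adj a b → G.Adj a b := by
    intro a b hab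
    have hne : a ≠ b := hab.ne
    let x : EdgeSp n := ⟨s(a, b), by simpa using hne⟩
    have hx : x ∈ subEdges S := Finset.mem_filter.2 ⟨mem_univ _, hab⟩
    exact mem_edgesOf.1 (h2 hx)
  let S' : G.Subgraph :=
    { verts := S.verts
      Adj := S.Adj
      adj_sub := hsub
      edge_vert := S.edge_vert
      symm := S.symm }
  exact ⟨S', h1, SimpleGraph.Subgraph.ext rfl rfl⟩

lemma copyCount_eq_filter (F : SimpleGraph W) (G : SimpleGraph (Fin n)) :
    G.copyCount F = ((univ : Finset (⊤ : SimpleGraph (Fin n)).Subgraph).filter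
      (fun S => Nonempty (F ≃g S.coe) ∧ subEdges S ⊆ edgesOf G)).card := by
  refine le_antisymm (copyCount_le_filter F G) ?_
  unfold SimpleGraph.copyCount
  refine Finset.card_le_card_of_surjOn liftTop ?_
  intro S hS
  obtain ⟨h1, h2⟩ := (Finset.mem_filter.1 (Finset.mem_coe.1 hS)).2
  obtain ⟨S', h6, h4⟩ := liftTop_surj F S h2 h1
  refine ⟨S', ?_, h4⟩
  simp only [Finset.coe_filter, Finset.mem_univ, true_and]
  exact h6

/-- The first moment identity. -/
lemma expCount_eq (p : ℝ) (F : SimpleGraph W) :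
    expCount n p F = ((⊤ : SimpleGraph (Fin n)).copyCount F : ℝ) * p ^ F.edgeSet.ncard := by
  let AF := (univ : Finset (⊤ : SimpleGraph (Fin n)).Subgraph).filter
      (fun S => Nonempty (F ≃g S.coe))
  have hAF : (⊤ : SimpleGraph (Fin n)).copyCount F = AF.card := by
    unfold SimpleGraph.copyCount
    apply congrArg Finset.card
    ext S
    simp only [Finset.mem_filter, Finset.mem_univ, true_and, AF]
  have step : ∀ G : SimpleGraph (Fin n), gnpWeight n p G * (G.copyCount F : ℝ) =
      ∑ S ∈ AF, gnpWeight n p G * (if subEdges S ⊆ edgesOf G then 1 else 0) := by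
    intro G
    rw [← Finset.mul_sum]
    congr 1
    rw [copyCount_eq_filter F G]
    have h3 : ((univ : Finset (⊤ : SimpleGraph (Fin n)).Subgraph).filter
        (fun S => Nonempty (F ≃g S.coe) ∧ subEdges S ⊆ edgesOf G)) =
        AF.filter (fun S => subEdges S ⊆ edgesOf G) := by
      rw [Finset.filter_filter]
    rw [h3, Finset.card_filter]
    push_cast
    rfl
  unfold expCount
  calc ∑ G, gnpWeight n p G * (G.copyCount F : ℝ)
      = ∑ G, ∑ S ∈ AF, gnpWeight n p G * (if subEdges S ⊆ edgesOf G then 1 else 0) :=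
        Finset.sum_congr rfl fun G _ => step G
    _ = ∑ S ∈ AF, ∑ G, gnpWeight n p G * (if subEdges S ⊆ edgesOf G then 1 else 0) :=
        Finset.sum_comm
    _ = ∑ S ∈ AF, p ^ F.edgeSet.ncard := by
        refine Finset.sum_congr rfl fun S hS => ?_
        obtain ⟨e⟩ := (Finset.mem_filter.1 hS).2
        rw [sum_graphs]
        simp only [gnpWeight_graphOf, edgesOf_graphOf]
        rw [sum_wt_superset, subEdges_card S e]
    _ = _ := by
        rw [Finset.sum_const, hAF, nsmul_eq_mul]

/-- Two copies with the same image differ by an automorphism. -/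
lemma exists_aut {β : Type} {F : SimpleGraph W} {G : SimpleGraph β} [Finite W]
    (f f₀ : F.Copy G) (h : f.toSubgraph = f₀.toSubgraph) :
    ∃ σ : F ≃g F, ∀ x, f x = f₀ (σ x) := by
  have hr : ∀ x, ∃ y, f₀ y = f x := by
    intro x
    have h1 : f x ∈ f.toSubgraph.verts := ⟨x, trivial, rfl⟩
    rw [h] at h1
    obtain ⟨y, _, hy⟩ := h1
    exact ⟨y, hy⟩
  choose g hg using hr
  have hginj : Function.Injective g := by
    intro x x' hxx
    apply f.injective
    change f x = f x'
    rw [← hg x, ← hg x', hxx]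
  have hgbij : Function.Bijective g := Finite.injective_iff_bijective.1 hginj
  let e : W ≃ W := Equiv.ofBijective g hgbij
  have hadj : ∀ x x', F.Adj x x' ↔ F.Adj (g x) (g x') := by
    intro x x'
    constructor
    · intro hxx
      have h1 : f.toSubgraph.Adj (f x) (f x') := ⟨x, x', hxx, rfl, rfl⟩
      rw [h] at h1
      obtain ⟨u, v, huv, h2, h3⟩ := h1
      have h4 : u = g x := f₀.injective (by change f₀ u = f₀ (g x); rw [hg]; exact h2)
      have h5 : v = g x' := f₀.injective (by change f₀ v = f₀ (g x'); rw [hg]; exact h3)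
      rw [← h4, ← h5]
      exact huv
    · intro hxx
      have h1 : f₀.toSubgraph.Adj (f₀ (g x)) (f₀ (g x')) := ⟨g x, g x', hxx, rfl, rfl⟩
      rw [← h, hg, hg] at h1
      obtain ⟨u, v, huv, h2, h3⟩ := h1
      have h4 : u = x := f.injective h2
      have h5 : v = x' := f.injective h3
      rw [← h4, ← h5]
      exact huv
  refine ⟨⟨e, fun {x x'} => (hadj x x').symm⟩, fun x => (hg x).symm⟩

/-- Labelled copies are unlabelled copies times automorphisms. -/
lemma exists_aut_count [Fintype W] (F : SimpleGraph W) :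
    ∃ a : ℕ, 0 < a ∧ ∀ (β : Type) [Fintype β] (G : SimpleGraph β),
      G.copyCount F * a = Nat.card (F.Copy G) := by
  have hfin : Finite (F ≃g F) :=
    Finite.of_injective (fun σ : F ≃g F => (σ : W → W)) DFunLike.coe_injective
  let _ : Fintype (F ≃g F) := Fintype.ofFinite _
  refine ⟨Fintype.card (F ≃g F), Fintype.card_pos_iff.2 ⟨SimpleGraph.Iso.refl⟩, ?_⟩
  intro β _ G
  rw [SimpleGraph.copyCount_eq_card_image_copyToSubgraph, Nat.card_eq_fintype_card,
    ← Finset.card_univ (α := F.Copy G), Finset.card_eq_sum_card_image SimpleGraph.Copy.toSubgraph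
      (univ : Finset (F.Copy G)), Finset.sum_const_nat]
  intro S hS
  obtain ⟨f₀, _, rfl⟩ := Finset.mem_image.1 hS
  have h1 : (univ.filter fun f : F.Copy G => f.toSubgraph = f₀.toSubgraph) =
      (univ : Finset (F ≃g F)).image (fun σ => f₀.comp σ.toCopy) := by
    ext f
    simp only [Finset.mem_filter, Finset.mem_univ, true_and, Finset.mem_image]
    constructor
    · intro h
      obtain ⟨σ, hσ⟩ := exists_aut f f₀ h
      exact ⟨σ, by ext x; simp [hσ x]⟩
    · rintro ⟨σ, rfl⟩
      have h2 : (f₀.comp σ.toCopy).toHom = f₀.toHom.comp σ.toEmbedding.toHom := rfl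
      rw [SimpleGraph.Copy.toSubgraph, SimpleGraph.Copy.toSubgraph, h2,
        SimpleGraph.Subgraph.map_comp]
      congr 1
      exact SimpleGraph.Subgraph.map_iso_top σ
  rw [h1, Finset.card_image_of_injective]
  · rfl
  · intro σ τ h
    ext x
    apply f₀.injective
    have := congrArg (fun g : F.Copy G => g x) h
    simpa using this

section Bound

variable [Fintype V] [Fintype W] {H : SimpleGraph V} {q : ℝ}

/-- The non-isolated vertices of `F`. -/
noncomputable def nonIso (F : SimpleGraph W) : Finset W := univ.filter (fun x => ∃ y, F.Adj x y)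

/-- `F` without its isolated vertices. -/
def trim (F : SimpleGraph W) : SimpleGraph ↥(nonIso F) := F.comap Subtype.val

lemma mem_nonIso {F : SimpleGraph W} {x : W} : x ∈ nonIso F ↔ ∃ y, F.Adj x y := by
  simp [nonIso]

lemma trim_iso (F : SimpleGraph W) (a : ↥(nonIso F)) : ∃ b, (trim F).Adj a b := by
  obtain ⟨y, hy⟩ := mem_nonIso.1 a.2
  exact ⟨⟨y, mem_nonIso.2 ⟨a.1, hy.symm⟩⟩, hy⟩

lemma trim_edges (F : SimpleGraph W) : (eIn (trim F) univ).card = F.edgeSet.ncard := by
  have h1 : (((eIn (trim F) univ).image (Sym2.map Subtype.val) : Finset (Sym2 W)) : Set _)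
      = F.edgeSet := by
    ext z
    simp only [Finset.coe_image, Set.mem_image, Finset.mem_coe]
    constructor
    · rintro ⟨e, he, rfl⟩
      induction e using Sym2.ind with
      | _ a b => exact (mem_eIn_pair.1 he).1
    · intro hz
      induction z using Sym2.ind with
      | _ a b =>
        have hab : F.Adj a b := hz
        refine ⟨s(⟨a, mem_nonIso.2 ⟨b, hab⟩⟩, ⟨b, mem_nonIso.2 ⟨a, hab.symm⟩⟩), ?_, rfl⟩
        exact mem_eIn_pair.2 ⟨hab, mem_univ _, mem_univ _⟩
  rw [← h1, Set.ncard_coe_finset, Finset.card_image_of_injective _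
    (Sym2.map.injective Subtype.val_injective)]

/-- The bound on embeddings for graphs with isolated vertices. -/
theorem emb_full (hn : 1 ≤ n) (hV : Fintype.card V ≤ n) (hq0 : 0 < q)
    (hqe : q ≤ Real.exp (-1)) (hG : GoodDensity n q H) (F : SimpleGraph W)
    (hvn : Fintype.card W ≤ n) :
    ((emb F H).card : ℝ) ≤
      (64 * Real.exp 7 * (2 * Real.log n + 1) * q) ^ F.edgeSet.ncard *
        n.descFactorial (Fintype.card W) := by
  set α₀ := nonIso F with hα₀
  set v₀ := α₀.card with hv₀
  set i := (α₀ᶜ).card with hi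
  have hcardW : Fintype.card W = v₀ + i := by
    have := Finset.card_add_card_compl α₀
    omega
  have hv₀n : v₀ ≤ n := by omega
  have h1 := inj_bound hn hV hq0 hqe hG (trim_iso F) (by
    rw [Fintype.card_coe]
    exact hv₀n)
  rw [trim_edges, Fintype.card_coe] at h1
  have h2 : (emb F H).card ≤ (n - v₀).descFactorial i *
      ((emb F H).image (fun φ : W → V => fun a : ↥α₀ => φ a.1)).card := by
    refine Finset.card_le_mul_card_image _ _ ?_
    intro ψ hψ
    obtain ⟨φ₀, hφ₀, rfl⟩ := Finset.mem_image.1 hψ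
    set S := (emb F H).filter
      (fun φ : W → V => (fun a : ↥α₀ => φ a.1) = fun a : ↥α₀ => φ₀ a.1) with hS
    have hinj₀ : Function.Injective φ₀ := (mem_emb.1 hφ₀).1
    let Y : Finset V := α₀.image φ₀
    have hY : Y.card = v₀ := Finset.card_image_of_injective _ hinj₀
    have hagree : ∀ φ ∈ S, ∀ a ∈ α₀, φ a = φ₀ a := by
      intro φ hφ a ha
      exact congrFun (Finset.mem_filter.1 hφ).2 ⟨a, ha⟩
    have hmem : ∀ φ ∈ S, ∀ x : ↥(α₀ᶜ), φ x.1 ∈ Yᶜ := by
      intro φ hφ x
      rw [Finset.mem_compl]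
      intro hin
      obtain ⟨y, hy, hyx⟩ := Finset.mem_image.1 hin
      rw [← hagree φ hφ y hy] at hyx
      have hφinj : Function.Injective φ := (mem_emb.1 (Finset.mem_filter.1 hφ).1).1
      have := hφinj hyx
      exact (Finset.mem_compl.1 x.2) (this ▸ hy)
    let Φ : ↥S → (↥(α₀ᶜ) ↪ ↥(Yᶜ)) := fun φ =>
      ⟨fun x => ⟨φ.1 x.1, hmem φ.1 φ.2 x⟩, by
        intro a b hab
        have h3 : φ.1 a.1 = φ.1 b.1 := congrArg Subtype.val hab
        have hφinj : Function.Injective φ.1 := (mem_emb.1 (Finset.mem_filter.1 φ.2).1).1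
        exact Subtype.ext (hφinj h3)⟩
    have hΦ : Function.Injective Φ := by
      intro φ φ' hh
      apply Subtype.ext
      funext x
      by_cases hx : x ∈ α₀
      · rw [hagree φ.1 φ.2 x hx, hagree φ'.1 φ'.2 x hx]
      · have := congrArg (fun e : (↥(α₀ᶜ) ↪ ↥(Yᶜ)) => (e ⟨x, Finset.mem_compl.2 hx⟩).1) hh
        exact this
    have h4 := Fintype.card_le_of_injective Φ hΦ
    rw [Fintype.card_embedding_eq, Fintype.card_coe, Fintype.card_coe, Fintype.card_coe,
      Finset.card_compl, hY] at h4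
    refine h4.trans ?_
    exact Nat.descFactorial_le _ (by omega)
  have h3 : ((emb F H).image (fun φ : W → V => fun a : ↥α₀ => φ a.1)).card
      ≤ (emb (trim F) H).card := by
    refine Finset.card_le_card ?_
    intro ψ hψ
    obtain ⟨φ, hφ, rfl⟩ := Finset.mem_image.1 hψ
    obtain ⟨h4, h5⟩ := mem_emb.1 hφ
    refine mem_emb.2 ⟨fun a b hab => Subtype.ext (h4 hab), fun u v huv => h5 _ _ huv⟩
  have h5 : (n - v₀).descFactorial i * n.descFactorial v₀ = n.descFactorial (Fintype.card W) := by
    rw [hcardW]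
    have := Nat.descFactorial_mul_descFactorial (n := n) (k := v₀) (m := v₀ + i) (by omega)
    simpa using this
  have h6 : ((n - v₀).descFactorial i : ℝ) * n.descFactorial v₀
      = n.descFactorial (Fintype.card W) := by exact_mod_cast h5
  calc ((emb F H).card : ℝ)
      ≤ ((n - v₀).descFactorial i : ℝ) *
        ((emb F H).image (fun φ : W → V => fun a : ↥α₀ => φ a.1)).card := by exact_mod_cast h2
    _ ≤ ((n - v₀).descFactorial i : ℝ) * (emb (trim F) H).card := by
        gcongr
    _ ≤ ((n - v₀).descFactorial i : ℝ) *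
        ((64 * Real.exp 7 * (2 * Real.log n + 1) * q) ^ F.edgeSet.ncard * n.descFactorial v₀) := by
        gcongr
    _ = (64 * Real.exp 7 * (2 * Real.log n + 1) * q) ^ F.edgeSet.ncard *
        (((n - v₀).descFactorial i : ℝ) * n.descFactorial v₀) := by ring
    _ = _ := by rw [h6]

lemma copyCount_le_top_mul (hn : 1 ≤ n) (hV : Fintype.card V ≤ n) (hq0 : 0 < q)
    (hqe : q ≤ Real.exp (-1)) (hG : GoodDensity n q H) (F : SimpleGraph W)
    (hvn : Fintype.card W ≤ n) :
    (H.copyCount F : ℝ) ≤ ((⊤ : SimpleGraph (Fin n)).copyCount F : ℝ) *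
      (64 * Real.exp 7 * (2 * Real.log n + 1) * q) ^ F.edgeSet.ncard := by
  obtain ⟨a, ha, hcount⟩ := exists_aut_count F
  have h1 : Nat.card (F.Copy H) ≤ (emb F H).card := by
    have hfin : Finite ↥(emb F H) := inferInstance
    have := Nat.card_le_card_of_injective
      (fun f : F.Copy H => (⟨(f : W → V), mem_emb.2 ⟨f.injective, fun u v huv => f.toHom.map_adj huv⟩⟩ :
        ↥(emb F H))) (by
        intro f g hfg
        have : (f : W → V) = g := congrArg Subtype.val hfg
        exact DFunLike.coe_injective this)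
    rwa [Nat.card_eq_fintype_card (α := ↥(emb F H)), Fintype.card_coe] at this
  have hfinCopy : Finite ((F.Copy (⊤ : SimpleGraph (Fin n)))) :=
    Finite.of_injective (fun f => (f : W → Fin n)) DFunLike.coe_injective
  have h2 : n.descFactorial (Fintype.card W) ≤ Nat.card (F.Copy (⊤ : SimpleGraph (Fin n))) := by
    have := Nat.card_le_card_of_injective
      (fun e : W ↪ Fin n => (⟨⟨e, fun {a b} hab => (fun h => hab.ne (e.injective h))⟩, e.injective⟩ :
        F.Copy (⊤ : SimpleGraph (Fin n)))) (by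
        intro e e' h
        ext x
        have := congrArg (fun g : F.Copy (⊤ : SimpleGraph (Fin n)) => g x) h
        exact congrArg _ this)
    rwa [Nat.card_eq_fintype_card (α := W ↪ Fin n), Fintype.card_embedding_eq,
      Fintype.card_fin] at this
  have h3 := emb_full hn hV hq0 hqe hG F hvn
  have h4 := hcount V H
  have h5 := hcount (Fin n) ⊤
  have haR : (0 : ℝ) < a := by exact_mod_cast ha
  have hn1 : (1 : ℝ) ≤ n := by exact_mod_cast hn
  have hL0 : 0 ≤ Real.log n := Real.log_nonneg hn1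
  have hθ : 0 ≤ (64 * Real.exp 7 * (2 * Real.log n + 1) * q) := by positivity
  have h6 : (H.copyCount F : ℝ) * a ≤ (((⊤ : SimpleGraph (Fin n)).copyCount F : ℝ) *
      (64 * Real.exp 7 * (2 * Real.log n + 1) * q) ^ F.edgeSet.ncard) * a := by
    have e1 : (H.copyCount F : ℝ) * a = (Nat.card (F.Copy H) : ℝ) := by exact_mod_cast h4
    have e2 : ((⊤ : SimpleGraph (Fin n)).copyCount F : ℝ) * a
        = (Nat.card (F.Copy (⊤ : SimpleGraph (Fin n))) : ℝ) := by exact_mod_cast h5
    have h7 : (n.descFactorial (Fintype.card W) : ℝ)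
        ≤ (Nat.card (F.Copy (⊤ : SimpleGraph (Fin n))) : ℝ) := by exact_mod_cast h2
    have h8 : (Nat.card (F.Copy H) : ℝ) ≤ (emb F H).card := by exact_mod_cast h1
    rw [e1]
    calc (Nat.card (F.Copy H) : ℝ) ≤ (emb F H).card := h8
      _ ≤ _ := h3
      _ ≤ (64 * Real.exp 7 * (2 * Real.log n + 1) * q) ^ F.edgeSet.ncard *
          (Nat.card (F.Copy (⊤ : SimpleGraph (Fin n))) : ℝ) := by gcongr
      _ = _ := by rw [← e2]; ring
  exact le_of_mul_le_mul_right h6 haR

lemma copyCount_le_top (hV : Fintype.card V ≤ n) (F : SimpleGraph W) :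
    H.copyCount F ≤ (⊤ : SimpleGraph (Fin n)).copyCount F := by
  obtain ⟨a, ha, hcount⟩ := exists_aut_count F
  obtain ⟨ι⟩ : Nonempty (V ↪ Fin n) :=
    Function.Embedding.nonempty_of_card_le (by simpa using hV)
  have hfinCopy : Finite ((F.Copy (⊤ : SimpleGraph (Fin n)))) :=
    Finite.of_injective (fun f => (f : W → Fin n)) DFunLike.coe_injective
  have h1 : Nat.card (F.Copy H) ≤ Nat.card (F.Copy (⊤ : SimpleGraph (Fin n))) := by
    refine Nat.card_le_card_of_injective
      (fun f => ⟨⟨fun x => ι (f x), fun {a b} hab =>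
        (fun h => (f.toHom.map_adj hab).ne (ι.injective h))⟩,
        fun x y h => f.injective (ι.injective h)⟩) ?_
    intro f g h
    ext x
    apply ι.injective
    exact congrArg (fun k : F.Copy (⊤ : SimpleGraph (Fin n)) => k x) h
  have h4 := hcount V H
  have h5 := hcount (Fin n) ⊤
  rw [← h4, ← h5] at h1
  exact Nat.le_of_mul_le_mul_right h1 ha

/-- For each density in the `p_E` set: the `tilde p_E` bound. -/
theorem pTilde_le_of_pE_mem (hn : 2 ≤ n) (hV : Fintype.card V ≤ n) (hH : H ≠ ⊥) {p : ℝ}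
    (h0 : 0 ≤ p) (h1 : p ≤ 1) (hp : ∀ F : H.Subgraph, 1 / 2 ≤ expCount n p F.coe) :
    pTilde n H ≤ 512 * Real.exp 7 * p * Real.log n := by
  have hG := good_of_subgraphs h0 h1 hp
  obtain ⟨ι⟩ : Nonempty (V ↪ Fin n) :=
    Function.Embedding.nonempty_of_card_le (by simpa using hV)
  obtain ⟨a, b, hab⟩ : ∃ a b, H.Adj a b := by
    by_contra hcon
    push Not at hcon
    apply hH
    ext x y
    simp [hcon x y]
  have hp0 : 0 < p := by
    rcases h0.lt_or_eq with h | h
    · exact h
    · exfalso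
      have hne : H.edgeSet.Nonempty := ⟨s(a, b), hab⟩
      have h2 := hG V H ⟨SimpleGraph.Iso.refl.toCopy⟩ hne
      have h3 : H.edgeSet.ncard ≠ 0 := Set.ncard_ne_zero_of_mem hne.choose_spec (Set.toFinite _)
      rw [← h, mul_zero, zero_pow h3, mul_zero] at h2
      norm_num at h2
  have hn2 : (2 : ℝ) ≤ n := by exact_mod_cast hn
  have hlog2 : (1 : ℝ) / 2 ≤ Real.log 2 := by
    have := Real.log_two_gt_d9
    linarith
  have hlogn2 : Real.log 2 ≤ Real.log n := Real.log_le_log (by norm_num) hn2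
  set l := Real.log n with hl
  have hl12 : 1 / 2 ≤ l := hlog2.trans hlogn2
  have hl0 : 0 < l := by linarith
  have hE : (1 : ℝ) ≤ Real.exp 7 := Real.one_le_exp (by norm_num)
  have hfin : ∀ F : H.Subgraph, Fintype.card ↥F.verts ≤ n := by
    intro F
    refine le_trans ?_ hV
    exact Fintype.card_le_of_injective (Subtype.val) Subtype.val_injective
  have hmem1 : pTilde n H ≤ 1 := by
    refine csInf_le ⟨0, fun _ hy => hy.1⟩ ⟨by norm_num, le_rfl, ?_⟩
    intro F
    rw [expCount_eq, one_pow, mul_one]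
    have h2 : (H.copyCount F.coe : ℝ) ≤ ((⊤ : SimpleGraph (Fin n)).copyCount F.coe : ℝ) := by
      exact_mod_cast copyCount_le_top hV F.coe
    have h3 : (0 : ℝ) ≤ (H.copyCount F.coe : ℝ) := Nat.cast_nonneg _
    linarith
  set q := 2 * p with hq
  set θ := 64 * Real.exp 7 * (2 * l + 1) * q with hθ
  have hθA : θ ≤ 512 * Real.exp 7 * p * l := by
    have : 2 * l + 1 ≤ 4 * l := by linarith
    have h3 : θ = 128 * Real.exp 7 * p * (2 * l + 1) := by
      rw [hθ, hq]
      ring
    have h4 : 512 * Real.exp 7 * p * l = 128 * Real.exp 7 * p * (4 * l) := by ring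
    rw [h3, h4]
    gcongr
  by_cases hcase1 : Real.exp (-1) < q
  · refine hmem1.trans ?_
    have h3 : Real.exp (-1) * Real.exp 7 = Real.exp 6 := by
      rw [← Real.exp_add]
      norm_num
    have h4 : (1 : ℝ) ≤ Real.exp 6 := Real.one_le_exp (by norm_num)
    have h5 : (1 : ℝ) ≤ Real.exp 7 * q := by
      calc (1 : ℝ) ≤ Real.exp 6 := h4
        _ = Real.exp (-1) * Real.exp 7 := h3.symm
        _ ≤ q * Real.exp 7 := mul_le_mul_of_nonneg_right hcase1.le (by positivity)
        _ = _ := mul_comm _ _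
    have h7 : 512 * Real.exp 7 * p * l = 256 * (Real.exp 7 * q) * l := by
      rw [hq]
      ring
    rw [h7]
    nlinarith
  push Not at hcase1
  have hq0 : 0 < q := by positivity
  by_cases hcase2 : 1 < θ
  · refine hmem1.trans ?_
    linarith
  push Not at hcase2
  have hθ0 : 0 < θ := by positivity
  refine le_trans ?_ hθA
  refine csInf_le ⟨0, fun _ hy => hy.1⟩ ⟨hθ0.le, hcase2, ?_⟩
  intro F
  rw [expCount_eq]
  have h2 := copyCount_le_top_mul (by omega) hV hq0 hcase1 hG F.coe (hfin F)
  have h3 : (0 : ℝ) ≤ (H.copyCount F.coe : ℝ) := Nat.cast_nonneg _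
  linarith

end Bound

/-- `tilde p_E(n,H) ≤ C p_E(n,H) log n`. -/
theorem pTilde_le_pE_log :
    ∃ C : ℝ, 0 < C ∧ ∀ n : ℕ, 2 ≤ n → ∀ (V : Type) [Fintype V] (H : SimpleGraph V),
      Fintype.card V ≤ n → H ≠ ⊥ → pTilde n H ≤ C * pE n H * Real.log n := by
  refine ⟨512 * Real.exp 7, by positivity, ?_⟩
  intro n hn V _ H hV hH
  obtain ⟨ι⟩ : Nonempty (V ↪ Fin n) :=
    Function.Embedding.nonempty_of_card_le (by simpa using hV)
  have hn2 : (2 : ℝ) ≤ n := by exact_mod_cast hn
  have hl : 0 < Real.log n := Real.log_pos (by linarith)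
  have hpos : 0 < 512 * Real.exp 7 * Real.log n := by positivity
  have hne : {p : ℝ | 0 ≤ p ∧ p ≤ 1 ∧ ∀ F : H.Subgraph, 1 / 2 ≤ expCount n p F.coe}.Nonempty :=
    ⟨1, by norm_num, le_rfl, fun F => one_mem_pE_set ι F⟩
  have h1 : pTilde n H / (512 * Real.exp 7 * Real.log n) ≤ pE n H := by
    refine le_csInf hne ?_
    rintro p ⟨h0, h1, hp⟩
    rw [div_le_iff₀ hpos]
    have := pTilde_le_of_pE_mem hn hV hH h0 h1 hp
    calc pTilde n H ≤ 512 * Real.exp 7 * p * Real.log n := this
      _ = _ := by ring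
  rw [div_le_iff₀ hpos] at h1
  calc pTilde n H ≤ pE n H * (512 * Real.exp 7 * Real.log n) := h1
    _ = _ := by ring

end Vale.Agent.Lib.P064
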