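import Vale.Agent.Lib.P064.Peel
import Vale.Agent.Lib.P064.Tilde

/-!
From a bound on embeddings with a general constant to the thresholds.
-/

open Finset

namespace Vale.Agent.Lib.P064

open scoped Classical

variable {V : Type} [Fintype V] {H : SimpleGraph V} {n : ℕ} {q : ℝ}

/-- The orientation used in the block argument. -/
theorem exists_orient (hn : 1 ≤ n) (hq0 : 0 < q) (hqe : q ≤ Real.exp (-1))
    (hG : GoodDensity n q H) :
    ∃ (Arc : V → V → Prop) (M c : ℕ), (∀ a, (univ.filter fun b => Arc a b).card ≤ c) ∧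
      (∀ (T : Finset (Sym2 V)) (D : Finset V), (∀ e ∈ T, e ∈ H.edgeSet) →
        (∀ a b, s(a, b) ∈ T → Arc a b → a ∈ D) → M * T.card ≤ c * D.card) ∧
      (∀ a m : ℕ, M * m ≤ c * a → Real.exp (-(a : ℝ)) ≤ (n : ℝ) ^ a * q ^ m) ∧
      (c : ℝ) ≤ 2 * Real.log n + 1 := by
  have hn1 : (1 : ℝ) ≤ n := by exact_mod_cast hn
  have hn0 : (0 : ℝ) < n := by linarith
  have hL0 : 0 ≤ Real.log n := Real.log_nonneg hn1
  set Q := - Real.log q with hQ
  have hq1 : q ≤ 1 := hqe.trans (by
    rw [Real.exp_le_one_iff]; norm_num)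
  have hQ1 : 1 ≤ Q := by
    have := Real.log_le_log hq0 hqe
    rw [Real.log_exp] at this
    rw [hQ]
    linarith
  have hQ0 : 0 < Q := by linarith
  have hqexp : q = Real.exp (-Q) := by
    rw [hQ, neg_neg, Real.exp_log hq0]
  set M := ⌈Q⌉₊ with hM
  have hQM : Q ≤ M := Nat.le_ceil Q
  have hMQ : (M : ℝ) < Q + 1 := Nat.ceil_lt_add_one hQ0.le
  have hM1 : 1 ≤ M := by
    have : (0 : ℝ) < M := by linarith
    exact_mod_cast this
  have hMpos : (0 : ℝ) < M := by linarith
  set c := ⌈(M : ℝ) * Real.log n / Q⌉₊ with hc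
  have hc1 : (M : ℝ) * Real.log n / Q ≤ c := Nat.le_ceil _
  have hc2 : (c : ℝ) < (M : ℝ) * Real.log n / Q + 1 :=
    Nat.ceil_lt_add_one (by positivity)
  have hc3 : (M : ℝ) * Real.log n ≤ c * Q := by
    rwa [div_le_iff₀ hQ0] at hc1
  have hc4 : (c : ℝ) * Q ≤ (M : ℝ) * Real.log n + Q := by
    have : (M : ℝ) * Real.log n / Q + 1 = ((M : ℝ) * Real.log n + Q) / Q := by
      field_simp
    rw [this, lt_div_iff₀ hQ0] at hc2
    exact hc2.le
  have hcK : (c : ℝ) ≤ 2 * Real.log n + 1 := by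
    have h1 : (M : ℝ) * Real.log n / Q ≤ 2 * Real.log n := by
      rw [div_le_iff₀ hQ0]
      have : (M : ℝ) ≤ 2 * Q := by linarith
      nlinarith
    linarith
  have hall : ∀ T : Finset (Sym2 V), (∀ e ∈ T, e ∈ H.edgeSet) →
      M * T.card ≤ c * (T.biUnion fun e => e.toFinset).card := by
    intro T hT
    by_cases hne : T.Nonempty
    · have h1 := density_of_good hG hq0 hq1 T hT hne
      set w := (T.biUnion fun e => e.toFinset).card with hw
      have h2 : (T.card : ℝ) * Q ≤ w * Real.log n := by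
        have h3 := Real.log_le_log (by norm_num) h1
        rw [Real.log_one, Real.log_mul (by positivity) (by positivity), Real.log_pow,
          Real.log_pow] at h3
        rw [hQ]
        linarith
      have h4 : (M : ℝ) * T.card ≤ c * w := by
        have h5 : ((M : ℝ) * T.card) * Q ≤ (c * w) * Q := by
          calc ((M : ℝ) * T.card) * Q = M * (T.card * Q) := by ring
            _ ≤ M * (w * Real.log n) := mul_le_mul_of_nonneg_left h2 hMpos.le
            _ = w * (M * Real.log n) := by ring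
            _ ≤ w * (c * Q) := mul_le_mul_of_nonneg_left hc3 (Nat.cast_nonneg _)
            _ = _ := by ring
        exact le_of_mul_le_mul_right h5 hQ0
      exact_mod_cast h4
    · rw [Finset.not_nonempty_iff_eq_empty] at hne
      subst hne
      simp
  obtain ⟨Arc, _, _, hout, hcap⟩ := orient_exists H M c hM1 hall
  refine ⟨Arc, M, c, hout, hcap, ?_, hcK⟩
  intro a m hma
  have h1 : (M : ℝ) * m ≤ c * a := by exact_mod_cast hma
  have h2 : (m : ℝ) * Q ≤ a * Real.log n + a := by
    have h3 : (M : ℝ) * ((m : ℝ) * Q) ≤ M * (a * Real.log n + a) := by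
      calc (M : ℝ) * ((m : ℝ) * Q) = (M * m) * Q := by ring
        _ ≤ (c * a) * Q := mul_le_mul_of_nonneg_right h1 hQ0.le
        _ = a * (c * Q) := by ring
        _ ≤ a * (M * Real.log n + Q) := mul_le_mul_of_nonneg_left hc4 (Nat.cast_nonneg _)
        _ ≤ a * (M * Real.log n + M) := by gcongr
        _ = _ := by ring
    exact le_of_mul_le_mul_left h3 hMpos
  have h4 : (n : ℝ) ^ a * q ^ m = Real.exp (a * Real.log n - m * Q) := by
    rw [Real.exp_sub, hqexp]
    have h5 : (n : ℝ) ^ a = Real.exp (a * Real.log n) := by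
      rw [Real.exp_nat_mul, Real.exp_log hn0]
    rw [h5, ← Real.exp_nat_mul, div_eq_mul_inv, ← Real.exp_neg]
    congr 2
    ring
  rw [h4, Real.exp_le_exp]
  linarith

/-- The bound on embeddings with constant `Θ` for all graphs without isolated vertices. -/
def EmbBound (n : ℕ) (H : SimpleGraph V) (Θ : ℝ) : Prop :=
  ∀ (β : Type) [Fintype β] (G : SimpleGraph β), (∀ x, ∃ y, G.Adj x y) → Fintype.card β ≤ n →
    ((emb G H).card : ℝ) ≤ Θ ^ (eIn G univ).card * n.descFactorial (Fintype.card β)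

/-- The number of embeddings for peeling parameters `κ` and `T`. -/
theorem embBound_of_peel (hn : 1 ≤ n) (hV : Fintype.card V ≤ n) (hq0 : 0 < q)
    (hqe : q ≤ Real.exp (-1)) (hG : GoodDensity n q H) {κ : ℝ} (hκ : 2 ≤ κ) {T : ℕ} (hT : 1 ≤ T)
    (hcZ : 2 * Real.log n + 1 ≤ κ ^ T) (hLZ : (T : ℝ) * Real.log n ≤ κ ^ T)
    (hlight : ∀ d : ℕ, 1 ≤ d → d < T →
      (d : ℝ) * Real.log n ≤ (8 * Real.exp 2) * ((n : ℝ) * q ^ d)) :
    EmbBound n H (256 * Real.exp 6 * κ ^ 2 * q) := by
  intro β _ F hiso hvn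
  have hn1 : (1 : ℝ) ≤ n := by exact_mod_cast hn
  have hn0 : (0 : ℝ) < n := by linarith
  have hq1 : q ≤ 1 := hqe.trans (by
    rw [Real.exp_le_one_iff]; norm_num)
  obtain ⟨Arc, M, c, hout, hcap, hnum, hcK⟩ := exists_orient hn hq0 hqe hG (H := H)
  have hmain := emb_bound_peel (F := F) hG hq0 hq1 hn hV Arc M c hout hcap hnum hκ hT
    (hcK.trans hcZ) hLZ hlight
  refine hmain.trans ?_
  set e := (eIn F univ).card with he
  set v := Fintype.card β with hv
  have hve : v ≤ 2 * e := (vertices_le_darts hiso).trans darts_card_le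
  have hnd := pow_le_exp_descFactorial hvn
  set d : ℝ := (n.descFactorial v : ℝ) with hd
  have hd0 : 0 ≤ d := Nat.cast_nonneg _
  set E := Real.exp 1 with hE
  have hE1 : 1 ≤ E := Real.one_le_exp (by norm_num)
  have h2 : Real.exp 2 = E ^ 2 := by
    rw [hE, ← Real.exp_nat_mul]
    norm_num
  have h6 : Real.exp 6 = E ^ 6 := by
    rw [hE, ← Real.exp_nat_mul]
    norm_num
  rw [h2, h6]
  have hb : (1 : ℝ) ≤ 8 * E ^ 3 := by
    have : (1 : ℝ) ≤ E ^ 3 := one_le_pow₀ hE1
    linarith
  have hpow : (8 * E ^ 3) ^ v ≤ (8 * E ^ 3) ^ (2 * e) := pow_le_pow_right₀ hb hve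
  have e0 : (0 : ℝ) ≤ E := by linarith
  have hκ0 : (0 : ℝ) ≤ κ := by linarith
  calc 4 ^ e * ((8 * E ^ 2) ^ v * κ ^ (2 * e) * ((n : ℝ) ^ v * q ^ e))
      ≤ 4 ^ e * ((8 * E ^ 2) ^ v * κ ^ (2 * e) * ((E ^ v * d) * q ^ e)) := by
        gcongr
    _ = (8 * E ^ 3) ^ v * (4 ^ e * κ ^ (2 * e) * q ^ e * d) := by
        have : (8 * E ^ 3) ^ v = (8 * E ^ 2) ^ v * E ^ v := by
          rw [← mul_pow]
          ring_nf
        rw [this]
        ring
    _ ≤ (8 * E ^ 3) ^ (2 * e) * (4 ^ e * κ ^ (2 * e) * q ^ e * d) := by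
        gcongr
    _ = (256 * E ^ 6 * κ ^ 2 * q) ^ e * d := by
        have h8 : (256 * E ^ 6 * κ ^ 2 * q) ^ e =
            (8 * E ^ 3) ^ (2 * e) * 4 ^ e * κ ^ (2 * e) * q ^ e := by
          rw [pow_mul (8 * E ^ 3) 2 e, pow_mul κ 2 e, ← mul_pow, ← mul_pow, ← mul_pow]
          congr 1
          ring
        rw [h8]
        ring

/-- Embeddings for graphs with isolated vertices. -/
theorem emb_full_gen {W : Type} [Fintype W] {Θ : ℝ} (hV : Fintype.card V ≤ n) (hΘ0 : 0 ≤ Θ)
    (hΘ : EmbBound n H Θ)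
    (F : SimpleGraph W) (hvn : Fintype.card W ≤ n) :
    ((emb F H).card : ℝ) ≤ Θ ^ F.edgeSet.ncard * n.descFactorial (Fintype.card W) := by
  set α₀ := nonIso F with hα₀
  set v₀ := α₀.card with hv₀
  set i := (α₀ᶜ).card with hi
  have hcardW : Fintype.card W = v₀ + i := by
    have := Finset.card_add_card_compl α₀
    omega
  have hv₀n : v₀ ≤ n := by omega
  have h1 := hΘ _ (trim F) (trim_iso F) (by
    rw [Fintype.card_coe]
    exact hv₀n)
  rw [trim_edges, Fintype.card_coe] at h1
  have h2 : (emb F H).card ≤ (n - v₀).descFactorial i *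
      ((emb F H).image (fun φ : W → V => fun a : ↥α₀ => φ a.1)).card := by
    refine Finset.card_le_mul_card_image _ _ ?_
    intro ψ hψ
    obtain ⟨φ₀, hφ₀, rfl⟩ := Finset.mem_image.1 hψ
    set S := (emb F H).filter
      (fun φ : W → V => (fun a : ↥α₀ => φ a.1) = fun a : ↥α₀ => φ₀ a.1) with hS
    have hinj₀ : Function.Injective φ₀ := (mem_emb.1 hφ₀).1
    let Y : Finset V := α₀.image φ₀
    have hY : Y.card = v₀ := Finset.card_image_of_injective _ hinj₀
    have hagree : ∀ φ ∈ S, ∀ a ∈ α₀, φ a = φ₀ a := by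
      intro φ hφ a ha
      exact congrFun (Finset.mem_filter.1 hφ).2 ⟨a, ha⟩
    have hmem : ∀ φ ∈ S, ∀ x : ↥(α₀ᶜ), φ x.1 ∈ Yᶜ := by
      intro φ hφ x
      rw [Finset.mem_compl]
      intro hin
      obtain ⟨y, hy, hyx⟩ := Finset.mem_image.1 hin
      rw [← hagree φ hφ y hy] at hyx
      have hφinj : Function.Injective φ := (mem_emb.1 (Finset.mem_filter.1 hφ).1).1
      have := hφinj hyx
      exact (Finset.mem_compl.1 x.2) (this ▸ hy)
    let Φ : ↥S → (↥(α₀ᶜ) ↪ ↥(Yᶜ)) := fun φ =>
      ⟨fun x => ⟨φ.1 x.1, hmem φ.1 φ.2 x⟩, by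
        intro a b hab
        have h3 : φ.1 a.1 = φ.1 b.1 := congrArg Subtype.val hab
        have hφinj : Function.Injective φ.1 := (mem_emb.1 (Finset.mem_filter.1 φ.2).1).1
        exact Subtype.ext (hφinj h3)⟩
    have hΦ : Function.Injective Φ := by
      intro φ φ' hh
      apply Subtype.ext
      funext x
      by_cases hx : x ∈ α₀
      · rw [hagree φ.1 φ.2 x hx, hagree φ'.1 φ'.2 x hx]
      · have := congrArg (fun e : (↥(α₀ᶜ) ↪ ↥(Yᶜ)) => (e ⟨x, Finset.mem_compl.2 hx⟩).1) hh
        exact this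
    have h4 := Fintype.card_le_of_injective Φ hΦ
    rw [Fintype.card_embedding_eq, Fintype.card_coe, Fintype.card_coe, Fintype.card_coe,
      Finset.card_compl, hY] at h4
    refine h4.trans ?_
    exact Nat.descFactorial_le _ (by omega)
  have h3 : ((emb F H).image (fun φ : W → V => fun a : ↥α₀ => φ a.1)).card
      ≤ (emb (trim F) H).card := by
    refine Finset.card_le_card ?_
    intro ψ hψ
    obtain ⟨φ, hφ, rfl⟩ := Finset.mem_image.1 hψ
    obtain ⟨h4, h5⟩ := mem_emb.1 hφ
    refine mem_emb.2 ⟨fun a b hab => Subtype.ext (h4 hab), fun u v huv => h5 _ _ huv⟩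
  have h5 : (n - v₀).descFactorial i * n.descFactorial v₀ = n.descFactorial (Fintype.card W) := by
    rw [hcardW]
    have := Nat.descFactorial_mul_descFactorial (n := n) (k := v₀) (m := v₀ + i) (by omega)
    simpa using this
  have h6 : ((n - v₀).descFactorial i : ℝ) * n.descFactorial v₀
      = n.descFactorial (Fintype.card W) := by exact_mod_cast h5
  calc ((emb F H).card : ℝ)
      ≤ ((n - v₀).descFactorial i : ℝ) *
        ((emb F H).image (fun φ : W → V => fun a : ↥α₀ => φ a.1)).card := by exact_mod_cast h2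
    _ ≤ ((n - v₀).descFactorial i : ℝ) * (emb (trim F) H).card := by
        gcongr
    _ ≤ ((n - v₀).descFactorial i : ℝ) * (Θ ^ F.edgeSet.ncard * n.descFactorial v₀) := by
        gcongr
    _ = Θ ^ F.edgeSet.ncard * (((n - v₀).descFactorial i : ℝ) * n.descFactorial v₀) := by ring
    _ = _ := by rw [h6]

/-- Copies of `F` in `H` against copies in `K_n`. -/
lemma copyCount_le_top_mul_gen {W : Type} [Fintype W] {Θ : ℝ} (hV : Fintype.card V ≤ n)
    (hΘ0 : 0 ≤ Θ) (hΘ : EmbBound n H Θ) (F : SimpleGraph W) (hvn : Fintype.card W ≤ n) :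
    (H.copyCount F : ℝ) ≤ ((⊤ : SimpleGraph (Fin n)).copyCount F : ℝ) * Θ ^ F.edgeSet.ncard := by
  obtain ⟨a, ha, hcount⟩ := exists_aut_count F
  have h1 : Nat.card (F.Copy H) ≤ (emb F H).card := by
    have hfin : Finite ↥(emb F H) := inferInstance
    have := Nat.card_le_card_of_injective
      (fun f : F.Copy H => (⟨(f : W → V), mem_emb.2 ⟨f.injective, fun u v huv => f.toHom.map_adj huv⟩⟩ :
        ↥(emb F H))) (by
        intro f g hfg
        have : (f : W → V) = g := congrArg Subtype.val hfg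
        exact DFunLike.coe_injective this)
    rwa [Nat.card_eq_fintype_card (α := ↥(emb F H)), Fintype.card_coe] at this
  have hfinCopy : Finite ((F.Copy (⊤ : SimpleGraph (Fin n)))) :=
    Finite.of_injective (fun f => (f : W → Fin n)) DFunLike.coe_injective
  have h2 : n.descFactorial (Fintype.card W) ≤ Nat.card (F.Copy (⊤ : SimpleGraph (Fin n))) := by
    have := Nat.card_le_card_of_injective
      (fun e : W ↪ Fin n => (⟨⟨e, fun {a b} hab => (fun h => hab.ne (e.injective h))⟩, e.injective⟩ :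
        F.Copy (⊤ : SimpleGraph (Fin n)))) (by
        intro e e' h
        ext x
        have := congrArg (fun g : F.Copy (⊤ : SimpleGraph (Fin n)) => g x) h
        exact congrArg _ this)
    rwa [Nat.card_eq_fintype_card (α := W ↪ Fin n), Fintype.card_embedding_eq,
      Fintype.card_fin] at this
  have h3 := emb_full_gen hV hΘ0 hΘ F hvn
  have h4 := hcount V H
  have h5 := hcount (Fin n) ⊤
  have haR : (0 : ℝ) < a := by exact_mod_cast ha
  have h6 : (H.copyCount F : ℝ) * a ≤ (((⊤ : SimpleGraph (Fin n)).copyCount F : ℝ) *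
      Θ ^ F.edgeSet.ncard) * a := by
    have e1 : (H.copyCount F : ℝ) * a = (Nat.card (F.Copy H) : ℝ) := by exact_mod_cast h4
    have e2 : ((⊤ : SimpleGraph (Fin n)).copyCount F : ℝ) * a
        = (Nat.card (F.Copy (⊤ : SimpleGraph (Fin n))) : ℝ) := by exact_mod_cast h5
    have h7 : (n.descFactorial (Fintype.card W) : ℝ)
        ≤ (Nat.card (F.Copy (⊤ : SimpleGraph (Fin n))) : ℝ) := by exact_mod_cast h2
    have h8 : (Nat.card (F.Copy H) : ℝ) ≤ (emb F H).card := by exact_mod_cast h1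
    rw [e1]
    calc (Nat.card (F.Copy H) : ℝ) ≤ (emb F H).card := h8
      _ ≤ _ := h3
      _ ≤ Θ ^ F.edgeSet.ncard * (Nat.card (F.Copy (⊤ : SimpleGraph (Fin n))) : ℝ) := by gcongr
      _ = _ := by rw [← e2]; ring
  exact le_of_mul_le_mul_right h6 haR

/-- The number of permutations whose copy contains `U`. -/
theorem spread_count_gen {Θ : ℝ} [Nonempty V] (hΘ : EmbBound n H Θ) (ι : V ↪ Fin n)
    (U : Finset (EdgeSp n)) :
    ((univ.filter fun g : Equiv.Perm (Fin n) => U ⊆ famS H ι g).card : ℝ) ≤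
      Θ ^ U.card * n.factorial := by
  set G := univ.filter fun g : Equiv.Perm (Fin n) => U ⊆ famS H ι g with hGdef
  set a := Fintype.card ↥(supp U) with ha
  have han : a ≤ n := by
    have := Finset.card_le_univ (supp U)
    rw [Fintype.card_fin] at this
    rw [ha, Fintype.card_coe]
    exact this
  have h1 : G.card ≤ (n - a).factorial * (G.image (pullback ι U)).card := by
    refine Finset.card_le_mul_card_image G _ ?_
    intro τ _
    let y : Fin n → Fin n := fun x => if hx : x ∈ supp U then ι (τ ⟨x, hx⟩) else x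
    have h3 : (supp U).card = a := by rw [ha, Fintype.card_coe]
    rw [← Finset.card_image_of_injective _ (inv_injective (G := Equiv.Perm (Fin n)))]
    have h2 := perm_fiber_card (supp U) y
      ((G.filter fun g => pullback ι U g = τ).image (fun g => g⁻¹)) (by
        intro h hh x hx
        obtain ⟨g, hg, rfl⟩ := Finset.mem_image.1 hh
        obtain ⟨h5, h6⟩ := Finset.mem_filter.1 hg
        have hgU : U ⊆ famS H ι g := (Finset.mem_filter.1 h5).2
        have h4 := pullback_spec hgU ⟨x, hx⟩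
        rw [h6] at h4
        simp only [y, hx, dif_pos]
        exact h4.symm)
    rw [Fintype.card_fin, h3] at h2
    exact h2
  have h2 : (G.image (pullback ι U)).card ≤ (emb (suppGraph U) H).card := by
    refine Finset.card_le_card ?_
    intro τ hτ
    obtain ⟨g, hg, rfl⟩ := Finset.mem_image.1 hτ
    exact pullback_mem (Finset.mem_filter.1 hg).2
  have h3 := hΘ _ (suppGraph U) (suppGraph_iso U) han
  rw [suppGraph_edges] at h3
  have hfac : ((n - a).factorial : ℝ) * n.descFactorial a = n.factorial := by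
    exact_mod_cast Nat.factorial_mul_descFactorial han
  calc (G.card : ℝ) ≤ ((n - a).factorial : ℝ) * (G.image (pullback ι U)).card := by
        exact_mod_cast h1
    _ ≤ ((n - a).factorial : ℝ) * (emb (suppGraph U) H).card := by
        gcongr
    _ ≤ ((n - a).factorial : ℝ) * (Θ ^ U.card * n.descFactorial a) := by
        gcongr
    _ = Θ ^ U.card * (((n - a).factorial : ℝ) * n.descFactorial a) := by ring
    _ = _ := by rw [hfac]

/-- The spread lemma applied to the family of copies of `H`, with constant `Θ`. -/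
theorem probContains_large_gen {Θ p₀ : ℝ} [Nonempty V] (hn : 1 ≤ n)
    (ι : V ↪ Fin n) (hΘ0 : 0 < Θ) (hΘ : EmbBound n H Θ)
    (hp : 64 * Θ ≤ p₀) (hp1 : p₀ ≤ 1) {L : ℕ}
    (hL : Fintype.card (EdgeSp n) < 2 ^ L) :
    1 / 2 ≤ probContains n (roundP p₀ L) H := by
  have hp0 : 0 < p₀ := by linarith
  obtain ⟨h0', h1'⟩ := roundP_mem hp0.le hp1 L
  have hfac : (0 : ℝ) < n.factorial := by positivity
  have hcard : Fintype.card (Equiv.Perm (Fin n)) = n.factorial := by
    rw [Fintype.card_perm, Fintype.card_fin]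
  have hspread := spread_final (X := EdgeSp n) hΘ0.le hp hp0 hp1 hL (famS H ι)
    (univ : Finset (Equiv.Perm (Fin n))) (fun _ => 1 / (n.factorial : ℝ))
    (fun _ _ => by positivity) (fun g _ => Finset.card_le_univ _) (by
      intro U
      rw [Finset.sum_const, nsmul_eq_mul, mul_one_div, div_le_iff₀ hfac]
      have := spread_count_gen hΘ ι U
      convert this using 3) (by
      rw [Finset.sum_const, nsmul_eq_mul, Finset.card_univ, hcard]
      field_simp)
  have := probContains_ge (H := H) h0' h1' ι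
  linarith

/-- The threshold from an embedding bound. -/
theorem pc_le_of_embBound {Θ : ℝ} (hn : 2 ≤ n) (hV : Fintype.card V ≤ n) (hH : H ≠ ⊥)
    (hΘ0 : 0 < Θ) (hΘ : EmbBound n H Θ) :
    pc n H ≤ 512 * Real.log n * Θ := by
  obtain ⟨ι⟩ : Nonempty (V ↪ Fin n) :=
    Function.Embedding.nonempty_of_card_le (by simpa using hV)
  obtain ⟨a, b, hab⟩ : ∃ a b, H.Adj a b := by
    by_contra hcon
    push Not at hcon
    apply hH
    ext x y
    simp [hcon x y]
  have : Nonempty V := ⟨a⟩
  have hn2 : (2 : ℝ) ≤ n := by exact_mod_cast hn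
  have hlog2 : (1 : ℝ) / 2 ≤ Real.log 2 := by
    have := Real.log_two_gt_d9
    linarith
  have hlogn2 : Real.log 2 ≤ Real.log n := Real.log_le_log (by norm_num) hn2
  set l := Real.log n with hl
  have hl12 : 1 / 2 ≤ l := hlog2.trans hlogn2
  have hl0 : 0 < l := by linarith
  have hpc1 : pc n H ≤ 1 := pc_le_of_mem (by norm_num) le_rfl (one_mem_pc_set ι)
  by_cases hcase2 : 1 < 64 * Θ
  · refine hpc1.trans ?_
    have : 64 * Θ ≤ 512 * l * Θ := by
      have : (64 : ℝ) ≤ 512 * l := by linarith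
      exact mul_le_mul_of_nonneg_right this hΘ0.le
    linarith
  push Not at hcase2
  set k := Nat.log 2 n with hk
  set L := 2 * (k + 1) with hL
  have hLcard : Fintype.card (EdgeSp n) < 2 ^ L := by
    rw [card_edgeSp, Nat.choose_two_right]
    have h3 : n < 2 ^ (k + 1) := Nat.lt_pow_succ_log_self (by norm_num) n
    have h4 : n * (n - 1) / 2 ≤ n * n := (Nat.div_le_self _ _).trans
      (Nat.mul_le_mul_left _ (Nat.sub_le _ _))
    calc n * (n - 1) / 2 ≤ n * n := h4
      _ < 2 ^ (k + 1) * 2 ^ (k + 1) := Nat.mul_self_lt_mul_self h3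
      _ = 2 ^ L := by
          rw [hL, ← pow_add]
          congr 1
          omega
  have hLreal : (L : ℝ) ≤ 8 * l := by
    have h3 : 2 ^ k ≤ n := Nat.pow_log_le_self 2 (by omega)
    have h4 : ((2 : ℝ) ^ k) ≤ n := by exact_mod_cast h3
    have h5 := Real.log_le_log (by positivity) h4
    rw [Real.log_pow] at h5
    have h6 : (k : ℝ) ≤ 2 * l := by
      have hk0 : (0 : ℝ) ≤ k := Nat.cast_nonneg _
      nlinarith
    rw [hL]
    push_cast
    linarith
  have hmain := probContains_large_gen (by omega) ι hΘ0 hΘ (le_refl (64 * Θ)) hcase2 hLcard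
  have hp₀0 : 0 ≤ 64 * Θ := by positivity
  obtain ⟨h3, h4⟩ := roundP_mem hp₀0 hcase2 L
  refine (pc_le_of_mem h3 h4 hmain).trans ?_
  refine (roundP_le hp₀0 hcase2 L).trans ?_
  calc (L : ℝ) * (64 * Θ) ≤ (8 * l) * (64 * Θ) := mul_le_mul_of_nonneg_right hLreal hp₀0
    _ = _ := by ring

/-- The fractional threshold from an embedding bound. -/
theorem pTilde_le_of_embBound {Θ : ℝ} (hV : Fintype.card V ≤ n)
    (hΘ0 : 0 < Θ) (hΘ : EmbBound n H Θ) :
    pTilde n H ≤ Θ := by
  have hfin : ∀ F : H.Subgraph, Fintype.card ↥F.verts ≤ n := by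
    intro F
    refine le_trans ?_ hV
    exact Fintype.card_le_of_injective (Subtype.val) Subtype.val_injective
  have hmem1 : pTilde n H ≤ 1 := by
    refine csInf_le ⟨0, fun _ hy => hy.1⟩ ⟨by norm_num, le_rfl, ?_⟩
    intro F
    rw [expCount_eq, one_pow, mul_one]
    have h2 : (H.copyCount F.coe : ℝ) ≤ ((⊤ : SimpleGraph (Fin n)).copyCount F.coe : ℝ) := by
      exact_mod_cast copyCount_le_top hV F.coe
    have h3 : (0 : ℝ) ≤ (H.copyCount F.coe : ℝ) := Nat.cast_nonneg _
    linarith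
  by_cases hcase2 : 1 < Θ
  · exact hmem1.trans hcase2.le
  push Not at hcase2
  refine csInf_le ⟨0, fun _ hy => hy.1⟩ ⟨hΘ0.le, hcase2, ?_⟩
  intro F
  rw [expCount_eq]
  have h2 := copyCount_le_top_mul_gen hV hΘ0.le hΘ F.coe (hfin F)
  have h3 : (0 : ℝ) ≤ (H.copyCount F.coe : ℝ) := Nat.cast_nonneg _
  linarith

end Vale.Agent.Lib.P064
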