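import Vale.Agent.Lib.P064.PeelGen

/-!
The choice of the peeling parameters when `q` is not too small.
-/

open Finset

namespace Vale.Agent.Lib.P064

open scoped Classical

variable {V : Type} [Fintype V] {H : SimpleGraph V} {n : ℕ} {q : ℝ}

/-- Elementary bounds on `y = log (1 + x)`. -/
lemma log_one_add_bounds {x : ℝ} (hx : 100 ≤ x) :
    4 * Real.log (1 + x) ≤ x ∧ Real.log (1 + x) ^ 2 ≤ 8 * x := by
  have h0 : 0 < 1 + x := by linarith
  constructor
  · -- `log t ≤ t - 1` at `t = (1 + x) / 16`, with `log 16 = 4 log 2 ≤ 3`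
    have h1 := Real.log_le_sub_one_of_pos (x := (1 + x) / 16) (by positivity)
    rw [Real.log_div h0.ne' (by norm_num)] at h1
    have h2 : Real.log 16 = 4 * Real.log 2 := by
      rw [show (16 : ℝ) = 2 ^ 4 by norm_num, Real.log_pow]
      norm_num
    have h3 := Real.log_two_lt_d9
    rw [h2] at h1
    linarith
  · -- `log t ≤ t - 1` at `t = sqrt (1 + x)`
    have hs : 0 < Real.sqrt (1 + x) := Real.sqrt_pos.2 h0
    have h1 := Real.log_le_sub_one_of_pos hs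
    rw [Real.log_sqrt h0.le] at h1
    have hy : 0 ≤ Real.log (1 + x) := Real.log_nonneg (by linarith)
    have h2 : Real.log (1 + x) ≤ 2 * Real.sqrt (1 + x) := by linarith
    have h3 : Real.sqrt (1 + x) ^ 2 = 1 + x := Real.sq_sqrt h0.le
    calc Real.log (1 + x) ^ 2 ≤ (2 * Real.sqrt (1 + x)) ^ 2 := pow_le_pow_left₀ hy h2 2
      _ = 4 * (1 + x) := by rw [mul_pow, h3]; norm_num
      _ ≤ 8 * x := by linarith

/-- The exponent in the peeling constant. -/
lemma peel_exponent {x Q y θ : ℝ} (hx : 100 ≤ x) (hQ1 : 1 ≤ Q) (hQ : 2 * Q < x) (hy0 : 0 ≤ y)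
    (hy4 : 4 * y ≤ x) (hy2 : y ^ 2 ≤ 8 * x) (hθ : θ = (x - 2 * y) / Q) (hθ1 : 1 ≤ θ)
    (hye : y = Real.log (1 + x)) :
    2 * Real.log (2 * (1 + x) * (θ + 2)) / θ ≤ 38 + 2 * Q * y / x := by
  have hxpos : 0 < x := by linarith
  have hQ0 : 0 < Q := by linarith
  have hθ0 : 0 < θ := by linarith
  have hℓ0 : 0 < 1 + x := by linarith
  have hd : 0 < x - 2 * y := by linarith
  have hxy : x / 2 ≤ x - 2 * y := by linarith
  have hwsplit : Real.log (2 * (1 + x) * (θ + 2)) = Real.log 2 + y + Real.log (θ + 2) := by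
    rw [Real.log_mul (by positivity) (by positivity), Real.log_mul (by norm_num) hℓ0.ne', hye]
  have hl2 : Real.log 2 ≤ 1 := by
    have := Real.log_two_lt_d9
    linarith
  have hl3 : Real.log (θ + 2) ≤ θ + 1 := by
    have := Real.log_le_sub_one_of_pos (x := θ + 2) (by linarith)
    linarith
  -- the non-`y` part is at most `6`
  have h1 : 2 * (Real.log 2 + Real.log (θ + 2)) / θ ≤ 6 := by
    rw [div_le_iff₀ hθ0]
    linarith
  -- the `y` part
  have h3 : 2 * y / θ = 2 * Q * y / (x - 2 * y) := by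
    rw [hθ]
    field_simp
  have h4 : 2 * Q * y / (x - 2 * y) - 2 * Q * y / x = 4 * Q * y ^ 2 / (x * (x - 2 * y)) := by
    field_simp
    ring
  have h5 : 4 * Q * y ^ 2 / (x * (x - 2 * y)) ≤ 32 := by
    rw [div_le_iff₀ (by positivity)]
    have h7 : x * (x / 2) ≤ x * (x - 2 * y) := mul_le_mul_of_nonneg_left hxy hxpos.le
    have h8 : 4 * Q * y ^ 2 ≤ 2 * x * y ^ 2 := by
      have h9 : 0 ≤ y ^ 2 := by positivity
      have h10 : 4 * Q ≤ 2 * x := by linarith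
      exact mul_le_mul_of_nonneg_right h10 h9
    have h9 : 2 * x * y ^ 2 ≤ 2 * x * (8 * x) :=
      mul_le_mul_of_nonneg_left hy2 (by positivity)
    have h10 : 2 * x * (8 * x) = 32 * (x * (x / 2)) := by ring
    have h11 : 32 * (x * (x / 2)) ≤ 32 * (x * (x - 2 * y)) :=
      mul_le_mul_of_nonneg_left h7 (by norm_num)
    linarith
  have h6 : 2 * Real.log (2 * (1 + x) * (θ + 2)) / θ
      = 2 * (Real.log 2 + Real.log (θ + 2)) / θ + 2 * y / θ := by
    rw [hwsplit]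
    ring
  rw [h6, h3]
  linarith

/-- The light vertices of the peeling. -/
lemma peel_light_num {x Q y θ : ℝ} (hn0 : (0 : ℝ) < n) (hq : q = Real.exp (-Q))
    (hxn : x = Real.log n) (hx : 100 ≤ x) (hQ1 : 1 ≤ Q) (hye : y = Real.log (1 + x))
    (hθ : θ * Q = x - 2 * y) (hθx : θ ≤ x) {d : ℕ} (hdθ : (d : ℝ) < θ) :
    (d : ℝ) * x ≤ (8 * Real.exp 2) * ((n : ℝ) * q ^ d) := by
  have hQ0 : 0 < Q := by linarith
  have h1 : (n : ℝ) * q ^ d = Real.exp (x - d * Q) := by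
    rw [Real.exp_sub, hq, hxn, Real.exp_log hn0, ← Real.exp_nat_mul, div_eq_mul_inv,
      ← Real.exp_neg]
    congr 2
    ring
  have h2 : (d : ℝ) * Q ≤ x - 2 * y := by
    rw [← hθ]
    exact mul_le_mul_of_nonneg_right hdθ.le hQ0.le
  have h3 : Real.exp (2 * y) ≤ Real.exp (x - d * Q) := Real.exp_le_exp.2 (by linarith)
  have h4 : Real.exp (2 * y) = (1 + x) ^ 2 := by
    rw [show 2 * y = ((2 : ℕ) : ℝ) * y by norm_num, Real.exp_nat_mul, hye,
      Real.exp_log (by linarith)]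
  have h5 : (d : ℝ) * x ≤ (1 + x) ^ 2 := by
    have h6 : (d : ℝ) ≤ x := by linarith
    have h7 : (d : ℝ) * x ≤ x * x := mul_le_mul_of_nonneg_right h6 (by linarith)
    nlinarith
  have h6 : (1 : ℝ) ≤ 8 * Real.exp 2 := by
    have := Real.one_le_exp (x := 2) (by norm_num)
    linarith
  rw [h1]
  have h7 : 0 < Real.exp (x - d * Q) := Real.exp_pos _
  calc (d : ℝ) * x ≤ Real.exp (x - d * Q) := by rw [h4] at h3; exact h5.trans h3
    _ = 1 * Real.exp (x - d * Q) := (one_mul _).symm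
    _ ≤ _ := mul_le_mul_of_nonneg_right h6 h7.le

/-- The size of `κ`. -/
lemma peel_kappa {w θ z : ℝ} (hθ0 : 0 < θ) (hz0 : 0 ≤ z) (hmain : 2 * w / θ ≤ 38 + z) :
    (max 2 (Real.exp (w / θ))) ^ 2 ≤ 5 * Real.exp 38 * Real.exp z := by
  have h1 : (Real.exp (w / θ)) ^ 2 = Real.exp (2 * w / θ) := by
    rw [← Real.exp_nat_mul]
    congr 1
    push_cast
    ring
  have h2 : Real.exp (2 * w / θ) ≤ Real.exp 38 * Real.exp z := by
    rw [← Real.exp_add]
    exact Real.exp_le_exp.2 hmain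
  have h3 : (1 : ℝ) ≤ Real.exp 38 * Real.exp z := by
    rw [← Real.exp_add]
    exact Real.one_le_exp (by linarith)
  rcases max_cases (2 : ℝ) (Real.exp (w / θ)) with ⟨h, _⟩ | ⟨h, _⟩
  · rw [h]
    linarith
  · rw [h, h1]
    linarith

/-- Powers of `κ`. -/
lemma peel_kappa_pow {w θ : ℝ} {T : ℕ} (hθ0 : 0 < θ) (hw : 0 ≤ w) (hTθ : θ ≤ T) :
    Real.exp w ≤ (max 2 (Real.exp (w / θ))) ^ T := by
  have h1 : Real.exp (w / θ) ^ T ≤ (max 2 (Real.exp (w / θ))) ^ T :=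
    pow_le_pow_left₀ (Real.exp_pos _).le (le_max_right _ _) T
  have h2 : Real.exp (w / θ) ^ T = Real.exp (T * (w / θ)) := (Real.exp_nat_mul _ _).symm
  have h3 : w ≤ T * (w / θ) := by
    have h4 : w = θ * (w / θ) := by field_simp
    have h5 : 0 ≤ w / θ := by positivity
    calc w = θ * (w / θ) := h4
      _ ≤ T * (w / θ) := mul_le_mul_of_nonneg_right hTθ h5
  have h5 : Real.exp w ≤ Real.exp (T * (w / θ)) := Real.exp_le_exp.2 h3
  rw [h2] at h1
  exact h5.trans h1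

/-- The embedding bound in the dense range. -/
theorem embBound_dense (hn : 1 ≤ n) (hV : Fintype.card V ≤ n) (hq0 : 0 < q)
    (hqe : q ≤ Real.exp (-1)) (hG : GoodDensity n q H) (hx : 100 ≤ Real.log n)
    (hQ : 2 * (- Real.log q) < Real.log n) :
    ∃ Θ : ℝ, 0 < Θ ∧ EmbBound n H Θ ∧
      Θ ≤ (1280 * Real.exp 44) * q *
        Real.exp (2 * (- Real.log q) * Real.log (1 + Real.log n) / Real.log n) := by
  obtain ⟨x, hxdef⟩ : ∃ x, x = Real.log n := ⟨_, rfl⟩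
  obtain ⟨Q, hQdef⟩ : ∃ Q, Q = - Real.log q := ⟨_, rfl⟩
  obtain ⟨y, hydef⟩ : ∃ y, y = Real.log (1 + x) := ⟨_, rfl⟩
  rw [← hxdef] at hx hQ ⊢
  rw [← hQdef] at hQ ⊢
  rw [← hydef]
  have hn1 : (1 : ℝ) ≤ n := by exact_mod_cast hn
  have hn0 : (0 : ℝ) < n := by linarith
  have hxpos : 0 < x := by linarith
  have hQ1 : 1 ≤ Q := by
    have := Real.log_le_log hq0 hqe
    rw [Real.log_exp] at this
    rw [hQdef]
    linarith
  have hQ0 : 0 < Q := by linarith
  have hqexp : q = Real.exp (-Q) := by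
    rw [hQdef, neg_neg, Real.exp_log hq0]
  obtain ⟨hy4', hy2'⟩ := log_one_add_bounds hx
  rw [← hydef] at hy4' hy2'
  have hy0 : 0 ≤ y := by
    rw [hydef]
    exact Real.log_nonneg (by linarith)
  -- the threshold
  obtain ⟨θ, hθ⟩ : ∃ θ, θ = (x - 2 * y) / Q := ⟨_, rfl⟩
  have hxy : x / 2 ≤ x - 2 * y := by linarith
  have hθ1 : 1 ≤ θ := by
    rw [hθ, le_div_iff₀ hQ0]
    linarith
  have hθ0 : 0 < θ := by linarith
  have hθQ : θ * Q = x - 2 * y := by
    rw [hθ]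
    field_simp
  have hθx : θ ≤ x := by
    rw [hθ, div_le_iff₀ hQ0]
    have h1 : x * 1 ≤ x * Q := mul_le_mul_of_nonneg_left hQ1 hxpos.le
    linarith
  obtain ⟨T, hTdef⟩ : ∃ T, T = ⌈θ⌉₊ := ⟨_, rfl⟩
  have hTθ : θ ≤ T := by
    rw [hTdef]
    exact Nat.le_ceil θ
  have hTθ' : (T : ℝ) < θ + 1 := by
    rw [hTdef]
    exact Nat.ceil_lt_add_one hθ0.le
  have hT1 : 1 ≤ T := by
    have : (0 : ℝ) < T := by linarith
    exact_mod_cast this
  -- the constant
  obtain ⟨w, hw⟩ : ∃ w, w = Real.log (2 * (1 + x) * (θ + 2)) := ⟨_, rfl⟩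
  have hprod : 0 < 2 * (1 + x) * (θ + 2) := by positivity
  have hprod1 : 1 ≤ 2 * (1 + x) * (θ + 2) := by nlinarith
  have hwpos : 0 ≤ w := by
    rw [hw]
    exact Real.log_nonneg hprod1
  have hwexp : Real.exp w = 2 * (1 + x) * (θ + 2) := by
    rw [hw]
    exact Real.exp_log hprod
  obtain ⟨κ, hκ⟩ : ∃ κ, κ = max 2 (Real.exp (w / θ)) := ⟨_, rfl⟩
  have hκ2 : 2 ≤ κ := by
    rw [hκ]
    exact le_max_left _ _
  have hκ0 : 0 < κ := by linarith
  -- `κ ^ T` is large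
  have hZ : 2 * (1 + x) * (θ + 2) ≤ κ ^ T := by
    rw [← hwexp, hκ]
    exact peel_kappa_pow hθ0 hwpos hTθ
  have hcZ : 2 * x + 1 ≤ κ ^ T := by
    refine le_trans ?_ hZ
    have h1 : 2 * (1 + x) * 1 ≤ 2 * (1 + x) * (θ + 2) :=
      mul_le_mul_of_nonneg_left (by linarith) (by linarith)
    linarith
  have hLZ : (T : ℝ) * x ≤ κ ^ T := by
    refine le_trans ?_ hZ
    have h2 : (T : ℝ) * x ≤ (θ + 1) * (1 + x) :=
      mul_le_mul hTθ'.le (by linarith) hxpos.le (by linarith)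
    have h3 : (θ + 1) * (1 + x) ≤ (θ + 2) * (2 * (1 + x)) :=
      mul_le_mul (by linarith) (by linarith) (by linarith) (by linarith)
    linarith
  have hlight : ∀ d : ℕ, 1 ≤ d → d < T →
      (d : ℝ) * x ≤ (8 * Real.exp 2) * ((n : ℝ) * q ^ d) := by
    intro d _ hd
    rw [hTdef] at hd
    exact peel_light_num hn0 hqexp hxdef hx hQ1 hydef hθQ hθx (Nat.lt_ceil.1 hd)
  rw [hxdef] at hcZ hLZ hlight
  have hE := embBound_of_peel hn hV hq0 hqe hG hκ2 hT1 hcZ hLZ hlight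
  refine ⟨256 * Real.exp 6 * κ ^ 2 * q, by positivity, hE, ?_⟩
  -- the size of `κ`
  have hz0 : 0 ≤ 2 * Q * y / x := by positivity
  have hmain : 2 * w / θ ≤ 38 + 2 * Q * y / x := by
    rw [hw]
    exact peel_exponent hx hQ1 hQ hy0 hy4' hy2' hθ hθ1 hydef
  have hκsq : κ ^ 2 ≤ 5 * Real.exp 38 * Real.exp (2 * Q * y / x) := by
    rw [hκ]
    exact peel_kappa hθ0 hz0 hmain
  have h66 : Real.exp 44 = Real.exp 6 * Real.exp 38 := by
    rw [← Real.exp_add]
    norm_num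
  have hq00 : 0 ≤ q := hq0.le
  calc 256 * Real.exp 6 * κ ^ 2 * q
      ≤ 256 * Real.exp 6 * (5 * Real.exp 38 * Real.exp (2 * Q * y / x)) * q := by
        gcongr
    _ = _ := by
        rw [h66]
        ring

end Vale.Agent.Lib.P064
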