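import Mathlib

/-!
Counting restrictions of a family of maps to growing coordinate sets.
-/

open Finset

namespace Vale.Agent.Lib.P064

open scoped Classical

variable {V α : Type}

/-- Restriction of `φ` to the coordinates in `E`, `none` off `E`. -/
noncomputable def proj (E : Finset α) (φ : α → V) : α → Option V :=
  fun x => if x ∈ E then some (φ x) else none

/-- Forget coordinates off `E`. -/
noncomputable def res (E : Finset α) (ψ : α → Option V) : α → Option V :=
  fun x => if x ∈ E then ψ x else none

lemma res_proj {D D' : Finset α} (h : D ⊆ D') (φ : α → V) : res D (proj D' φ) = proj D φ := by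
  funext x
  unfold res proj
  by_cases hx : x ∈ D
  · simp [hx, h hx]
  · simp [hx]

lemma proj_univ_injective [Fintype α] : Function.Injective (proj (univ : Finset α) : (α → V) → _) := by
  intro φ φ' h
  funext x
  have := congrFun h x
  simpa [proj] using this

variable [DecidableEq (α → Option V)]

lemma card_image_proj_step (S : Finset (α → V)) {D D' : Finset α} (h : D ⊆ D') (n : ℕ)
    (hn : ∀ φ₀ ∈ S, ((S.filter (fun φ => proj D φ = proj D φ₀)).image (proj D')).card ≤ n) :
    (S.image (proj D')).card ≤ n * (S.image (proj D)).card := by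
  have h1 := Finset.card_le_mul_card_image (f := res D) (S.image (proj D')) n ?_
  · refine h1.trans (Nat.mul_le_mul_left _ (Finset.card_le_card ?_))
    intro a ha
    obtain ⟨ψ, hψ, rfl⟩ := Finset.mem_image.1 ha
    obtain ⟨φ, hφ, rfl⟩ := Finset.mem_image.1 hψ
    rw [res_proj h]
    exact Finset.mem_image_of_mem _ hφ
  · intro a ha
    obtain ⟨ψ, hψ, rfl⟩ := Finset.mem_image.1 ha
    obtain ⟨φ₀, hφ₀, rfl⟩ := Finset.mem_image.1 hψ
    refine le_trans (Finset.card_le_card ?_) (hn φ₀ hφ₀)
    intro ψ hψ'
    obtain ⟨h1, h2⟩ := Finset.mem_filter.1 hψ'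
    obtain ⟨φ, hφ, rfl⟩ := Finset.mem_image.1 h1
    rw [res_proj h, res_proj h] at h2
    exact Finset.mem_image_of_mem _ (Finset.mem_filter.2 ⟨hφ, h2⟩)

lemma proj_insert_eq {D : Finset α} {v : α} {φ φ₀ : α → V} (h : proj D φ = proj D φ₀) :
    proj (insert v D) φ = Function.update (proj D φ₀) v (some (φ v)) := by
  funext x
  by_cases hx : x = v
  · subst hx
    simp [proj]
  · rw [Function.update_of_ne hx, ← h]
    simp [proj, hx]

lemma proj_eq_apply {D : Finset α} {u : α} (hu : u ∈ D) {φ φ₀ : α → V}
    (h : proj D φ = proj D φ₀) : φ u = φ₀ u := by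
  have := congrFun h u
  simpa [proj, hu] using this

/-- One vertex added along an arc multiplies the number of restrictions by at most `c`. -/
lemma card_image_proj_insert [Fintype V] (Arc : V → V → Prop) (c : ℕ)
    (hc : ∀ a, (univ.filter fun b => Arc a b).card ≤ c) (S : Finset (α → V)) {D : Finset α}
    {u v : α} (hu : u ∈ D) (hR : ∀ φ ∈ S, Arc (φ u) (φ v)) :
    (S.image (proj (insert v D))).card ≤ c * (S.image (proj D)).card := by
  refine card_image_proj_step S (Finset.subset_insert _ _) c ?_
  intro φ₀ _
  set S' := S.filter (fun φ => proj D φ = proj D φ₀) with hS'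
  have h1 : S'.image (proj (insert v D)) ⊆
      (univ.filter fun b => Arc (φ₀ u) b).image
        (fun b => Function.update (proj D φ₀) v (some b)) := by
    intro ψ hψ
    obtain ⟨φ, hφ, rfl⟩ := Finset.mem_image.1 hψ
    obtain ⟨h2, h3⟩ := Finset.mem_filter.1 hφ
    refine Finset.mem_image.2 ⟨φ v, Finset.mem_filter.2 ⟨mem_univ _, ?_⟩, (proj_insert_eq h3).symm⟩
    have := hR φ h2
    rwa [proj_eq_apply hu h3] at this
  exact (Finset.card_le_card h1).trans (Finset.card_image_le.trans (hc _))

/-- Growth along arcs of the relation `R`. -/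
lemma grow_card [Fintype V] (Arc : V → V → Prop) (c : ℕ)
    (hc : ∀ a, (univ.filter fun b => Arc a b).card ≤ c) (S : Finset (α → V))
    (R : Finset (α × α)) (hR : ∀ φ ∈ S, ∀ d ∈ R, Arc (φ d.1) (φ d.2)) {W G₀ : Finset α}
    (hconn : ∀ D : Finset α, G₀ ⊆ D → D ⊆ W → D ≠ W → ∃ u ∈ D, ∃ v ∈ W \ D, (u, v) ∈ R)
    (D : Finset α) (hG : G₀ ⊆ D) (hD : D ⊆ W) :
    (S.image (proj W)).card ≤ c ^ (W \ D).card * (S.image (proj D)).card := by
  induction h : (W \ D).card generalizing D with
  | zero =>
    have : D = W := by
      apply Finset.Subset.antisymm hD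
      intro x hx
      by_contra hxD
      have : x ∈ W \ D := Finset.mem_sdiff.2 ⟨hx, hxD⟩
      rw [Finset.card_eq_zero.1 h] at this
      simp at this
    rw [this]
    simp
  | succ k ih =>
    have hne : D ≠ W := by
      rintro rfl
      simp at h
    obtain ⟨u, hu, v, hv, huv⟩ := hconn D hG hD hne
    obtain ⟨hvW, hvD⟩ := Finset.mem_sdiff.1 hv
    have h1 : insert v D ⊆ W := Finset.insert_subset hvW hD
    have h2 : (W \ insert v D).card = k := by
      have : W \ insert v D = (W \ D).erase v := by
        ext y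
        simp only [Finset.mem_sdiff, Finset.mem_insert, Finset.mem_erase]
        tauto
      rw [this, Finset.card_erase_of_mem hv, h]
      simp
    have h3 := ih (insert v D) (hG.trans (Finset.subset_insert _ _)) h1 h2
    have h4 := card_image_proj_insert Arc c hc S (D := D) (u := u) (v := v) hu
      (fun φ hφ => hR φ hφ (u, v) huv)
    calc (S.image (proj W)).card ≤ c ^ k * (S.image (proj (insert v D))).card := h3
      _ ≤ c ^ k * (c * (S.image (proj D)).card) := Nat.mul_le_mul_left _ h4
      _ = c ^ (k + 1) * (S.image (proj D)).card := by ring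

end Vale.Agent.Lib.P064
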