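import Mathlib

/-!
The numerical heart of the sharp block bound: the loss per edge is `exp (Q W / x)`, where
`q = exp (-Q)`, `n = exp x` and `exp W` bounds both the out-degree of the orientation and `x`.
The number of disjoint copies of the block is also bounded by the number of vertices.
-/

namespace Vale.Agent.Lib.P064

lemma sq_le_four_pow (a : ℕ) : ((a : ℝ)) ^ 2 ≤ 4 ^ a := by
  have h : a < 2 ^ a := Nat.lt_two_pow_self
  have h1 : (a : ℝ) ≤ 2 ^ a := by exact_mod_cast h.le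
  have h2 : ((a : ℝ)) ^ 2 ≤ (2 ^ a) ^ 2 := pow_le_pow_left₀ (Nat.cast_nonneg _) h1 2
  refine h2.trans (le_of_eq ?_)
  rw [← pow_mul, mul_comm, pow_mul]
  norm_num

lemma sq_mul_exp_le (a : ℕ) {s : ℝ} (hs : s ≤ 2) :
    ((a : ℝ)) ^ 2 * Real.exp (a * s) ≤ (8 * Real.exp 2) ^ a := by
  have h1 := sq_le_four_pow a
  have h2 : Real.exp (a * s) ≤ Real.exp 2 ^ a := by
    rw [← Real.exp_nat_mul]
    apply Real.exp_le_exp.2
    exact mul_le_mul_of_nonneg_left hs (Nat.cast_nonneg _)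
  have h3 : (4 : ℝ) ^ a ≤ 8 ^ a := pow_le_pow_left₀ (by norm_num) (by norm_num) a
  rw [mul_pow]
  have h4 : (0 : ℝ) ≤ Real.exp (a * s) := (Real.exp_pos _).le
  have h5 : (0 : ℝ) ≤ (8 : ℝ) ^ a := by positivity
  calc ((a : ℝ)) ^ 2 * Real.exp (a * s) ≤ 4 ^ a * Real.exp (a * s) :=
        mul_le_mul_of_nonneg_right h1 h4
    _ ≤ 8 ^ a * Real.exp (a * s) := mul_le_mul_of_nonneg_right h3 h4
    _ ≤ 8 ^ a * Real.exp 2 ^ a := mul_le_mul_of_nonneg_left h2 h5

/-- The numerical heart of the sharp block bound. -/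
theorem sharp_numeric {a b m t c : ℕ} {x Q W N ρ : ℝ} (ha : 1 ≤ a) (hab : a + b ≤ m + 1)
    (hx : 0 < x) (hW0 : 0 ≤ W) (hWx : W ≤ x) (hxW : x ≤ Real.exp W) (hc : (c : ℝ) ≤ Real.exp W)
    (hN : N = Real.exp x) (hρdef : ρ = Real.exp (a * x - m * Q))
    (hρ : Real.exp (-(a : ℝ)) ≤ ρ) (ht1 : 1 ≤ t)
    (hdich : (t : ℝ) ≤ b * x ∨ (t : ℝ) ≤ Real.exp 2 * ρ)
    (htN : (t : ℝ) * a ≤ N) :
    (a : ℝ) * (t * a) * c ^ (a - 1) ≤
      (8 * Real.exp 2) ^ a * (Real.exp 1 * Real.exp (Q * W / x)) ^ m * ρ := by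
  have ha0 : (0 : ℝ) < a := by exact_mod_cast ha
  have ha1 : (1 : ℝ) ≤ a := by exact_mod_cast ha
  have hm0 : (0 : ℝ) ≤ m := Nat.cast_nonneg _
  have ht0 : (0 : ℝ) ≤ t := Nat.cast_nonneg _
  have ht1' : (1 : ℝ) ≤ t := by exact_mod_cast ht1
  obtain ⟨u, hu⟩ : ∃ u : ℝ, u = m * Q / x := ⟨_, rfl⟩
  have hux : u * x = m * Q := by
    rw [hu]
    field_simp
  have huW : m * (Q * W / x) = u * W := by
    rw [hu]
    field_simp
  -- the power of the constant
  have hKm : (Real.exp 1 * Real.exp (Q * W / x)) ^ m = Real.exp m * Real.exp (u * W) := by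
    rw [← Real.exp_add, ← Real.exp_nat_mul, ← huW, ← Real.exp_add]
    congr 1
    ring
  rw [hKm]
  -- the power of `c`
  have hcast : ((a - 1 : ℕ) : ℝ) = (a : ℝ) - 1 := by
    rw [Nat.cast_sub ha]
    simp
  have hcp : (c : ℝ) ^ (a - 1) ≤ Real.exp (((a : ℝ) - 1) * W) := by
    rw [← hcast, Real.exp_nat_mul]
    exact pow_le_pow_left₀ (Nat.cast_nonneg _) hc _
  have hcp0 : (0 : ℝ) ≤ (c : ℝ) ^ (a - 1) := by positivity
  have hρ0 : 0 < ρ := by
    rw [hρdef]
    exact Real.exp_pos _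
  have hρexp : ρ = Real.exp ((a : ℝ) * x - u * x) := by
    rw [hρdef, hux]
  have hA0 : (0 : ℝ) < (8 * Real.exp 2) ^ a := by positivity
  by_cases hy : u ≤ (a : ℝ) - 1
  · -- many vertices: bound the disjoint copies by the number of vertices
    have h1 : (a : ℝ) * (t * a) * c ^ (a - 1) ≤ (a : ℝ) * N * Real.exp (((a : ℝ) - 1) * W) :=
      mul_le_mul (mul_le_mul_of_nonneg_left htN ha0.le) hcp hcp0
        (mul_nonneg ha0.le (by rw [hN]; positivity))
    refine h1.trans ?_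
    have h2 : (a : ℝ) ≤ (8 * Real.exp 2) ^ a * Real.exp m := by
      have h3 := sq_mul_exp_le a (s := 0) (by norm_num)
      simp only [mul_zero, Real.exp_zero, mul_one] at h3
      have h4 : (a : ℝ) ≤ (a : ℝ) ^ 2 := by nlinarith
      have h5 : (1 : ℝ) ≤ Real.exp m := Real.one_le_exp hm0
      calc (a : ℝ) ≤ (8 * Real.exp 2) ^ a := h4.trans h3
        _ ≤ (8 * Real.exp 2) ^ a * Real.exp m := le_mul_of_one_le_right hA0.le h5
    have h6 : N * Real.exp (((a : ℝ) - 1) * W) ≤ Real.exp (u * W) * ρ := by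
      rw [hN, hρexp, ← Real.exp_add, ← Real.exp_add]
      apply Real.exp_le_exp.2
      have h7 : ((a : ℝ) - 1 - u) * W ≤ ((a : ℝ) - 1 - u) * x :=
        mul_le_mul_of_nonneg_left hWx (by linarith)
      nlinarith
    have h8 : 0 ≤ Real.exp (u * W) * ρ := by positivity
    have h9 : (0 : ℝ) ≤ N * Real.exp (((a : ℝ) - 1) * W) := by
      rw [hN]
      positivity
    calc (a : ℝ) * N * Real.exp (((a : ℝ) - 1) * W)
        = (a : ℝ) * (N * Real.exp (((a : ℝ) - 1) * W)) := by ring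
      _ ≤ ((8 * Real.exp 2) ^ a * Real.exp m) * (Real.exp (u * W) * ρ) :=
          mul_le_mul h2 h6 h9 (by positivity)
      _ = _ := by ring
  push Not at hy
  have hcW : Real.exp (((a : ℝ) - 1) * W) ≤ Real.exp (u * W) :=
    Real.exp_le_exp.2 (mul_le_mul_of_nonneg_right hy.le hW0)
  have hexpm1 : (1 : ℝ) ≤ Real.exp m := Real.one_le_exp hm0
  rcases hdich with hb | hρt
  · -- few copies because the rate is small
    have hb0 : (0 : ℝ) ≤ b := Nat.cast_nonneg _
    have hbm : (b : ℝ) ≤ Real.exp m := by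
      have h1 : (b : ℝ) ≤ m := by
        have : b ≤ m := by omega
        exact_mod_cast this
      have h2 := Real.add_one_le_exp (m : ℝ)
      linarith
    -- the key exponent inequality
    have hkey : x * Real.exp (((a : ℝ) - 1) * W) ≤ Real.exp a * (Real.exp (u * W) * ρ) := by
      have hxexp : x = Real.exp (Real.log x) := (Real.exp_log hx).symm
      have hlogW : Real.log x ≤ W := by
        have := Real.log_le_log hx hxW
        rwa [Real.log_exp] at this
      have hlogx : Real.log x ≤ x := (Real.log_le_sub_one_of_pos hx).trans (by linarith)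
      rw [hρexp]
      nth_rewrite 1 [hxexp]
      rw [← Real.exp_add, ← Real.exp_add, ← Real.exp_add]
      apply Real.exp_le_exp.2
      by_cases hy' : 0 ≤ (a : ℝ) - u
      · -- `y' ≥ 0`
        have h1 : (1 - ((a : ℝ) - u)) * Real.log x ≤ (1 - ((a : ℝ) - u)) * W :=
          mul_le_mul_of_nonneg_left hlogW (by linarith)
        have h2 : ((a : ℝ) - u) * Real.log x ≤ ((a : ℝ) - u) * x :=
          mul_le_mul_of_nonneg_left hlogx hy'
        nlinarith
      · -- `y' < 0`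
        push Not at hy'
        have h1 : -(a : ℝ) ≤ (a : ℝ) * x - u * x := by
          have h2 := hρ
          rw [hρexp] at h2
          exact Real.exp_le_exp.1 h2
        have h3 : ((a : ℝ) - u) * W ≤ 0 := mul_nonpos_of_nonpos_of_nonneg hy'.le hW0
        nlinarith
    have h1 : (a : ℝ) * (t * a) * c ^ (a - 1) ≤
        (a : ℝ) ^ 2 * (b * x) * Real.exp (((a : ℝ) - 1) * W) := by
      have h2 : (a : ℝ) * (t * a) = (a : ℝ) ^ 2 * t := by ring
      rw [h2]
      exact mul_le_mul (mul_le_mul_of_nonneg_left hb (by positivity)) hcp hcp0 (by positivity)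
    refine h1.trans ?_
    have h3 : (a : ℝ) ^ 2 * Real.exp a ≤ (8 * Real.exp 2) ^ a := by
      have := sq_mul_exp_le a (s := 1) (by norm_num)
      rwa [mul_one] at this
    calc (a : ℝ) ^ 2 * (b * x) * Real.exp (((a : ℝ) - 1) * W)
        = (a : ℝ) ^ 2 * b * (x * Real.exp (((a : ℝ) - 1) * W)) := by ring
      _ ≤ (a : ℝ) ^ 2 * Real.exp m * (Real.exp a * (Real.exp (u * W) * ρ)) :=
          mul_le_mul (mul_le_mul_of_nonneg_left hbm (by positivity)) hkey (by positivity)
            (by positivity)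
      _ = ((a : ℝ) ^ 2 * Real.exp a) * (Real.exp m * Real.exp (u * W) * ρ) := by ring
      _ ≤ (8 * Real.exp 2) ^ a * (Real.exp m * Real.exp (u * W) * ρ) :=
          mul_le_mul_of_nonneg_right h3 (by positivity)
      _ = _ := by ring
  · -- the number of copies is at most the rate
    have h1 : (a : ℝ) * (t * a) * c ^ (a - 1) ≤
        ((a : ℝ) ^ 2 * Real.exp 2) * ρ * Real.exp (u * W) := by
      have h2 : (a : ℝ) * (t * a) = (a : ℝ) ^ 2 * t := by ring
      rw [h2]
      have h3 : (a : ℝ) ^ 2 * t ≤ ((a : ℝ) ^ 2 * Real.exp 2) * ρ := by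
        calc (a : ℝ) ^ 2 * t ≤ (a : ℝ) ^ 2 * (Real.exp 2 * ρ) :=
              mul_le_mul_of_nonneg_left hρt (by positivity)
          _ = _ := by ring
      exact mul_le_mul h3 (hcp.trans hcW) hcp0 (by positivity)
    refine h1.trans ?_
    have h3 : (a : ℝ) ^ 2 * Real.exp 2 ≤ (8 * Real.exp 2) ^ a := by
      have h4 := sq_mul_exp_le a (s := 2) le_rfl
      have h5 : Real.exp 2 ≤ Real.exp ((a : ℝ) * 2) := Real.exp_le_exp.2 (by linarith)
      exact (mul_le_mul_of_nonneg_left h5 (by positivity)).trans h4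
    have h6 : (0 : ℝ) ≤ ρ * Real.exp (u * W) := by positivity
    calc ((a : ℝ) ^ 2 * Real.exp 2) * ρ * Real.exp (u * W)
        = ((a : ℝ) ^ 2 * Real.exp 2) * (ρ * Real.exp (u * W)) := by ring
      _ ≤ (8 * Real.exp 2) ^ a * (Real.exp m * (ρ * Real.exp (u * W))) := by
          apply mul_le_mul h3 (le_mul_of_one_le_left h6 hexpm1) h6 hA0.le
      _ = _ := by ring

end Vale.Agent.Lib.P064
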