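import Vale.Agent.Lib.P064.Sharp

/-!
The thresholds from the sharp block count: with `p_E = n ^ (-a)` the loss per edge is `(log n) ^ a`
for every `a < 1`.
-/

open Finset

namespace Vale.Agent.Lib.P064

open scoped Classical

section Core

variable {V : Type} [Fintype V] {H : SimpleGraph V} {n : ℕ} {q : ℝ}

/-- The embedding bound with the sharp block count. -/
theorem embBound_sharp (hn : 2 ≤ n) (hV : Fintype.card V ≤ n) (hq0 : 0 < q)
    (hqe : q ≤ Real.exp (-1)) (hG : GoodDensity n q H) (hx : 2 ≤ Real.log n) :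
    EmbBound n H (256 * Real.exp 7 * q *
      Real.exp ((- Real.log q) * Real.log (2 * Real.log n + 1) / Real.log n)) := by
  intro β _ F hiso hvn
  have hn2 : (2 : ℝ) ≤ n := by exact_mod_cast hn
  have hn1 : (1 : ℝ) ≤ n := by linarith
  have hn0 : (0 : ℝ) < n := by linarith
  have hn' : 1 ≤ n := by omega
  have hq1 : q ≤ 1 := hqe.trans (by
    rw [Real.exp_le_one_iff]; norm_num)
  obtain ⟨Arc, M, c, hout, hcap, hnum, hcK⟩ := exists_orient hn' hq0 hqe hG (H := H)
  obtain ⟨x, hxdef⟩ : ∃ x, x = Real.log n := ⟨_, rfl⟩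
  rw [← hxdef] at hx hcK ⊢
  have hxpos : 0 < x := by linarith
  have h2x : 0 < 2 * x + 1 := by linarith
  obtain ⟨w, hw⟩ : ∃ w, w = Real.log (2 * x + 1) := ⟨_, rfl⟩
  have hwexp : Real.exp w = 2 * x + 1 := by
    rw [hw]
    exact Real.exp_log h2x
  have hw0 : 0 ≤ w := by
    rw [hw]
    exact Real.log_nonneg (by linarith)
  have hwx : w ≤ x := by
    rw [hw]
    apply (Real.log_le_iff_le_exp h2x).2
    have h1 := Real.quadratic_le_exp_of_nonneg hxpos.le
    nlinarith
  have hxw : x ≤ Real.exp w := by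
    rw [hwexp]
    linarith
  have hcw : (c : ℝ) ≤ Real.exp w := by
    rw [hwexp]
    exact hcK
  have hQ1 : 1 ≤ - Real.log q := by
    have := Real.log_le_log hq0 hqe
    rw [Real.log_exp] at this
    linarith
  obtain ⟨K, hKdef⟩ : ∃ K, K = Real.exp 1 * Real.exp ((- Real.log q) * w / x) := ⟨_, rfl⟩
  have hK1 : 1 ≤ K := by
    rw [hKdef]
    have h1 : (1 : ℝ) ≤ Real.exp 1 := Real.one_le_exp (by norm_num)
    have h2 : (1 : ℝ) ≤ Real.exp ((- Real.log q) * w / x) :=
      Real.one_le_exp (by positivity)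
    nlinarith
  have hK0 : (0 : ℝ) < K := by linarith
  rw [← hw]
  have h67 : Real.exp 7 = Real.exp 1 * Real.exp 6 := by
    rw [← Real.exp_add]
    norm_num
  rw [h67]
  have hmain := emb_bound_sharp (F := F) hG hq0 hq1 hn hV Arc M c hout hcap hnum hw0
    (by rw [← hxdef]; exact hwx) (by rw [← hxdef]; exact hxw) hcw (K := K)
    (by rw [← hxdef]; exact hKdef) hK1
  refine hmain.trans ?_
  set e := (eIn F univ).card with he
  set v := Fintype.card β with hv
  have hve : v ≤ 2 * e := (vertices_le_darts hiso).trans darts_card_le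
  have hnd := pow_le_exp_descFactorial hvn
  set d : ℝ := (n.descFactorial v : ℝ) with hd
  have hd0 : 0 ≤ d := Nat.cast_nonneg _
  set E := Real.exp 1 with hE
  have hE1 : 1 ≤ E := Real.one_le_exp (by norm_num)
  have h2 : Real.exp 2 = E ^ 2 := by
    rw [hE, ← Real.exp_nat_mul]
    norm_num
  have h6 : Real.exp 6 = E ^ 6 := by
    rw [hE, ← Real.exp_nat_mul]
    norm_num
  rw [h2, h6]
  have hb : (1 : ℝ) ≤ 8 * E ^ 3 := by
    have : (1 : ℝ) ≤ E ^ 3 := one_le_pow₀ hE1
    linarith
  have hpow : (8 * E ^ 3) ^ v ≤ (8 * E ^ 3) ^ (2 * e) := pow_le_pow_right₀ hb hve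
  have e0 : (0 : ℝ) ≤ E := by linarith
  have hKK : E * E ^ 6 * q * Real.exp ((- Real.log q) * w / x) = E ^ 6 * K * q := by
    rw [hKdef]
    ring
  calc 4 ^ e * ((8 * E ^ 2) ^ v * K ^ e * ((n : ℝ) ^ v * q ^ e))
      ≤ 4 ^ e * ((8 * E ^ 2) ^ v * K ^ e * ((E ^ v * d) * q ^ e)) := by
        gcongr
    _ = (8 * E ^ 3) ^ v * (4 ^ e * K ^ e * q ^ e * d) := by
        have : (8 * E ^ 3) ^ v = (8 * E ^ 2) ^ v * E ^ v := by
          rw [← mul_pow]
          ring_nf
        rw [this]
        ring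
    _ ≤ (8 * E ^ 3) ^ (2 * e) * (4 ^ e * K ^ e * q ^ e * d) := by
        gcongr
    _ = (256 * E ^ 6 * K * q) ^ e * d := by
        have h8 : (256 * E ^ 6 * K * q) ^ e =
            (8 * E ^ 3) ^ (2 * e) * 4 ^ e * K ^ e * q ^ e := by
          rw [pow_mul (8 * E ^ 3) 2 e, ← mul_pow, ← mul_pow, ← mul_pow]
          congr 1
          ring
        rw [h8]
        ring
    _ = _ := by
        congr 2
        have : 256 * (E * E ^ 6) * q * Real.exp ((- Real.log q) * w / x) =
            256 * (E * E ^ 6 * q * Real.exp ((- Real.log q) * w / x)) := by ring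
        rw [this, hKK]
        ring

/-- The constant of the sharp bound. -/
noncomputable def sharpConst : ℝ := 2048 * Real.exp 7

/-- The core dichotomy for the sharp bound. -/
theorem sharp_core (hn : 2 ≤ n) (hV : Fintype.card V ≤ n) (hH : H ≠ ⊥)
    (hx : 100 ≤ Real.log n) (hQ : Real.log (1 / pE n H) < Real.log n) :
    1 ≤ 4 * Real.exp 1 * pE n H ∨
      ∃ Θ : ℝ, 0 < Θ ∧ EmbBound n H Θ ∧
        Θ ≤ sharpConst * pE n H * (1 + Real.log n) ^ (Real.log (1 / pE n H) / Real.log n) := by
  obtain ⟨ι⟩ : Nonempty (V ↪ Fin n) :=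
    Function.Embedding.nonempty_of_card_le (by simpa using hV)
  have hE0 := pE_pos hn hV hH
  have hlt : pE n H < 2 * pE n H := by linarith
  obtain ⟨p, ⟨h0, h1, hp⟩, hp2⟩ := exists_lt_of_csInf_lt (pE_set_nonempty (H := H) ι) hlt
  have hpE : pE n H ≤ p := csInf_le ⟨0, fun _ hy => hy.1⟩ ⟨h0, h1, hp⟩
  have hp0 : 0 < p := by linarith
  set q := 2 * p with hq
  have hq0 : 0 < q := by positivity
  have hq4 : q ≤ 4 * pE n H := by linarith
  by_cases hqe : Real.exp (-1) < q
  · left
    have h2 : Real.exp (-1) * Real.exp 1 = 1 := by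
      rw [← Real.exp_add]
      simp
    have h3 : 0 < Real.exp 1 := Real.exp_pos _
    calc (1 : ℝ) = Real.exp (-1) * Real.exp 1 := h2.symm
      _ ≤ q * Real.exp 1 := mul_le_mul_of_nonneg_right hqe.le h3.le
      _ ≤ (4 * pE n H) * Real.exp 1 := mul_le_mul_of_nonneg_right hq4 h3.le
      _ = _ := by ring
  · right
    push Not at hqe
    have hG : GoodDensity n q H := good_of_subgraphs h0 h1 hp
    have hlog : - Real.log q ≤ Real.log (1 / pE n H) := by
      rw [one_div, Real.log_inv]
      have : Real.log (pE n H) ≤ Real.log q := Real.log_le_log hE0 (by linarith)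
      linarith
    have hQ1 : 1 ≤ - Real.log q := by
      have := Real.log_le_log hq0 hqe
      rw [Real.log_exp] at this
      linarith
    have hE := embBound_sharp hn hV hq0 hqe hG (by linarith)
    refine ⟨_, by positivity, hE, ?_⟩
    obtain ⟨x, hxdef⟩ : ∃ x, x = Real.log n := ⟨_, rfl⟩
    obtain ⟨Q, hQdef⟩ : ∃ Q, Q = Real.log (1 / pE n H) := ⟨_, rfl⟩
    rw [← hxdef] at hx hQ ⊢
    rw [← hQdef] at hQ hlog ⊢
    have hxpos : 0 < x := by linarith
    have hℓ : 0 < 1 + x := by linarith
    have hy0 : 0 ≤ Real.log (1 + x) := Real.log_nonneg (by linarith)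
    have hQ0 : 0 ≤ Q := by linarith
    have hz0 : 0 ≤ Q / x := by positivity
    have hz1 : Q / x ≤ 1 := by
      rw [div_le_one hxpos]
      exact hQ.le
    have hw : Real.log (2 * x + 1) ≤ Real.log 2 + Real.log (1 + x) := by
      rw [← Real.log_mul (by norm_num) (by linarith)]
      exact Real.log_le_log (by linarith) (by linarith)
    have hw0 : 0 ≤ Real.log (2 * x + 1) := Real.log_nonneg (by linarith)
    have hlog2 : 0 ≤ Real.log 2 := Real.log_nonneg (by norm_num)
    have hexp : Real.exp ((- Real.log q) * Real.log (2 * x + 1) / x) ≤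
        2 * (1 + x) ^ (Q / x) := by
      have h1 : (- Real.log q) * Real.log (2 * x + 1) / x ≤
          Real.log 2 + Real.log (1 + x) * (Q / x) := by
        have h2 : (- Real.log q) * Real.log (2 * x + 1) / x =
            (- Real.log q / x) * Real.log (2 * x + 1) := by ring
        rw [h2]
        have h3 : - Real.log q / x ≤ Q / x := div_le_div_of_nonneg_right hlog hxpos.le
        have h4 : (- Real.log q / x) * Real.log (2 * x + 1) ≤
            (Q / x) * (Real.log 2 + Real.log (1 + x)) :=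
          mul_le_mul h3 hw hw0 hz0
        have h5 : (Q / x) * Real.log 2 ≤ 1 * Real.log 2 := mul_le_mul_of_nonneg_right hz1 hlog2
        nlinarith
      calc Real.exp ((- Real.log q) * Real.log (2 * x + 1) / x)
          ≤ Real.exp (Real.log 2 + Real.log (1 + x) * (Q / x)) := Real.exp_le_exp.2 h1
        _ = 2 * (1 + x) ^ (Q / x) := by
            rw [Real.exp_add, Real.exp_log (by norm_num), Real.rpow_def_of_pos hℓ]
    have hpow0 : 0 ≤ (1 + x) ^ (Q / x) := by positivity
    unfold sharpConst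
    calc 256 * Real.exp 7 * q * Real.exp ((- Real.log q) * Real.log (2 * x + 1) / x)
        ≤ 256 * Real.exp 7 * (4 * pE n H) * (2 * (1 + x) ^ (Q / x)) := by
          apply mul_le_mul _ hexp (Real.exp_pos _).le (by positivity)
          exact mul_le_mul_of_nonneg_left hq4 (by positivity)
      _ = _ := by ring

end Core

/-- `p_c(n,H) ≤ C p_E log n (1 + log n)^min(1, log(1/p_E)/log n)`. -/
theorem pc_le_pE_sharp :
    ∃ C : ℝ, 0 < C ∧ ∀ n : ℕ, 2 ≤ n → ∀ (V : Type) [Fintype V] (H : SimpleGraph V),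
      Fintype.card V ≤ n → H ≠ ⊥ →
      pc n H ≤ C * pE n H * Real.log n *
        (1 + Real.log n) ^ (min 1 (Real.log (1 / pE n H) / Real.log n)) := by
  obtain ⟨C₀, hC₀, hmain⟩ := pc_le_pE_log_sq
  refine ⟨100 * C₀ + C₀ + 8 * Real.exp 1 + 512 * sharpConst, ?_, ?_⟩
  · unfold sharpConst
    positivity
  intro n hn V _ H hV hH
  have hn2 : (2 : ℝ) ≤ n := by exact_mod_cast hn
  have hx : 0 < Real.log n := Real.log_pos (by linarith)
  have hx12 : 1 / 2 ≤ Real.log n := by
    have h1 : Real.log 2 ≤ Real.log n := Real.log_le_log (by norm_num) hn2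
    have h2 := Real.log_two_gt_d9
    linarith
  have hE0 := pE_pos hn hV hH
  have hE1 : pE n H ≤ 1 := pE_le_one hV
  have hQ0 : 0 ≤ Real.log (1 / pE n H) := by
    rw [one_div]
    exact Real.log_nonneg (by rw [one_le_inv₀ hE0]; exact hE1)
  set z := Real.log (1 / pE n H) / Real.log n with hz
  have hz0 : 0 ≤ z := by positivity
  have hF := peel_factor_ge_one hx hz0
  set P := pE n H * Real.log n * (1 + Real.log n) ^ (min 1 z) with hP
  have hP0 : 0 ≤ P := by positivity
  have hgoal : (100 * C₀ + C₀ + 8 * Real.exp 1 + 512 * sharpConst) * pE n H * Real.log n *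
      (1 + Real.log n) ^ (min 1 z) = (100 * C₀ + C₀ + 8 * Real.exp 1 + 512 * sharpConst) * P := by
    rw [hP]
    ring
  rw [hgoal]
  have he0 : 0 ≤ Real.exp 1 := (Real.exp_pos _).le
  have hd0 : 0 ≤ sharpConst := by
    unfold sharpConst
    positivity
  have hPx : pE n H * Real.log n ≤ P := by
    have h1 : 0 ≤ pE n H * Real.log n := by positivity
    rw [hP]
    nlinarith
  have hA := hmain n hn V H hV hH
  by_cases hc1 : Real.log n < 100
  · -- small `n`
    have h1 : pE n H * Real.log n ^ 2 ≤ 100 * (pE n H * Real.log n) := by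
      have : Real.log n ^ 2 ≤ 100 * Real.log n := by nlinarith
      nlinarith
    have h2 : C₀ * pE n H * Real.log n ^ 2 ≤ C₀ * (100 * P) := by
      calc C₀ * pE n H * Real.log n ^ 2 = C₀ * (pE n H * Real.log n ^ 2) := by ring
        _ ≤ C₀ * (100 * P) := by
            apply mul_le_mul_of_nonneg_left _ hC₀.le
            linarith
    have h3 : 0 ≤ C₀ * P := by positivity
    have h4 : 0 ≤ Real.exp 1 * P := by positivity
    have h5 : 0 ≤ sharpConst * P := by positivity
    nlinarith
  push Not at hc1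
  by_cases hc2 : 1 ≤ z
  · -- the exponent is `1`
    have h1 : min 1 z = 1 := min_eq_left hc2
    have hP2 : pE n H * Real.log n ^ 2 ≤ P := by
      rw [hP, h1, Real.rpow_one]
      have : Real.log n ^ 2 ≤ Real.log n * (1 + Real.log n) := by nlinarith
      have h2 : pE n H * Real.log n ^ 2 ≤ pE n H * (Real.log n * (1 + Real.log n)) :=
        mul_le_mul_of_nonneg_left this hE0.le
      calc _ ≤ _ := h2
        _ = _ := by ring
    have h2 : C₀ * pE n H * Real.log n ^ 2 ≤ C₀ * P := by
      calc C₀ * pE n H * Real.log n ^ 2 = C₀ * (pE n H * Real.log n ^ 2) := by ring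
        _ ≤ C₀ * P := mul_le_mul_of_nonneg_left hP2 hC₀.le
    have h3 : 0 ≤ C₀ * P := by positivity
    have h4 : 0 ≤ Real.exp 1 * P := by positivity
    have h5 : 0 ≤ sharpConst * P := by positivity
    nlinarith
  push Not at hc2
  have hQ : Real.log (1 / pE n H) < Real.log n := by
    rw [hz, div_lt_one hx] at hc2
    exact hc2
  have hmz : min 1 z = z := min_eq_right hc2.le
  rcases sharp_core hn hV hH hc1 hQ with h | ⟨Θ, hΘ0, hΘ, hΘle⟩
  · -- `p_E` is large
    have h1 := pc_le_one (n := n) (H := H) hV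
    have hxx : (1 : ℝ) ≤ Real.log n := by linarith
    have h2 : pE n H ≤ pE n H * Real.log n := by nlinarith
    have h3 : 1 ≤ 4 * Real.exp 1 * P := by
      calc (1 : ℝ) ≤ 4 * Real.exp 1 * pE n H := h
        _ ≤ 4 * Real.exp 1 * P := mul_le_mul_of_nonneg_left (h2.trans hPx) (by positivity)
    have h4 : 0 ≤ C₀ * P := by positivity
    have h5 : 0 ≤ Real.exp 1 * P := by positivity
    have h6 : 0 ≤ sharpConst * P := by positivity
    nlinarith
  · have h1 := pc_le_of_embBound hn hV hH hΘ0 hΘ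
    have h2 : 512 * Real.log n * Θ ≤ 512 * sharpConst * P := by
      have h3 : 512 * Real.log n * Θ ≤
          512 * Real.log n * (sharpConst * pE n H * (1 + Real.log n) ^ z) :=
        mul_le_mul_of_nonneg_left hΘle (by positivity)
      refine h3.trans (le_of_eq ?_)
      rw [hP, hmz]
      ring
    have h4 : 0 ≤ C₀ * P := by positivity
    have h5 : 0 ≤ Real.exp 1 * P := by positivity
    nlinarith

/-- `tilde p_E(n,H) ≤ C p_E (1 + log n)^min(1, log(1/p_E)/log n)`. -/
theorem pTilde_le_pE_sharp :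
    ∃ C : ℝ, 0 < C ∧ ∀ n : ℕ, 2 ≤ n → ∀ (V : Type) [Fintype V] (H : SimpleGraph V),
      Fintype.card V ≤ n → H ≠ ⊥ →
      pTilde n H ≤ C * pE n H *
        (1 + Real.log n) ^ (min 1 (Real.log (1 / pE n H) / Real.log n)) := by
  obtain ⟨C₀, hC₀, hmain⟩ := pTilde_le_pE_log
  refine ⟨100 * C₀ + C₀ + 8 * Real.exp 1 + sharpConst, ?_, ?_⟩
  · unfold sharpConst
    positivity
  intro n hn V _ H hV hH
  have hn2 : (2 : ℝ) ≤ n := by exact_mod_cast hn
  have hx : 0 < Real.log n := Real.log_pos (by linarith)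
  have hE0 := pE_pos hn hV hH
  have hE1 : pE n H ≤ 1 := pE_le_one hV
  have hQ0 : 0 ≤ Real.log (1 / pE n H) := by
    rw [one_div]
    exact Real.log_nonneg (by rw [one_le_inv₀ hE0]; exact hE1)
  set z := Real.log (1 / pE n H) / Real.log n with hz
  have hz0 : 0 ≤ z := by positivity
  have hF := peel_factor_ge_one hx hz0
  set P := pE n H * (1 + Real.log n) ^ (min 1 z) with hP
  have hP0 : 0 ≤ P := by positivity
  have hgoal : (100 * C₀ + C₀ + 8 * Real.exp 1 + sharpConst) * pE n H *
      (1 + Real.log n) ^ (min 1 z) = (100 * C₀ + C₀ + 8 * Real.exp 1 + sharpConst) * P := by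
    rw [hP]
    ring
  rw [hgoal]
  have hd0 : 0 ≤ sharpConst := by
    unfold sharpConst
    positivity
  have hPx : pE n H ≤ P := by
    rw [hP]
    nlinarith
  have hA := hmain n hn V H hV hH
  have h4 : 0 ≤ C₀ * P := by positivity
  have h5 : 0 ≤ Real.exp 1 * P := by positivity
  have h6 : 0 ≤ sharpConst * P := by positivity
  by_cases hc1 : Real.log n < 100
  · have h2 : C₀ * pE n H * Real.log n ≤ C₀ * (100 * P) := by
      have h3 : pE n H * Real.log n ≤ 100 * P := by nlinarith
      calc C₀ * pE n H * Real.log n = C₀ * (pE n H * Real.log n) := by ring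
        _ ≤ C₀ * (100 * P) := mul_le_mul_of_nonneg_left h3 hC₀.le
    nlinarith
  push Not at hc1
  by_cases hc2 : 1 ≤ z
  · have h1 : min 1 z = 1 := min_eq_left hc2
    have hP2 : pE n H * Real.log n ≤ P := by
      rw [hP, h1, Real.rpow_one]
      exact mul_le_mul_of_nonneg_left (by linarith) hE0.le
    have h2 : C₀ * pE n H * Real.log n ≤ C₀ * P := by
      calc C₀ * pE n H * Real.log n = C₀ * (pE n H * Real.log n) := by ring
        _ ≤ C₀ * P := mul_le_mul_of_nonneg_left hP2 hC₀.le
    nlinarith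
  push Not at hc2
  have hQ : Real.log (1 / pE n H) < Real.log n := by
    rw [hz, div_lt_one hx] at hc2
    exact hc2
  have hmz : min 1 z = z := min_eq_right hc2.le
  rcases sharp_core hn hV hH hc1 hQ with h | ⟨Θ, hΘ0, hΘ, hΘle⟩
  · have h1 := pTilde_le_one (n := n) (H := H) hV
    have h3 : 1 ≤ 4 * Real.exp 1 * P := by
      calc (1 : ℝ) ≤ 4 * Real.exp 1 * pE n H := h
        _ ≤ 4 * Real.exp 1 * P := mul_le_mul_of_nonneg_left hPx (by positivity)
    nlinarith
  · have h1 := pTilde_le_of_embBound hV hΘ0 hΘ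
    have h2 : Θ ≤ sharpConst * P := by
      refine hΘle.trans (le_of_eq ?_)
      rw [hP, hmz]
      ring
    nlinarith


end Vale.Agent.Lib.P064
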